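import Mathlib

/-!
# P317R: iterated directional derivatives of set functions (basics)

`dd c w S = ∑_{g ∉ S} c g * w (S + g)`; all mixed discriminant type forms
`F_S(c₁,…,c_k)` are iterated `dd`.
-/

namespace Vale.Agent.P317R

open Finset

section dd

variable {V : Type*} [Fintype V] [DecidableEq V]

/-- directional derivative of a set function -/
def dd (c : V → ℝ) (w : Finset V → ℝ) (S : Finset V) : ℝ :=
  ∑ g, if g ∈ S then 0 else c g * w (insert g S)

/-- iterated directional derivative -/
def dds (cs : List (V → ℝ)) (w : Finset V → ℝ) : Finset V → ℝ := cs.foldr dd w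

@[simp] theorem dds_nil (w : Finset V → ℝ) : dds [] w = w := rfl

@[simp] theorem dds_cons (c : V → ℝ) (cs : List (V → ℝ)) (w : Finset V → ℝ) :
    dds (c :: cs) w = dd c (dds cs w) := rfl

theorem dds_append (cs ds : List (V → ℝ)) (w : Finset V → ℝ) :
    dds (cs ++ ds) w = dds cs (dds ds w) := by
  simp [dds, List.foldr_append]

theorem dd_comm (c d : V → ℝ) (w : Finset V → ℝ) : dd c (dd d w) = dd d (dd c w) := by
  funext S
  unfold dd
  have h1 : ∀ c d : V → ℝ, (∑ g, if g ∈ S then 0 else
      c g * ∑ h, if h ∈ insert g S then 0 else d h * w (insert h (insert g S))) =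
      ∑ g, ∑ h, if g ∈ S ∨ h ∈ S ∨ g = h then 0 else c g * d h * w (insert h (insert g S)) := by
    intro c d
    refine sum_congr rfl fun g _ => ?_
    by_cases hg : g ∈ S
    · simp [hg]
    · rw [if_neg hg, mul_sum]
      refine sum_congr rfl fun h _ => ?_
      by_cases hh : h ∈ S
      · simp [hh]
      · by_cases e : g = h
        · subst e; simp
        · have : h ∉ insert g S := by
            simp only [mem_insert, not_or]
            exact ⟨fun h' => e h'.symm, hh⟩
          simp only [this, hg, hh, e, if_false, or_self]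
          ring
  rw [h1, h1, sum_comm]
  refine sum_congr rfl fun g _ => sum_congr rfl fun h _ => ?_
  by_cases hg : g ∈ S
  · simp [hg]
  by_cases hh : h ∈ S
  · simp [hh]
  by_cases e : g = h
  · simp [e]
  · have e' : ¬ h = g := fun h' => e h'.symm
    simp only [hg, hh, e, e', or_self, if_false]
    rw [Finset.insert_comm]; ring

theorem dd_dds (c : V → ℝ) (cs : List (V → ℝ)) (w : Finset V → ℝ) :
    dd c (dds cs w) = dds cs (dd c w) := by
  induction cs with
  | nil => rfl
  | cons d cs ih => rw [dds_cons, dds_cons, dd_comm, ih]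

theorem dds_perm {cs ds : List (V → ℝ)} (h : cs.Perm ds) (w : Finset V → ℝ) :
    dds cs w = dds ds w := by
  induction h with
  | nil => rfl
  | cons c _ ih => simp [ih]
  | swap c d l => simp [dd_comm]
  | trans _ _ ih1 ih2 => exact ih1.trans ih2

/-! linearity in the function -/

theorem dd_add_fun (c : V → ℝ) (w w' : Finset V → ℝ) (S : Finset V) :
    dd c (fun S => w S + w' S) S = dd c w S + dd c w' S := by
  unfold dd
  rw [← sum_add_distrib]
  refine sum_congr rfl fun g _ => ?_
  split_ifs
  · ring
  · ring

theorem dd_smul_fun (c : V → ℝ) (a : ℝ) (w : Finset V → ℝ) (S : Finset V) :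
    dd c (fun S => a * w S) S = a * dd c w S := by
  unfold dd
  rw [mul_sum]
  refine sum_congr rfl fun g _ => ?_
  split_ifs
  · ring
  · ring

theorem dds_add_fun (cs : List (V → ℝ)) (w w' : Finset V → ℝ) (S : Finset V) :
    dds cs (fun S => w S + w' S) S = dds cs w S + dds cs w' S := by
  induction cs generalizing S with
  | nil => rfl
  | cons c cs ih =>
    simp only [dds_cons]
    rw [← dd_add_fun]
    congr 1
    funext S
    exact ih S

theorem dds_smul_fun (cs : List (V → ℝ)) (a : ℝ) (w : Finset V → ℝ) (S : Finset V) :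
    dds cs (fun S => a * w S) S = a * dds cs w S := by
  induction cs generalizing S with
  | nil => rfl
  | cons c cs ih =>
    simp only [dds_cons]
    rw [← dd_smul_fun]
    congr 1
    funext S
    exact ih S

/-! linearity in the direction -/

theorem dd_add (c d : V → ℝ) (w : Finset V → ℝ) (S : Finset V) :
    dd (fun g => c g + d g) w S = dd c w S + dd d w S := by
  unfold dd
  rw [← sum_add_distrib]
  refine sum_congr rfl fun g _ => ?_
  split_ifs
  · ring
  · ring

theorem dd_smul (a : ℝ) (c : V → ℝ) (w : Finset V → ℝ) (S : Finset V) :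
    dd (fun g => a * c g) w S = a * dd c w S := by
  unfold dd
  rw [mul_sum]
  refine sum_congr rfl fun g _ => ?_
  split_ifs
  · ring
  · ring

/-- unit vector -/
def ev (a : V) : V → ℝ := fun g => if g = a then 1 else 0

theorem dd_ev (a : V) (w : Finset V → ℝ) (S : Finset V) :
    dd (ev a) w S = if a ∈ S then 0 else w (insert a S) := by
  unfold dd ev
  rw [Finset.sum_eq_single a]
  · simp
  · intro b _ hb
    simp [hb]
  · intro h; exact absurd (mem_univ a) h

theorem dd_eq_sum_ev (c : V → ℝ) (w : Finset V → ℝ) (S : Finset V) :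
    dd c w S = ∑ g, c g * dd (ev g) w S := by
  simp only [dd_ev]
  unfold dd
  refine sum_congr rfl fun g _ => ?_
  split_ifs
  · ring
  · ring

/-! positivity -/

theorem dd_nonneg {c : V → ℝ} {w : Finset V → ℝ} (hc : ∀ g, 0 ≤ c g) {S : Finset V}
    (hw : ∀ g, g ∉ S → 0 ≤ w (insert g S)) : 0 ≤ dd c w S := by
  unfold dd
  refine sum_nonneg fun g _ => ?_
  split_ifs with h
  · exact le_rfl
  · exact mul_nonneg (hc g) (hw g h)

theorem dds_nonneg {cs : List (V → ℝ)} {w : Finset V → ℝ} (hc : ∀ c ∈ cs, ∀ g, 0 ≤ c g)
    (hw : ∀ S, 0 ≤ w S) (S : Finset V) : 0 ≤ dds cs w S := by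
  induction cs generalizing S with
  | nil => exact hw S
  | cons c cs ih =>
    simp only [dds_cons]
    exact dd_nonneg (hc c (by simp)) fun g _ => ih (fun d hd => hc d (by simp [hd])) _

theorem dd_pos {c : V → ℝ} {w : Finset V → ℝ} (hc : ∀ g, 0 ≤ c g) {S : Finset V}
    (hw : ∀ g, g ∉ S → 0 ≤ w (insert g S)) {a : V} (ha : a ∉ S) (hca : 0 < c a)
    (hwa : 0 < w (insert a S)) : 0 < dd c w S := by
  unfold dd
  refine lt_of_lt_of_le (mul_pos hca hwa) ?_
  have : c a * w (insert a S) = if a ∈ S then 0 else c a * w (insert a S) := by simp [ha]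
  rw [this]
  refine single_le_sum (f := fun g => if g ∈ S then 0 else c g * w (insert g S))
    (fun g _ => ?_) (mem_univ a)
  show 0 ≤ if g ∈ S then 0 else c g * w (insert g S)
  split_ifs with h
  · exact le_rfl
  · exact mul_nonneg (hc g) (hw g h)

theorem dds_pos {cs : List (V → ℝ)} {w : Finset V → ℝ} (hc : ∀ c ∈ cs, ∀ g, 0 < c g)
    (hw : ∀ S, 0 < w S) (S : Finset V) (hS : S.card + cs.length ≤ Fintype.card V) :
    0 < dds cs w S := by
  induction cs generalizing S with
  | nil => exact hw S
  | cons c cs ih =>
    simp only [dds_cons]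
    have h1 : S.card < Fintype.card V := by
      simp only [List.length_cons] at hS; omega
    obtain ⟨a, ha⟩ : ∃ a, a ∉ S := by
      by_contra hcon
      push Not at hcon
      have : S = univ := eq_univ_of_forall hcon
      rw [this, card_univ] at h1
      exact lt_irrefl _ h1
    refine dd_pos (fun g => (hc c (by simp) g).le)
      (fun g _ => dds_nonneg (fun d hd g => (hc d (by simp [hd]) g).le) (fun S => (hw S).le) _)
      ha (hc c (by simp) a) ?_
    refine ih (fun d hd => hc d (by simp [hd])) _ ?_
    rw [card_insert_of_notMem ha]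
    simp only [List.length_cons] at hS; omega

theorem dds_eq_zero {cs : List (V → ℝ)} {w : Finset V → ℝ} (S : Finset V)
    (hS : Fintype.card V < S.card + cs.length) : dds cs w S = 0 := by
  induction cs generalizing S with
  | nil =>
    exfalso
    have := card_le_univ S
    simp at hS; omega
  | cons c cs ih =>
    simp only [dds_cons]
    unfold dd
    refine sum_eq_zero fun g _ => ?_
    split_ifs with h
    · rfl
    · rw [ih, mul_zero]
      rw [card_insert_of_notMem h]
      simp only [List.length_cons] at hS; omega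

end dd

end Vale.Agent.P317R
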