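import Mathlib

/-!
# P317R: the Perron / Bochner lemma

MODULE AF1a.
Proof of `bochner`: put `m i = p i / c i = (d i)^2`, `S i j = H i j / (d i * d j)`, and take an
orthonormal eigenbasis of `S`. For an eigenvector `e` with eigenvalue `μ`, `v i = e i / d i`
satisfies `H v = μ m v`, so `hB` gives `μ ≤ μ²`; and
`∑ m i (v i)^2 - Hq v = 1/2 ∑ᵢ∑ⱼ H i j c i c j (v i / c i - v j / c j)^2 ≥ 0` with equality only if
`v i / c i` is constant. So `μ > 0` forces `v = t c`, which is orthogonal to everything with
`∑ p i v i = 0`.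
-/

namespace Vale.Agent.P317R

open Finset

theorem spectral_real {ι : Type*} [Fintype ι] [DecidableEq ι] (S : ι → ι → ℝ)
    (hs : ∀ i j, S i j = S j i) :
    ∃ (E : ι → ι → ℝ) (l : ι → ℝ), (∀ k, ∑ i, E k i * E k i = 1) ∧
      (∀ k i, ∑ j, S i j * E k j = l k * E k i) ∧
      (∀ (y : ι → ℝ), ∑ i, ∑ j, y i * S i j * y j = ∑ k, l k * (∑ j, E k j * y j) ^ 2) := by
  have hA : (Matrix.of S).IsHermitian := by
    ext i j
    simp [Matrix.conjTranspose_apply, hs i j]
  refine ⟨fun k i => hA.eigenvectorBasis k i, hA.eigenvalues, ?_, ?_, ?_⟩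
  · intro k
    have h1 : inner ℝ (hA.eigenvectorBasis k) (hA.eigenvectorBasis k) = 1 := by
      rw [real_inner_self_eq_norm_sq, hA.eigenvectorBasis.norm_eq_one]; norm_num
    rw [PiLp.inner_apply] at h1
    rw [← h1]
    refine Finset.sum_congr rfl fun i _ => ?_
    simp [sq]
  · intro k i
    have h2 := congrFun (hA.mulVec_eigenvectorBasis k) i
    simpa [Matrix.mulVec, dotProduct] using h2
  · intro y
    have h2 : ∀ k i, ∑ j, S i j * hA.eigenvectorBasis k j =
        hA.eigenvalues k * hA.eigenvectorBasis k i := by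
      intro k i
      have h2 := congrFun (hA.mulVec_eigenvectorBasis k) i
      simpa [Matrix.mulVec, dotProduct] using h2
    have h3 : ∀ j, y j = ∑ k, (∑ i, hA.eigenvectorBasis k i * y i) * hA.eigenvectorBasis k j := by
      intro j
      have h4 := hA.eigenvectorBasis.sum_repr' (WithLp.toLp 2 y)
      have h5 := congrArg (fun z : EuclideanSpace ℝ ι => z j) h4
      simp only [PiLp.inner_apply, WithLp.ofLp_sum, WithLp.ofLp_smul, Finset.sum_apply,
        Pi.smul_apply, smul_eq_mul] at h5
      rw [← h5]
      refine Finset.sum_congr rfl fun k _ => ?_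
      congr 1
      refine Finset.sum_congr rfl fun i _ => ?_
      simp [mul_comm]
    calc ∑ i, ∑ j, y i * S i j * y j = ∑ i, y i * ∑ j, S i j * y j := by
          refine Finset.sum_congr rfl fun i _ => ?_
          rw [Finset.mul_sum]
          exact Finset.sum_congr rfl fun j _ => by ring
      _ = ∑ i, y i * ∑ k, (∑ j, hA.eigenvectorBasis k j * y j) *
            (hA.eigenvalues k * hA.eigenvectorBasis k i) := by
          refine Finset.sum_congr rfl fun i _ => ?_
          congr 1
          have h6 : ∑ j, S i j * y j = ∑ j, S i j *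
              ∑ k, (∑ i, hA.eigenvectorBasis k i * y i) * hA.eigenvectorBasis k j :=
            Finset.sum_congr rfl fun j _ => by rw [← h3 j]
          rw [h6]
          simp_rw [Finset.mul_sum]
          rw [Finset.sum_comm]
          refine Finset.sum_congr rfl fun k _ => ?_
          rw [← h2 k i, Finset.mul_sum]
          exact Finset.sum_congr rfl fun j _ => by ring
      _ = ∑ k, hA.eigenvalues k * (∑ j, hA.eigenvectorBasis k j * y j) ^ 2 := by
          simp_rw [Finset.mul_sum]
          rw [Finset.sum_comm]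
          refine Finset.sum_congr rfl fun k _ => ?_
          rw [sq, ← mul_assoc, Finset.mul_sum]
          exact Finset.sum_congr rfl fun j _ => by ring

theorem bochner {ι : Type*} [Fintype ι] [DecidableEq ι] (H : ι → ι → ℝ)
    (hs : ∀ i j, H i j = H j i) (hpos : ∀ i j, i ≠ j → 0 < H i j)
    (c p : ι → ℝ) (hc : ∀ i, 0 < c i) (hp : ∀ i, p i = ∑ j, H i j * c j)
    (hpp : ∀ i, 0 < p i)
    (hB : ∀ v : ι → ℝ, ∑ i, ∑ j, v i * H i j * v j ≤ ∑ i, c i / p i * (∑ j, H i j * v j) ^ 2)
    (v : ι → ℝ) (hv : ∑ i, p i * v i = 0) : ∑ i, ∑ j, v i * H i j * v j ≤ 0 := by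
  obtain ⟨d, hd⟩ : ∃ d : ι → ℝ, ∀ i, d i = Real.sqrt (p i / c i) := ⟨_, fun _ => rfl⟩
  have hd0 : ∀ i, 0 < d i := fun i => by
    rw [hd]; exact Real.sqrt_pos.2 (div_pos (hpp i) (hc i))
  have hd2 : ∀ i, d i ^ 2 = p i / c i := fun i => by
    rw [hd]; exact Real.sq_sqrt (div_pos (hpp i) (hc i)).le
  have hdc : ∀ i, d i ^ 2 * c i = p i := fun i => by
    rw [hd2]; exact div_mul_cancel₀ _ (hc i).ne'
  obtain ⟨E, l, hE1, hE2, hE3⟩ := spectral_real (fun i j => H i j / (d i * d j))
    (fun i j => by rw [hs i j, mul_comm (d i)])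
  have hkey : ∀ k, 0 < l k → ∃ t : ℝ, ∀ i, E k i = t * (d i * c i) := by
    intro k hk
    obtain ⟨u, hu⟩ : ∃ u : ι → ℝ, ∀ i, u i = E k i / d i := ⟨_, fun _ => rfl⟩
    have hEu : ∀ i, E k i = d i * u i := fun i => by
      rw [hu, mul_div_cancel₀ _ (hd0 i).ne']
    have hHu : ∀ i, ∑ j, H i j * u j = l k * (d i ^ 2 * u i) := by
      intro i
      have h1 := hE2 k i
      have h2 : ∑ j, H i j * u j = d i * ∑ j, H i j / (d i * d j) * E k j := by
        rw [Finset.mul_sum]
        refine Finset.sum_congr rfl fun j _ => ?_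
        rw [hEu j]
        have := (hd0 i).ne'
        have := (hd0 j).ne'
        field_simp
      rw [h2, h1, hEu i]; ring
    have hnorm : ∑ i, d i ^ 2 * u i ^ 2 = 1 := by
      rw [← hE1 k]
      refine Finset.sum_congr rfl fun i _ => ?_
      rw [hEu i]; ring
    have hq : ∑ i, ∑ j, u i * H i j * u j = l k := by
      have : ∑ i, ∑ j, u i * H i j * u j = ∑ i, l k * (d i ^ 2 * u i ^ 2) := by
        refine Finset.sum_congr rfl fun i _ => ?_
        have h1 : ∑ j, u i * H i j * u j = u i * ∑ j, H i j * u j := by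
          rw [Finset.mul_sum]
          exact Finset.sum_congr rfl fun j _ => by ring
        rw [h1, hHu i]; ring
      rw [this, ← Finset.mul_sum, hnorm, mul_one]
    have hB1 : l k ≤ l k ^ 2 := by
      have h1 := hB u
      rw [hq] at h1
      have h2 : ∑ i, c i / p i * (∑ j, H i j * u j) ^ 2 = ∑ i, l k ^ 2 * (d i ^ 2 * u i ^ 2) := by
        refine Finset.sum_congr rfl fun i _ => ?_
        rw [hHu i]
        have h3 : c i / p i * d i ^ 2 = 1 := by
          rw [hd2]
          have := (hc i).ne'
          have := (hpp i).ne'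
          field_simp
        calc c i / p i * (l k * (d i ^ 2 * u i)) ^ 2 =
            (c i / p i * d i ^ 2) * (l k ^ 2 * (d i ^ 2 * u i ^ 2)) := by ring
          _ = l k ^ 2 * (d i ^ 2 * u i ^ 2) := by rw [h3, one_mul]
      rw [h2, ← Finset.mul_sum, hnorm, mul_one] at h1
      exact h1
    have hl1 : 1 ≤ l k := by
      by_contra hcon
      push Not at hcon
      nlinarith
    have hlap : ∑ i, ∑ j, H i j * c i * c j * (u i / c i - u j / c j) ^ 2 = 2 * (1 - l k) := by
      have h1 : ∀ i j, H i j * c i * c j * (u i / c i - u j / c j) ^ 2 =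
          H i j * c j * (u i ^ 2 / c i) + H i j * c i * (u j ^ 2 / c j) -
            2 * (u i * H i j * u j) := by
        intro i j
        have := (hc i).ne'
        have := (hc j).ne'
        field_simp
        ring
      simp_rw [h1]
      simp_rw [Finset.sum_sub_distrib, Finset.sum_add_distrib]
      have h2 : ∑ i, ∑ j, H i j * c j * (u i ^ 2 / c i) = 1 := by
        rw [← hnorm]
        refine Finset.sum_congr rfl fun i _ => ?_
        rw [← Finset.sum_mul, ← hp i, hd2]
        ring
      have h3 : ∑ i, ∑ j, H i j * c i * (u j ^ 2 / c j) = 1 := by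
        rw [Finset.sum_comm, ← h2]
        refine Finset.sum_congr rfl fun i _ => Finset.sum_congr rfl fun j _ => ?_
        rw [hs j i]
      have h4 : ∑ i, ∑ j, 2 * (u i * H i j * u j) = 2 * l k := by
        simp_rw [← Finset.mul_sum]
        rw [hq]
      rw [h2, h3, h4]; ring
    have hterm : ∀ i j, 0 ≤ H i j * c i * c j * (u i / c i - u j / c j) ^ 2 := by
      intro i j
      rcases eq_or_ne i j with h | h
      · rw [h]; simp
      · have h1 := hpos i j h
        have h2 := hc i
        have h3 := hc j
        positivity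
    have hconst : ∀ i j, u i / c i = u j / c j := by
      intro i j
      rcases eq_or_ne i j with h | h
      · rw [h]
      · have h5 : ∑ i, ∑ j, H i j * c i * c j * (u i / c i - u j / c j) ^ 2 ≤ 0 := by
          rw [hlap]; linarith
        have h6 : H i j * c i * c j * (u i / c i - u j / c j) ^ 2 ≤ 0 := by
          refine le_trans ?_ h5
          refine le_trans ?_ (Finset.single_le_sum
            (f := fun i => ∑ j, H i j * c i * c j * (u i / c i - u j / c j) ^ 2)
            (fun i _ => Finset.sum_nonneg fun j _ => hterm i j) (Finset.mem_univ i))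
          exact Finset.single_le_sum
            (f := fun j => H i j * c i * c j * (u i / c i - u j / c j) ^ 2)
            (fun j _ => hterm i j) (Finset.mem_univ j)
        have h7 : 0 < H i j * c i * c j := by
          have h1 := hpos i j h
          have h2 := hc i
          have h3 := hc j
          positivity
        have h8 : (u i / c i - u j / c j) ^ 2 ≤ 0 := by
          by_contra hcon
          push Not at hcon
          have := mul_pos h7 hcon
          linarith
        have h9 : u i / c i - u j / c j = 0 := by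
          have := le_antisymm h8 (sq_nonneg _)
          exact pow_eq_zero_iff (two_ne_zero) |>.1 this
        linarith
    refine ⟨u k / c k, fun i => ?_⟩
    rw [hEu i, ← hconst i k]
    have := (hc i).ne'
    field_simp
  have h10 := hE3 (fun i => d i * v i)
  have h11 : ∑ i, ∑ j, (d i * v i) * (H i j / (d i * d j)) * (d j * v j) =
      ∑ i, ∑ j, v i * H i j * v j := by
    refine Finset.sum_congr rfl fun i _ => Finset.sum_congr rfl fun j _ => ?_
    have := (hd0 i).ne'
    have := (hd0 j).ne'
    field_simp
  rw [← h11, h10]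
  refine Finset.sum_nonpos fun k _ => ?_
  rcases le_or_gt (l k) 0 with h | h
  · exact mul_nonpos_of_nonpos_of_nonneg h (sq_nonneg _)
  · obtain ⟨t, ht⟩ := hkey k h
    have h12 : ∑ j, E k j * (d j * v j) = t * ∑ j, p j * v j := by
      rw [Finset.mul_sum]
      refine Finset.sum_congr rfl fun j _ => ?_
      rw [ht j, ← hdc j]; ring
    rw [h12, hv, mul_zero]
    simp

end Vale.Agent.P317R
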