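import Vale.Agent.P317R.AFStep

/-!
# P317R: consequences of the Lorentzian property

MODULE AF2c.
-/

namespace Vale.Agent.P317R

open Finset

variable {V : Type*} [Fintype V] [DecidableEq V]

theorem QF_symm (cs : List (V → ℝ)) (w : Finset V → ℝ) (S : Finset V) (u v : V → ℝ) :
    QF cs w S u v = QF cs w S v u := by
  unfold QF
  rw [dd_comm]

theorem QF_add_left (cs : List (V → ℝ)) (w : Finset V → ℝ) (S : Finset V) (u u' v : V → ℝ) :
    QF cs w S (fun g => u g + u' g) v = QF cs w S u v + QF cs w S u' v := dd_add _ _ _ _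

theorem QF_smul_left (cs : List (V → ℝ)) (w : Finset V → ℝ) (S : Finset V) (a : ℝ) (u v : V → ℝ) :
    QF cs w S (fun g => a * u g) v = a * QF cs w S u v := dd_smul _ _ _ _

theorem QF_add_right (cs : List (V → ℝ)) (w : Finset V → ℝ) (S : Finset V) (u u' v : V → ℝ) :
    QF cs w S v (fun g => u g + u' g) = QF cs w S v u + QF cs w S v u' := by
  rw [QF_symm, QF_add_left, QF_symm cs w S u v, QF_symm cs w S u' v]

theorem QF_smul_right (cs : List (V → ℝ)) (w : Finset V → ℝ) (S : Finset V) (a : ℝ) (u v : V → ℝ) :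
    QF cs w S v (fun g => a * u g) = a * QF cs w S v u := by
  rw [QF_symm, QF_smul_left, QF_symm cs w S u v]

/-- (a) -/
theorem Lor.neg_of_orth {w : Finset V → ℝ} (h : Lor w) {cs : List (V → ℝ)}
    (hcs : ∀ c ∈ cs, ∀ g, 0 ≤ c g) (S : Finset V) {u v : V → ℝ} (hu : ∀ g, 0 ≤ u g)
    (hpos : 0 < QF cs w S u u) (ho : QF cs w S u v = 0) : QF cs w S v v ≤ 0 := by
  have h1 := h cs hcs S u v hu
  rw [ho] at h1
  by_contra h2
  have := mul_pos hpos (not_le.1 h2)
  norm_num at h1
  linarith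

/-- Cauchy-Schwarz on the orthogonal complement of `u`. -/
theorem Lor.cs_orth {w : Finset V → ℝ} (h : Lor w) {cs : List (V → ℝ)}
    (hcs : ∀ c ∈ cs, ∀ g, 0 ≤ c g) (S : Finset V) {u : V → ℝ} (hu : ∀ g, 0 ≤ u g)
    (hpos : 0 < QF cs w S u u) {v v' : V → ℝ} (hv : QF cs w S u v = 0)
    (hv' : QF cs w S u v' = 0) :
    QF cs w S v v' ^ 2 ≤ QF cs w S v v * QF cs w S v' v' := by
  have key : ∀ s : ℝ, 0 ≤ (-QF cs w S v' v') * (s * s) + (-(2 * QF cs w S v v')) * s +
      -QF cs w S v v := by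
    intro s
    have h1 : QF cs w S u (fun g => v g + s * v' g) = 0 := by
      rw [QF_add_right, QF_smul_right, hv, hv']
      ring
    have h2 := h.neg_of_orth hcs S hu hpos h1
    rw [QF_add_right, QF_add_left, QF_add_left, QF_smul_right, QF_smul_right, QF_smul_left,
      QF_smul_left, QF_symm cs w S v' v] at h2
    linarith
  have h3 := discrim_le_zero key
  unfold discrim at h3
  linarith

/-- (b): `Q(u,u) Q(v,v') ≤ 2 Q(u,v) Q(u,v')` for nonnegative vectors. Proof: if `Q(u,u) = 0` clear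
(nonnegative forms). Otherwise `v₀ = v - (Q(u,v)/Q(u,u)) u`, `v₀'` similarly are orthogonal to
`u`; `Q(v₀,v₀')² ≤ Q(v₀,v₀) Q(v₀',v₀')` and `0 ≤ -Q(v₀,v₀) ≤ Q(u,v)²/Q(u,u)` as `Q(v,v) ≥ 0`. -/
theorem Lor.triangle {w : Finset V → ℝ} (h : Lor w) (hw : ∀ S, 0 ≤ w S)
    {cs : List (V → ℝ)} (hcs : ∀ c ∈ cs, ∀ g, 0 ≤ c g) (S : Finset V) {u v v' : V → ℝ}
    (hu : ∀ g, 0 ≤ u g) (hv : ∀ g, 0 ≤ v g) (hv' : ∀ g, 0 ≤ v' g) :
    QF cs w S u u * QF cs w S v v' ≤ 2 * (QF cs w S u v * QF cs w S u v') := by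
  have huv := QF_nonneg hw hcs S hu hv
  have huv' := QF_nonneg hw hcs S hu hv'
  rcases (QF_nonneg hw hcs S hu hu).eq_or_lt with h0 | h0
  · rw [← h0, zero_mul]
    positivity
  · set a := QF cs w S u u with ha
    set b := QF cs w S u v with hb
    set b' := QF cs w S u v' with hb'
    have orth : ∀ x : V → ℝ, QF cs w S u (fun g => x g + (-(QF cs w S u x / a)) * u g) = 0 := by
      intro x
      rw [QF_add_right, QF_smul_right, ← ha]
      field_simp
      ring
    have ex : ∀ x y : V → ℝ, QF cs w S (fun g => x g + (-(QF cs w S u x / a)) * u g)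
        (fun g => y g + (-(QF cs w S u y / a)) * u g) =
        QF cs w S x y - QF cs w S u x * QF cs w S u y / a := by
      intro x y
      rw [QF_add_right, QF_add_left, QF_add_left, QF_smul_right, QF_smul_right, QF_smul_left,
        QF_smul_left, QF_symm cs w S x u, ← ha]
      field_simp
      ring
    have h1 := h.cs_orth hcs S hu h0 (orth v) (orth v')
    have h2 := h.neg_of_orth hcs S hu h0 (orth v)
    have h3 := h.neg_of_orth hcs S hu h0 (orth v')
    rw [ex, ex, ex, ← hb, ← hb'] at h1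
    rw [ex, ← hb] at h2
    rw [ex, ← hb'] at h3
    have h4 := QF_nonneg hw hcs S hv hv
    have h5 := QF_nonneg hw hcs S hv' hv'
    have h6 : (b * b / a - QF cs w S v v) * (b' * b' / a - QF cs w S v' v') ≤
        (b * b / a) * (b' * b' / a) :=
      mul_le_mul (by linarith) (by linarith) (by linarith) (by positivity)
    have h7 : (QF cs w S v v' - b * b' / a) ^ 2 ≤ (b * b' / a) ^ 2 := by
      have e : (b * b' / a) ^ 2 = (b * b / a) * (b' * b' / a) := by
        field_simp
      rw [e]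
      nlinarith
    have h8 : QF cs w S v v' - b * b' / a ≤ b * b' / a :=
      (le_abs_self _).trans (abs_le_of_sq_le_sq h7 (by positivity))
    have h9 : QF cs w S v v' ≤ 2 * (b * b') / a := by
      have e : 2 * (b * b') / a = b * b' / a + b * b' / a := by ring
      rw [e]
      linarith
    rw [le_div_iff₀ h0] at h9
    linarith

end Vale.Agent.P317R
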