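import Mathlib

/-!
# P317R: reversed Cauchy-Schwarz from a negative hyperplane

MODULE AF1b.
-/

namespace Vale.Agent.P317R

/-- a symmetric bilinear form (written as a symmetric matrix) which is nonpositive on the
orthogonal complement of `c` has the reversed Cauchy-Schwarz inequality for every `u` with
`Q(u,u) ≥ 0`. Proof: if `Q(u,u) = 0` trivial. Otherwise, if `Q(c,u) ≠ 0`: for all `v` the vector
`w = v - (Q(c,v)/Q(c,u)) u` satisfies `Q(c,w) = 0`, so `Q(w,w) ≤ 0`, i.e.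
`Q(v,v) - 2 s Q(u,v) + s^2 Q(u,u) ≤ 0` for `s = Q(c,v)/Q(c,u)`, and the minimum over all `s` of the
left side is `Q(v,v) - Q(u,v)^2/Q(u,u)`. If `Q(c,u) = 0` then `Q(u,u) ≤ 0`. -/
theorem rcs_of_hyperplane {E : Type*} [AddCommGroup E] [Module ℝ E] (Q : E → E → ℝ)
    (hs : ∀ u v, Q u v = Q v u) (hadd : ∀ u v w, Q (u + v) w = Q u w + Q v w)
    (hsmul : ∀ (a : ℝ) u w, Q (a • u) w = a * Q u w) (c : E)
    (hc : ∀ v, Q c v = 0 → Q v v ≤ 0) (u v : E) (hu : 0 ≤ Q u u) :
    Q u u * Q v v ≤ Q u v ^ 2 := by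
  rcases hu.eq_or_lt with h0 | h0
  · rw [← h0, zero_mul]
    exact sq_nonneg _
  · have hcu : Q c u ≠ 0 := fun h => absurd (hc u h) (not_le.2 h0)
    set s := Q c v / Q c u with hsdef
    have hadd' : ∀ u v w, Q w (u + v) = Q w u + Q w v := fun u v w => by
      rw [hs w (u + v), hadd, hs u w, hs v w]
    have hsmul' : ∀ (a : ℝ) u w, Q w (a • u) = a * Q w u := fun a u w => by
      rw [hs w (a • u), hsmul, hs u w]
    have h1 : Q c (v + (-s) • u) = 0 := by
      rw [hadd', hsmul', hsdef]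
      field_simp
      ring
    have h2 := hc _ h1
    rw [hadd, hadd', hadd', hsmul, hsmul, hsmul', hsmul', hs v u] at h2
    have h3 : Q u u * (Q v v + -s * Q u v + (-s * Q u v + -s * (-s * Q u u))) ≤ 0 :=
      mul_nonpos_of_nonneg_of_nonpos h0.le (by linarith)
    nlinarith [sq_nonneg (Q u v - s * Q u u)]

end Vale.Agent.P317R
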