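import Vale.Agent.P317R.AFBase
import Vale.Agent.P317R.AFBochner
import Vale.Agent.P317R.AFRcs

/-!
# P317R: the Lorentzian property from the rank two links, strictly positive directions

MODULE AF2a.
-/

namespace Vale.Agent.P317R

open Finset

variable {V : Type*} [Fintype V] [DecidableEq V]

/-- the quadratic form `F_S(cs, u, v)` -/
def QF (cs : List (V → ℝ)) (w : Finset V → ℝ) (S : Finset V) (u v : V → ℝ) : ℝ :=
  dd u (dd v (dds cs w)) S

/-- reversed Cauchy-Schwarz for the form without further directions (rank two links) -/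
def Lor0 (w : Finset V → ℝ) : Prop :=
  ∀ (S : Finset V) (u v : V → ℝ), (∀ g, 0 ≤ u g) →
    QF [] w S u u * QF [] w S v v ≤ QF [] w S u v ^ 2

/-- reversed Cauchy-Schwarz for all mixed forms with nonnegative directions -/
def Lor (w : Finset V → ℝ) : Prop :=
  ∀ cs : List (V → ℝ), (∀ c ∈ cs, ∀ g, 0 ≤ c g) →
    ∀ (S : Finset V) (u v : V → ℝ), (∀ g, 0 ≤ u g) →
      QF cs w S u u * QF cs w S v v ≤ QF cs w S u v ^ 2

theorem dd_subtype (u : V → ℝ) (f : Finset V → ℝ) (S : Finset V) :
    dd u f S = ∑ i : {g // g ∉ S}, u i * f (insert (i : V) S) := by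
  unfold dd
  rw [← Finset.sum_subtype (univ.filter (· ∉ S)) (by simp) (fun g => u g * f (insert g S)),
    Finset.sum_filter]
  refine sum_congr rfl fun g _ => ?_
  by_cases h : g ∈ S <;> simp [h]

theorem dd_insert_subtype (v : V → ℝ) (f : Finset V → ℝ) (S : Finset V) (a : V) :
    dd v f (insert a S) = ∑ j : {g // g ∉ S},
      (if (j : V) ∈ insert a S then 0 else f (insert (j : V) (insert a S))) * v j := by
  unfold dd
  rw [← Finset.sum_subtype (univ.filter (· ∉ S)) (by simp)
    (fun g => (if g ∈ insert a S then 0 else f (insert g (insert a S))) * v g),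
    Finset.sum_filter]
  refine sum_congr rfl fun g _ => ?_
  by_cases h : g ∈ S
  · simp [h]
  · by_cases h' : g = a
    · simp [h']
    · simp [h, h', mul_comm]

theorem QF_comm (cs : List (V → ℝ)) (w : Finset V → ℝ) (S : Finset V) (u v : V → ℝ) :
    QF cs w S u v = QF cs w S v u := by
  unfold QF; rw [dd_comm]

theorem QF_add (cs : List (V → ℝ)) (w : Finset V → ℝ) (S : Finset V) (u v x : V → ℝ) :
    QF cs w S (u + v) x = QF cs w S u x + QF cs w S v x := dd_add _ _ _ _

theorem QF_smul (cs : List (V → ℝ)) (w : Finset V → ℝ) (S : Finset V) (a : ℝ) (u x : V → ℝ) :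
    QF cs w S (a • u) x = a * QF cs w S u x := dd_smul _ _ _ _

theorem QF_nonneg {w : Finset V → ℝ} (hw : ∀ S, 0 ≤ w S) {cs : List (V → ℝ)}
    (hcs : ∀ c ∈ cs, ∀ g, 0 ≤ c g) (S : Finset V) {u v : V → ℝ} (hu : ∀ g, 0 ≤ u g)
    (hv : ∀ g, 0 ≤ v g) : 0 ≤ QF cs w S u v :=
  dds_nonneg (cs := u :: v :: cs) (by
    intro c hc
    rcases List.mem_cons.1 hc with rfl | hc
    · exact hu
    · rcases List.mem_cons.1 hc with rfl | hc
      · exact hv
      · exact hcs c hc) hw S

theorem QF_eq_zero (w : Finset V → ℝ) (cs : List (V → ℝ)) (S : Finset V) (u v : V → ℝ)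
    (h : Fintype.card V < S.card + cs.length + 2) : QF cs w S u v = 0 :=
  dds_eq_zero (cs := u :: v :: cs) S (by simp only [List.length_cons]; omega)

theorem QF_eq_sum (cs : List (V → ℝ)) (w : Finset V → ℝ) (S : Finset V) (u v : V → ℝ) :
    QF cs w S u v = ∑ i : {g // g ∉ S}, ∑ j : {g // g ∉ S}, u i *
      (if (j : V) ∈ insert (i : V) S then 0 else dds cs w (insert (j : V) (insert (i : V) S))) *
        v j := by
  unfold QF
  rw [dd_subtype]
  refine sum_congr rfl fun i _ => ?_
  rw [dd_insert_subtype, mul_sum]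
  exact sum_congr rfl fun j _ => by ring

/-- strictly positive directions. Induction on `cs`: for `cs = c₁ :: cs'`, if
`card V < S.card + cs.length + 2` all forms vanish (`dds_eq_zero`). Otherwise apply `bochner` on
the subtype `{g // g ∉ S}` to `H i j = QF cs w S (ev i) (ev j)`, `c = c₁`,
`p i = QF cs' w (insert i S) c₁ c₁` (`QF cs w S (ev i) v = QF cs' w (insert i S) c₁ v` for
`i ∉ S`, `QF cs w S v v = ∑_{i ∉ S} c₁ i * QF cs' w (insert i S) v v`), where `hB` comes from the
induction hypothesis at `insert i S`; then `rcs_of_hyperplane`. -/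
theorem lor_pos {w : Finset V → ℝ} (hw : ∀ S, 0 < w S) (h0 : Lor0 w)
    (cs : List (V → ℝ)) (hcs : ∀ c ∈ cs, ∀ g, 0 < c g) (S : Finset V) (u v : V → ℝ)
    (hu : ∀ g, 0 ≤ u g) :
    QF cs w S u u * QF cs w S v v ≤ QF cs w S u v ^ 2 := by
  induction cs generalizing S u v with
  | nil => exact h0 S u v hu
  | cons c cs ih =>
    have hw' : ∀ S, 0 ≤ w S := fun S => (hw S).le
    have hc : ∀ g, 0 < c g := hcs c (by simp)
    have hcs' : ∀ d ∈ cs, ∀ g, 0 < d g := fun d hd => hcs d (by simp [hd])
    rcases lt_or_ge (Fintype.card V) (S.card + (c :: cs).length + 2) with hcard | hcard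
    · simp [QF_eq_zero w (c :: cs) S _ _ hcard]
    set H : {g // g ∉ S} → {g // g ∉ S} → ℝ := fun i j =>
      if (j : V) ∈ insert (i : V) S then 0
        else dds (c :: cs) w (insert (j : V) (insert (i : V) S)) with hH
    have hQ : ∀ x y : V → ℝ, QF (c :: cs) w S x y =
        ∑ i : {g // g ∉ S}, ∑ j : {g // g ∉ S}, x i * H i j * y j :=
      fun x y => QF_eq_sum _ _ _ _ _
    have hrow : ∀ (i : {g // g ∉ S}) (y : V → ℝ), ∑ j, H i j * y j =
        dd y (dds (c :: cs) w) (insert (i : V) S) := fun i y => (dd_insert_subtype _ _ _ _).symm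
    have hsymm : ∀ i j, H i j = H j i := by
      intro i j
      have hi := i.2
      have hj := j.2
      by_cases e : i = j
      · subst e; rfl
      · have e1 : (i : V) ≠ j := fun h => e (Subtype.ext h)
        simp only [hH, mem_insert, hi, hj, e1, e1.symm, or_self, if_false, insert_comm]
    have hpos : ∀ i j, i ≠ j → 0 < H i j := by
      intro i j e
      have hi := i.2
      have hj := j.2
      have e1 : (j : V) ≠ i := fun h => e (Subtype.ext h.symm)
      have hmem : (j : V) ∉ insert (i : V) S := by simp [hj, e1]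
      simp only [hH, if_neg hmem]
      refine dds_pos (fun d hd => hcs d hd) hw _ ?_
      rw [card_insert_of_notMem hmem, card_insert_of_notMem hi]
      omega
    have hp : ∀ i : {g // g ∉ S}, 0 < ∑ j, H i j * c j := by
      intro i
      rw [hrow, ← dds_cons]
      refine dds_pos (fun d hd => ?_) hw _ ?_
      · rcases List.mem_cons.1 hd with rfl | hd
        · exact hc
        · exact hcs d hd
      · rw [card_insert_of_notMem i.2]
        simp only [List.length_cons] at hcard ⊢
        omega
    -- extension by zero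
    have hB : ∀ v : {g // g ∉ S} → ℝ, ∑ i, ∑ j, v i * H i j * v j ≤
        ∑ i : {g // g ∉ S}, c i / (∑ j, H i j * c j) * (∑ j, H i j * v j) ^ 2 := by
      intro v
      set v' : V → ℝ := fun g => if h : g ∉ S then v ⟨g, h⟩ else 0 with hv'
      have hvv : ∀ i : {g // g ∉ S}, v' i = v i := by
        intro i
        have hi := i.2
        simp [hv', hi]
      have e1 : ∑ i, ∑ j, v i * H i j * v j = QF (c :: cs) w S v' v' := by
        rw [hQ]
        exact sum_congr rfl fun i _ => sum_congr rfl fun j _ => by rw [hvv, hvv]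
      have e2 : QF (c :: cs) w S v' v' = ∑ i : {g // g ∉ S}, c i * QF cs w (insert (i : V) S) v' v' := by
        unfold QF
        rw [dds_cons, dd_comm v' c, dd_comm v' c, dd_subtype]
      rw [e1, e2]
      refine sum_le_sum fun i _ => ?_
      have e3 : ∑ j, H i j * v j = QF cs w (insert (i : V) S) c v' := by
        have : ∑ j, H i j * v j = ∑ j, H i j * v' j := sum_congr rfl fun j _ => by rw [hvv]
        rw [this, hrow, QF_comm]
        rfl
      have e4 : ∑ j, H i j * c j = QF cs w (insert (i : V) S) c c := by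
        rw [hrow]
        rfl
      have h1 := ih hcs' (insert (i : V) S) c v' (fun g => (hc g).le)
      have h2 := hp i
      rw [e4] at h2
      rw [e3, e4, div_mul_eq_mul_div, mul_div_assoc]
      refine mul_le_mul_of_nonneg_left ?_ (hc _).le
      rw [le_div_iff₀ h2, mul_comm]
      exact h1
    have hboch := bochner H hsymm hpos (fun i => c i) (fun i => ∑ j, H i j * c j)
      (fun i => hc _) (fun i => rfl) hp hB
    refine rcs_of_hyperplane (QF (c :: cs) w S) (QF_comm _ _ _) (QF_add _ _ _) (QF_smul _ _ _) c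
      (fun v hv => ?_) u v (QF_nonneg hw' (fun d hd g => (hcs d hd g).le) S hu hu)
    rw [hQ]
    refine hboch (fun i => v i) ?_
    rw [← hv, QF_comm, hQ]
    refine sum_congr rfl fun i _ => ?_
    rw [sum_mul]
    exact sum_congr rfl fun j _ => by ring

end Vale.Agent.P317R
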