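import Vale.Agent.P317R.AFStep

/-!
# P317R: the weights `θ ^ R(S)` for a (local) matroid rank function

MODULE AF3.
-/

namespace Vale.Agent.P317R

open Finset

variable {V : Type*} [Fintype V] [DecidableEq V]

/-- local rank axioms (unit increase and local submodularity) -/
structure RankFn (R : Finset V → ℕ) : Prop where
  mono : ∀ S g, R S ≤ R (insert g S)
  unit : ∀ S g, R (insert g S) ≤ R S + 1
  sub : ∀ S g h, R (insert g (insert h S)) + R S ≤ R (insert g S) + R (insert h S)

/-- weight of a point in the link -/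
def raA (R : Finset V → ℕ) (θ : ℝ) (S : Finset V) (g : V) : ℝ := θ ^ (R (insert g S) - R S)

/-- parallel elements of the link -/
def raPar (R : Finset V → ℕ) (S : Finset V) (g h : V) : Prop :=
  R (insert g S) = R S + 1 ∧ R (insert h S) = R S + 1 ∧ R (insert g (insert h S)) = R S + 1

instance (R : Finset V → ℕ) (S : Finset V) (g h : V) : Decidable (raPar R S g h) := by
  unfold raPar; infer_instance

/-- correction term for parallel elements -/
def raK (R : Finset V → ℕ) (θ : ℝ) (S : Finset V) (g h : V) : ℝ :=
  if raPar R S g h then θ ^ 2 - θ else 0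

theorem ra_pow {R : Finset V → ℕ} (hR : RankFn R) (θ : ℝ) (S : Finset V) (g h : V) :
    θ ^ R (insert g (insert h S)) = θ ^ R S * (raA R θ S g * raA R θ S h - raK R θ S g h) := by
  have m1 := hR.mono S g
  have m2 := hR.mono S h
  have u1 := hR.unit S g
  have u2 := hR.unit S h
  have m3 := hR.mono (insert h S) g
  have m4 := hR.mono (insert g S) h
  rw [Finset.insert_comm] at m4
  have u3 := hR.unit (insert h S) g
  have s1 := hR.sub S g h
  rcases (by omega : R (insert g S) = R S ∨ R (insert g S) = R S + 1) with hg | hg <;>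
    rcases (by omega : R (insert h S) = R S ∨ R (insert h S) = R S + 1) with hh | hh
  · have e : R (insert g (insert h S)) = R S := by omega
    have hk : raK R θ S g h = 0 := if_neg (fun hp => by have := hp.1; omega)
    rw [hk]; unfold raA; rw [hg, hh, e]; simp
  · have e : R (insert g (insert h S)) = R S + 1 := by omega
    have hk : raK R θ S g h = 0 := if_neg (fun hp => by have := hp.1; omega)
    rw [hk]; unfold raA; rw [hg, hh, e]; simp [pow_succ]
  · have e : R (insert g (insert h S)) = R S + 1 := by omega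
    have hk : raK R θ S g h = 0 := if_neg (fun hp => by have := hp.2.1; omega)
    rw [hk]; unfold raA; rw [hg, hh, e]; simp [pow_succ]
  · rcases (by omega : R (insert g (insert h S)) = R S + 1 ∨
      R (insert g (insert h S)) = R S + 2) with e | e
    · have hk : raK R θ S g h = θ ^ 2 - θ := if_pos ⟨hg, hh, e⟩
      rw [hk]; unfold raA; rw [hg, hh, e, add_tsub_cancel_left]; ring
    · have hk : raK R θ S g h = 0 := if_neg (fun hp => by have := hp.2.2; omega)
      rw [hk]; unfold raA; rw [hg, hh, e, add_tsub_cancel_left]; ring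

/-- the class of a point in the link -/
def raC (R : Finset V → ℕ) (S : Finset V) (g : V) : Finset V :=
  univ.filter fun k => R (insert k (insert g S)) = R S + 1

theorem ra_trans {R : Finset V → ℕ} (hR : RankFn R) {S : Finset V} {g h k : V}
    (hg : R (insert g S) = R S + 1) (hh : R (insert h S) = R S + 1)
    (hgh : R (insert g (insert h S)) = R S + 1) (hk : R (insert k (insert g S)) = R S + 1) :
    R (insert k (insert h S)) = R S + 1 := by
  have s1 := hR.sub (insert g S) k h
  have e1 : insert k (insert h (insert g S)) = insert g (insert k (insert h S)) := by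
    ext x; simp only [mem_insert]; tauto
  have e2 : insert h (insert g S) = insert g (insert h S) := Finset.insert_comm _ _ _
  rw [e1, e2] at s1
  have m1 := hR.mono (insert k (insert h S)) g
  have m2 := hR.mono (insert h S) k
  omega

theorem ra_par_iff {R : Finset V → ℕ} (hR : RankFn R) {S : Finset V} {g h : V}
    (hg : R (insert g S) = R S + 1) (hh : R (insert h S) = R S + 1) :
    raPar R S g h ↔ raC R S g = raC R S h := by
  constructor
  · rintro ⟨_, _, hgh⟩
    ext k
    simp only [raC, mem_filter, mem_univ, true_and]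
    constructor
    · intro hk; exact ra_trans hR hg hh hgh hk
    · intro hk
      refine ra_trans hR hh hg ?_ hk
      rw [Finset.insert_comm]; exact hgh
  · intro hC
    refine ⟨hg, hh, ?_⟩
    have : g ∈ raC R S g := by simp [raC, hg]
    rw [hC] at this
    simpa [raC] using this

/-- sum of squares over the classes of a function -/
theorem ra_classes {β : Type*} [Fintype β] [DecidableEq β] (c : V → β) (x : V → ℝ) :
    0 ≤ ∑ g, ∑ h, (if c g = c h then x g * x h else 0) := by
  have h1 : ∑ g, ∑ h, (if c g = c h then x g * x h else 0) =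
      ∑ b : β, (∑ g, if c g = b then x g else 0) ^ 2 := by
    have h2 : ∀ b : β, (∑ g, if c g = b then x g else 0) ^ 2 =
        ∑ g, ∑ h, (if c g = b then x g else 0) * (if c h = b then x h else 0) := by
      intro b; rw [sq, sum_mul_sum]
    have h4 : ∀ g h, (if c g = c h then x g * x h else 0) =
        ∑ b : β, (if c g = b then x g else 0) * (if c h = b then x h else 0) := by
      intro g h
      rw [sum_eq_single (c g)]
      · by_cases e : c g = c h
        · simp [e]
        · have e' : ¬ c h = c g := fun e' => e e'.symm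
          simp [e, e']
      · intro b _ hb
        rw [if_neg (fun e => hb e.symm), zero_mul]
      · intro hb; exact absurd (mem_univ _) hb
    simp only [h2, h4]
    calc ∑ g, ∑ h, ∑ b : β, (if c g = b then x g else 0) * (if c h = b then x h else 0) =
        ∑ g, ∑ b : β, ∑ h, (if c g = b then x g else 0) * (if c h = b then x h else 0) :=
          sum_congr rfl fun g _ => sum_comm
      _ = ∑ b : β, ∑ g, ∑ h, (if c g = b then x g else 0) * (if c h = b then x h else 0) :=
          sum_comm
  rw [h1]
  exact sum_nonneg fun b _ => sq_nonneg _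

/-- positive semidefinite part -/
def raQ (R : Finset V → ℕ) (θ : ℝ) (S : Finset V) (u v : V → ℝ) : ℝ :=
  ∑ g, ∑ h, raK R θ S g h * (u g * v h) +
    ∑ g, (if g ∈ S then 0 else raA R θ S g * (u g * v g))

/-- linear part -/
def raL (R : Finset V → ℕ) (θ : ℝ) (S : Finset V) (u : V → ℝ) : ℝ :=
  ∑ g, (if g ∈ S then 0 else raA R θ S g * u g)

theorem ra_K_mem {R : Finset V → ℕ} (θ : ℝ) {S : Finset V} {g h : V} (hgh : g ∈ S ∨ h ∈ S) :
    raK R θ S g h = 0 := by
  unfold raK
  rw [if_neg]
  rintro ⟨h1, h2, _⟩
  rcases hgh with h3 | h3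
  · rw [insert_eq_of_mem h3] at h1; omega
  · rw [insert_eq_of_mem h3] at h2; omega

theorem ra_QF {R : Finset V → ℕ} (hR : RankFn R) (θ : ℝ) (S : Finset V) (u v : V → ℝ) :
    QF [] (fun S => θ ^ R S) S u v =
      θ ^ R S * (raL R θ S u * raL R θ S v - raQ R θ S u v) := by
  have hself : ∀ g, g ∉ S → raA R θ S g * raA R θ S g - raK R θ S g g = raA R θ S g := by
    intro g _
    have m1 := hR.mono S g
    have u1 := hR.unit S g
    rcases (by omega : R (insert g S) = R S ∨ R (insert g S) = R S + 1) with hg | hg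
    · have hk : raK R θ S g g = 0 := if_neg (fun hp => by have := hp.1; omega)
      rw [hk]; unfold raA; rw [hg]; simp
    · have hk : raK R θ S g g = θ ^ 2 - θ :=
        if_pos ⟨hg, hg, by rw [Finset.insert_idem]; exact hg⟩
      rw [hk]; unfold raA; rw [hg, add_tsub_cancel_left]; ring
  unfold QF
  rw [dds_nil]
  have h1 : dd u (dd v fun S => θ ^ R S) S =
      ∑ g, ∑ h, ((if g ∈ S ∨ h ∈ S then 0 else u g * v h * θ ^ R (insert h (insert g S))) -
        (if g = h then (if g ∈ S then 0 else u g * v h * θ ^ R (insert h (insert g S)))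
          else 0)) := by
    unfold dd
    refine sum_congr rfl fun g _ => ?_
    by_cases hg : g ∈ S
    · simp [hg]
    · rw [if_neg hg, mul_sum]
      refine sum_congr rfl fun h _ => ?_
      by_cases hh : h ∈ S
      · have : g ≠ h := fun e => hg (e ▸ hh)
        simp [hh, this]
      · by_cases e : g = h
        · subst e; simp [hg]
        · have e' : ¬ h = g := fun e' => e e'.symm
          simp only [mem_insert, hg, hh, e, e', or_self, if_false]
          ring
  rw [h1]
  have h2 : ∀ g h, ((if g ∈ S ∨ h ∈ S then 0 else u g * v h * θ ^ R (insert h (insert g S))) -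
        (if g = h then (if g ∈ S then 0 else u g * v h * θ ^ R (insert h (insert g S)))
          else 0)) =
      θ ^ R S * ((if g ∈ S then 0 else raA R θ S g * u g) *
        (if h ∈ S then 0 else raA R θ S h * v h)) -
      θ ^ R S * (raK R θ S g h * (u g * v h)) -
      (if g = h then θ ^ R S * (if g ∈ S then 0 else raA R θ S g * (u g * v g)) else 0) := by
    intro g h
    by_cases hg : g ∈ S
    · rw [ra_K_mem θ (Or.inl hg)]; simp [hg]
    by_cases hh : h ∈ S
    · have : g ≠ h := fun e => hg (e ▸ hh)
      rw [ra_K_mem θ (Or.inr hh)]; simp [hh, this]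
    simp only [hg, hh, or_self, if_false]
    rw [Finset.insert_comm h g, ra_pow hR θ S g h]
    by_cases e : g = h
    · subst e
      simp only [if_true]
      rw [hself g hg]
      linear_combination (-(θ ^ R S * (u g * v g))) * hself g hg
    · simp only [e, if_false]
      ring
  have h3 : ∀ g, ∑ h, (if g = h then θ ^ R S * (if g ∈ S then 0 else
      raA R θ S g * (u g * v g)) else 0) =
      θ ^ R S * (if g ∈ S then 0 else raA R θ S g * (u g * v g)) := by
    intro g
    rw [Finset.sum_ite_eq, if_pos (mem_univ g)]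
  simp only [h2, sum_sub_distrib, h3, ← mul_sum]
  unfold raL raQ
  rw [← sum_mul]
  ring

theorem ra_Q_nonneg {R : Finset V → ℕ} (hR : RankFn R) {θ : ℝ} (hθ : 1 ≤ θ) (S : Finset V)
    (v : V → ℝ) : 0 ≤ raQ R θ S v v := by
  unfold raQ
  have hA : ∀ g, 0 ≤ raA R θ S g := by
    intro g; unfold raA; positivity
  refine add_nonneg ?_ (sum_nonneg fun g _ => ?_)
  · have h1 : ∑ g, ∑ h, raK R θ S g h * (v g * v h) = (θ ^ 2 - θ) *
        ∑ g, ∑ h, (if raC R S g = raC R S h then
          (if R (insert g S) = R S + 1 then v g else 0) *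
          (if R (insert h S) = R S + 1 then v h else 0) else 0) := by
      rw [mul_sum]
      refine sum_congr rfl fun g _ => ?_
      rw [mul_sum]
      refine sum_congr rfl fun h _ => ?_
      unfold raK
      by_cases hg : R (insert g S) = R S + 1
      · by_cases hh : R (insert h S) = R S + 1
        · have := ra_par_iff hR hg hh
          by_cases hp : raPar R S g h
          · rw [if_pos hp, if_pos (this.1 hp), if_pos hg, if_pos hh]
          · rw [if_neg hp, if_neg (fun e => hp (this.2 e))]; ring
        · rw [if_neg (fun hp => hh hp.2.1), if_neg hh]; simp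
      · rw [if_neg (fun hp => hg hp.1), if_neg hg]; simp
    rw [h1]
    refine mul_nonneg ?_ (ra_classes _ _)
    nlinarith
  · split_ifs
    · exact le_rfl
    · exact mul_nonneg (hA g) (mul_self_nonneg _)

theorem ra_K_symm (R : Finset V → ℕ) (θ : ℝ) (S : Finset V) (g h : V) :
    raK R θ S g h = raK R θ S h g := by
  have h1 : raPar R S g h ↔ raPar R S h g := by
    unfold raPar
    rw [Finset.insert_comm]
    tauto
  unfold raK
  by_cases hp : raPar R S g h
  · rw [if_pos hp, if_pos (h1.1 hp)]
  · rw [if_neg hp, if_neg (fun e => hp (h1.2 e))]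

theorem ra_Q_expand (R : Finset V → ℕ) (θ : ℝ) (S : Finset V) (u v : V → ℝ) (t : ℝ) :
    raQ R θ S (fun g => v g - t * u g) (fun g => v g - t * u g) =
      raQ R θ S v v - 2 * t * raQ R θ S u v + t ^ 2 * raQ R θ S u u := by
  have hsym : ∑ g, ∑ h, raK R θ S g h * (v g * u h) = ∑ g, ∑ h, raK R θ S g h * (u g * v h) := by
    rw [sum_comm]
    refine sum_congr rfl fun g _ => sum_congr rfl fun h _ => ?_
    rw [ra_K_symm]; ring
  have h1 : ∑ g, ∑ h, raK R θ S g h * ((v g - t * u g) * (v h - t * u h)) =
      ∑ g, ∑ h, raK R θ S g h * (v g * v h) - t * ∑ g, ∑ h, raK R θ S g h * (v g * u h) -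
        t * ∑ g, ∑ h, raK R θ S g h * (u g * v h) +
        t ^ 2 * ∑ g, ∑ h, raK R θ S g h * (u g * u h) := by
    simp only [mul_sum, ← sum_sub_distrib, ← sum_add_distrib]
    refine sum_congr rfl fun g _ => sum_congr rfl fun h _ => ?_
    ring
  have h2 : ∑ g, (if g ∈ S then 0 else raA R θ S g * ((v g - t * u g) * (v g - t * u g))) =
      ∑ g, (if g ∈ S then 0 else raA R θ S g * (v g * v g)) -
        2 * t * ∑ g, (if g ∈ S then 0 else raA R θ S g * (u g * v g)) +
        t ^ 2 * ∑ g, (if g ∈ S then 0 else raA R θ S g * (u g * u g)) := by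
    simp only [mul_sum, ← sum_sub_distrib, ← sum_add_distrib]
    refine sum_congr rfl fun g _ => ?_
    split_ifs <;> ring
  unfold raQ
  rw [h1, h2, hsym]
  ring

/-- The rank two link at `S`: with `a g = θ ^ (R (S + g) - R S) ∈ {1, θ}`,
`w (S + g + h) = w S * (a g * a h - (if g ∥ h then θ² - θ else 0))` for `g ≠ h` not in `S`, where
`g ∥ h` iff `R (S + g) = R (S + h) = R S + 1 = R (S + g + h)` is an equivalence relation on the
nonloops (local submodularity at `S + g`). Hence
`QF [] w S u v = w S * (⟨a,u⟩⟨a,v⟩ - K(u,v))` with `K` positive semidefinite: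
`K(v,v) = ∑_{loops} v_g² + (θ² - θ) ∑_{classes} (∑_{class} v)² + θ ∑_{nonloops} v_g²`
(sums over `g ∉ S`), and `ℓ(u)² ≥ K(u,u)` gives the reversed Cauchy-Schwarz inequality
(if `Q(u,u) ≤ 0` or `Q(v,v) ≤ 0` look at signs: `Q(u,u) ≥ 0` as `u ≥ 0`). -/
theorem lor0_rank {R : Finset V → ℕ} (hR : RankFn R) {θ : ℝ} (hθ : 1 ≤ θ) :
    Lor0 (fun S => θ ^ R S) := by
  intro S u v hu
  have hQuu : 0 ≤ QF [] (fun S => θ ^ R S) S u u := by
    unfold QF
    rw [dds_nil]
    refine dd_nonneg hu fun g _ => dd_nonneg hu fun h _ => ?_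
    positivity
  rw [ra_QF hR] at hQuu
  rw [ra_QF hR, ra_QF hR, ra_QF hR]
  have hW : 0 < θ ^ R S := by positivity
  have hA : 0 ≤ raL R θ S u * raL R θ S u - raQ R θ S u u := nonneg_of_mul_nonneg_right hQuu hW
  have hexp : ∀ t, 0 ≤ raQ R θ S v v - 2 * t * raQ R θ S u v + t ^ 2 * raQ R θ S u u := by
    intro t; rw [← ra_Q_expand]; exact ra_Q_nonneg hR hθ S _
  have hKu := ra_Q_nonneg hR hθ S u
  have key : (raL R θ S u * raL R θ S u - raQ R θ S u u) *
      (raL R θ S v * raL R θ S v - raQ R θ S v v) ≤
      (raL R θ S u * raL R θ S v - raQ R θ S u v) ^ 2 := by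
    generalize raL R θ S u = a at *
    generalize raL R θ S v = b at *
    generalize raQ R θ S u u = k at *
    generalize raQ R θ S u v = m at *
    generalize raQ R θ S v v = n at *
    by_cases ha : a = 0
    · subst ha
      have : k = 0 := by linarith
      subst this
      have : 0 ≤ (0 * b - m) ^ 2 := sq_nonneg _
      linarith
    · obtain ⟨t, rfl⟩ : ∃ t, b = t * a := ⟨b / a, by field_simp⟩
      have h1 := hexp t
      have h2 : (a * a - k) * (t * a * (t * a) - n) ≤
          (a * a - k) * (t ^ 2 * a ^ 2 - 2 * t * m + t ^ 2 * k) := by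
        apply mul_le_mul_of_nonneg_left _ hA
        nlinarith
      have h3 : (a * (t * a) - m) ^ 2 - (a * a - k) * (t ^ 2 * a ^ 2 - 2 * t * m + t ^ 2 * k) =
          (m - t * k) ^ 2 := by ring
      nlinarith [sq_nonneg (m - t * k)]
  calc θ ^ R S * (raL R θ S u * raL R θ S u - raQ R θ S u u) *
        (θ ^ R S * (raL R θ S v * raL R θ S v - raQ R θ S v v)) =
      (θ ^ R S) ^ 2 * ((raL R θ S u * raL R θ S u - raQ R θ S u u) *
        (raL R θ S v * raL R θ S v - raQ R θ S v v)) := by ring
    _ ≤ (θ ^ R S) ^ 2 * (raL R θ S u * raL R θ S v - raQ R θ S u v) ^ 2 :=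
        mul_le_mul_of_nonneg_left key (by positivity)
    _ = (θ ^ R S * (raL R θ S u * raL R θ S v - raQ R θ S u v)) ^ 2 := by ring

theorem lor_rank {R : Finset V → ℕ} (hR : RankFn R) {θ : ℝ} (hθ : 1 ≤ θ) :
    Lor (fun S => θ ^ R S) :=
  lor_of_base (fun S => by positivity) (lor0_rank hR hθ)

end Vale.Agent.P317R
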