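import Vale.Agent.P317R.AFPos

/-!
# P317R: the Lorentzian property, nonnegative directions

MODULE AF2b.
-/

namespace Vale.Agent.P317R

open Finset

variable {V : Type*} [Fintype V] [DecidableEq V]

theorem continuous_dd {X : Type*} [TopologicalSpace X] (u : X → V → ℝ) (f : X → Finset V → ℝ)
    (hu : ∀ g, Continuous fun x => u x g) (hf : ∀ S, Continuous fun x => f x S) (S : Finset V) :
    Continuous fun x => dd (u x) (f x) S := by
  unfold dd
  refine continuous_finsetSum _ fun g _ => ?_
  by_cases h : g ∈ S
  · simp only [if_pos h]; exact continuous_const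
  · simp only [if_neg h]; exact (hu g).mul (hf _)

theorem continuous_dds_add (cs : List (V → ℝ)) (w : Finset V → ℝ) (S : Finset V) :
    Continuous fun e : ℝ => dds (cs.map fun c g => c g + e) w S := by
  induction cs generalizing S with
  | nil => exact continuous_const
  | cons c cs ih =>
    simp only [List.map_cons, dds_cons]
    exact continuous_dd (fun e g => c g + e) _ (fun g => by fun_prop) (fun S => ih S) S

theorem continuous_QF_add (cs : List (V → ℝ)) (w : Finset V → ℝ) (S : Finset V) (u v : V → ℝ) :
    Continuous fun e : ℝ => QF (cs.map fun c g => c g + e) w S u v := by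
  unfold QF
  exact continuous_dd (fun _ => u) _ (fun _ => continuous_const) (fun S =>
    continuous_dd (fun _ => v) _ (fun _ => continuous_const)
      (fun S => continuous_dds_add cs w S) S) S

/-- limit `c + ε`, `ε → 0+` (the forms are polynomials in `ε`). -/
theorem lor_of_base {w : Finset V → ℝ} (hw : ∀ S, 0 < w S) (h0 : Lor0 w) : Lor w := by
  intro cs hcs S u v hu
  have key : ∀ e : ℝ, 0 < e → QF (cs.map fun c g => c g + e) w S u u *
      QF (cs.map fun c g => c g + e) w S v v ≤ QF (cs.map fun c g => c g + e) w S u v ^ 2 := by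
    intro e he
    refine lor_pos hw h0 _ (fun d hd g => ?_) S u v hu
    obtain ⟨c, hc, rfl⟩ := List.mem_map.1 hd
    have := hcs c hc g
    show 0 < c g + e
    linarith
  have h0' : (cs.map fun (c : V → ℝ) g => c g + (0 : ℝ)) = cs := by
    simp
  have ht : ∀ x y : V → ℝ, Filter.Tendsto (fun e : ℝ => QF (cs.map fun c g => c g + e) w S x y)
      (nhdsWithin 0 (Set.Ioi 0)) (nhds (QF cs w S x y)) := by
    intro x y
    have := (continuous_QF_add cs w S x y).tendsto 0
    rw [h0'] at this
    exact this.mono_left nhdsWithin_le_nhds
  have h1 := (ht u u).mul (ht v v)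
  have h2 := (ht u v).pow 2
  exact le_of_tendsto_of_tendsto h1 h2 (Filter.eventually_of_mem self_mem_nhdsWithin
    fun e he => key e he)

end Vale.Agent.P317R
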