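import Vale.Agent.P328R.Algo

/-!
# P317 (counting common bases of two matroids): the algorithm as a native random process

Ground set `Fin n × Bool`: `(e, false)` is the element `e` of the first matroid, `(e, true)` the
element `e` of the dual of the second one. States are sets `B` of `n` elements which contain
exactly one element of every pair (perfect), or two elements of one pair `i`, none of one pair `j`
and one of the others (class `(i, j)`). Level `k` has the weight `q ^ (k * null B)` with
`q = (4 n - 1) / (4 n)`, and an additional factor `2 ^ t (i, j)` on the class `(i, j)`.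
-/

namespace Vale.Agent.P317R

open Vale.Agent.P328RAM

/-- rank functions of two matroids on `Fin n`, and the rank of the second one -/
structure Inst (n : ℕ) where
  /-- the rank function of the first matroid -/
  rk1 : Finset (Fin n) → ℕ
  /-- the rank function of the second matroid -/
  rk2 : Finset (Fin n) → ℕ
  /-- the common rank -/
  r : ℕ

/-- The parameters of the algorithm. -/
structure Par where
  /-- number of full steps in one step of the kernel on the perfect states -/
  s : ℕ
  /-- number of steps of this kernel at each level of a pass -/
  T : ℕ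
  /-- number of samples -/
  S : ℕ
  /-- number of random bits of a test -/
  K : ℕ
  /-- number of levels -/
  L : ℕ
  /-- offset of the exponents -/
  E0 : ℕ
  /-- number of random bits for the choice of an element -/
  Bn : ℕ

/-- states, as sets -/
abbrev St (n : ℕ) := Finset (Fin n × Bool)

/-- tables of exponents of the class weights -/
abbrev Tb (n : ℕ) := Fin n × Fin n → ℤ

variable {n : ℕ} (I : Inst n) (p : Par)

/-- the elements of the first matroid in the state -/
def A1 (B : St n) : Finset (Fin n) := Finset.univ.filter fun e => (e, false) ∈ B

/-- the elements of the second matroid whose dual element is not in the state -/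
def A2 (B : St n) : Finset (Fin n) := Finset.univ.filter fun e => (e, true) ∉ B

/-- `n` minus the rank of the state -/
def null (B : St n) : ℕ := ((A1 B).card - I.rk1 (A1 B)) + (I.r - I.rk2 (A2 B))

/-- number of elements of the pair `e` in the state -/
def npair (B : St n) (e : Fin n) : ℕ :=
  (if (e, false) ∈ B then 1 else 0) + (if (e, true) ∈ B then 1 else 0)

/-- perfect states -/
def Perf (B : St n) : Prop := ∀ e, npair B e = 1

instance (B : St n) : Decidable (Perf B) := by unfold Perf; infer_instance

/-- states of the class `(i, j)`: the pair `i` is double and the pair `j` is empty -/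
def Cls (ij : Fin n × Fin n) (B : St n) : Prop :=
  npair B ij.1 = 2 ∧ npair B ij.2 = 0 ∧ ∀ e, e ≠ ij.1 → e ≠ ij.2 → npair B e = 1

instance (ij : Fin n × Fin n) (B : St n) : Decidable (Cls ij B) := by unfold Cls; infer_instance

/-- the states of the chain -/
def IsSt (B : St n) : Prop := Perf B ∨ ∃ ij : Fin n × Fin n, Cls ij B

instance (B : St n) : Decidable (IsSt B) := by unfold IsSt; infer_instance

/-- the class of a state: `none` for perfect states, `some (i, j)` for the class `(i, j)` -/
noncomputable def cl (B : St n) : Option (Fin n × Fin n) :=
  if h : ∃ ij : Fin n × Fin n, Cls ij B then some h.choose else none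

/-- the exponent of a class: zero for perfect states -/
def exq (t : Tb n) (c : Option (Fin n × Fin n)) : ℤ := c.elim 0 t

/-- the integer weight at the level `k` with the table `t`; zero outside of the states -/
noncomputable def Wt (k : ℕ) (t : Tb n) (B : St n) : ℕ :=
  if IsSt B then
    (4 * n - 1) ^ (k * null I B) * (4 * n) ^ (k * (n - null I B)) *
      2 ^ ((p.E0 : ℤ) + exq t (cl B)).toNat
  else 0

/-- exchange of `x` (in the state) for `y` (not in the state); draws: `c` and `d` are `0` or `1`,
`x` and `y` natural numbers; nothing happens if the draws are not an exchange -/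
def exch (c d x y : ℕ) (B : St n) : St n :=
  if h : x < n ∧ y < n then
    if ((⟨x, h.1⟩ : Fin n), decide (c = 1)) ∈ B ∧ ((⟨y, h.2⟩ : Fin n), decide (d = 1)) ∉ B then
      insert ((⟨y, h.2⟩ : Fin n), decide (d = 1)) (B.erase ((⟨x, h.1⟩ : Fin n), decide (c = 1)))
    else B
  else B

/-- the proposal -/
noncomputable def propK (B : St n) : PMF (St n) :=
  (unif 1).bind fun c => (unif 1).bind fun d => (unif p.Bn).bind fun x =>
    (unif p.Bn).map fun y => exch c d x y B

/-- one full step of the implemented chain; acceptance: `U` uniform with `K` bits, accept iff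
`U * W B < 2 ^ K * W B'` -/
noncomputable def stepK (k : ℕ) (t : Tb n) (B : St n) : PMF (St n) :=
  (unif 1).bind fun w => (propK p B).bind fun B' => (unif p.K).map fun U =>
    if w = 1 ∧ U * Wt I p k t B < 2 ^ p.K * Wt I p k t B' then B' else B

/-- the ideal acceptance probability `min 1 (W B' / W B)` -/
noncomputable def accP (k : ℕ) (t : Tb n) (B B' : St n) : NNReal :=
  min 1 ((Wt I p k t B' : NNReal) / (Wt I p k t B : NNReal))

/-- the ideal acceptance -/
noncomputable def accI (k : ℕ) (t : Tb n) (B B' : St n) : PMF (St n) :=
  (P328R.bern (accP I p k t B B') (min_le_left _ _)).map fun a => if a then B' else B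

/-- one full step of the ideal chain -/
noncomputable def stepI (k : ℕ) (t : Tb n) (B : St n) : PMF (St n) :=
  (unif 1).bind fun w => (propK p B).bind fun B' =>
    if w = 1 then accI I p k t B B' else PMF.pure B

/-- one step of the kernel on the perfect states: `s` full steps, accepted with a fair coin if the
result is perfect -/
noncomputable def stepJ (k : ℕ) (t : Tb n) (B : St n) : PMF (St n) :=
  (unif 1).bind fun v => (iterBind (stepK I p k t) p.s B).map fun B' =>
    if v = 1 ∧ Perf B' then B' else B

/-- a uniform perfect state -/
noncomputable def randT (n : ℕ) : PMF (St n) :=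
  (PMF.uniformOfFintype (Fin n → Bool)).map fun f =>
    Finset.univ.filter fun e : Fin n × Bool => e.2 = f e.1

/-- the start and the levels `1, …, l` of a pass -/
noncomputable def passK (t : ℕ → Tb n) (l : ℕ) : PMF (St n) :=
  (randT n).bind (seqBind (fun k => iterBind (stepJ I p (k + 1) (t (k + 1))) p.T) l)

/-- the observation for the learning of the table of the level `l + 1`: a pass to the level `l`,
`s` full steps, and the class of the result -/
noncomputable def obsK (t : ℕ → Tb n) (l : ℕ) : PMF (Option (Fin n × Fin n)) :=
  (passK I p t l).bind fun B => (iterBind (stepK I p l (t l)) p.s B).map cl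

/-- the counters of `S` observations -/
noncomputable def cntK (t : ℕ → Tb n) (l : ℕ) : PMF (Option (Fin n × Fin n) → ℕ) :=
  iterBind (fun c => (obsK I p t l).map fun o => Function.update c o (c o + 1)) p.S fun _ => 0

/-- the update of the tables after the observations at the level `l` -/
def updT (t : ℕ → Tb n) (l : ℕ) (c : Option (Fin n × Fin n) → ℕ) : ℕ → Tb n :=
  Function.update t (l + 1) fun ij => t l ij + Nat.size (c none) - Nat.size (c (some ij))

/-- all tables -/
noncomputable def learnK : PMF (ℕ → Tb n) :=
  seqBind (fun l t => (cntK I p t l).map (updT t l)) p.L fun _ _ => 2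

/-- the level `l` of the final estimation: steps at the level `l`, then a coin of probability
`q ^ null` -/
noncomputable def estS (t : ℕ → Tb n) (l : ℕ) (x : St n × (ℕ → ℕ)) : PMF (St n × (ℕ → ℕ)) :=
  (if l = 0 then PMF.pure x.1 else iterBind (stepJ I p l (t l)) p.T x.1).bind fun B =>
    (unif p.K).map fun U =>
      (B, if U * (4 * n) ^ null I B < 2 ^ p.K * (4 * n - 1) ^ null I B then
        Function.update x.2 l (x.2 l + 1) else x.2)

/-- one pass of the final estimation -/
noncomputable def estP (t : ℕ → Tb n) (h : ℕ → ℕ) : PMF (ℕ → ℕ) :=
  (randT n).bind fun B => (seqBind (estS I p t) p.L (B, h)).map Prod.snd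

/-- the counters of the final estimation -/
noncomputable def estK (t : ℕ → Tb n) : PMF (ℕ → ℕ) := iterBind (estP I p t) p.S fun _ => 0

/-- numerator and denominator of the output -/
def outV (n : ℕ) (h : ℕ → ℕ) : ℤ × ℤ :=
  if 2 * (2 ^ n * ∏ l ∈ Finset.range p.L, h l) < p.S ^ p.L then (0, 1)
  else (((2 ^ n * ∏ l ∈ Finset.range p.L, h l : ℕ) : ℤ), ((p.S ^ p.L : ℕ) : ℤ))

/-- the output of the whole algorithm -/
noncomputable def mainK : PMF (ℤ × ℤ) :=
  (learnK I p).bind fun t => (estK I p t).map (outV p n)

end Vale.Agent.P317R
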