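import Vale.Agent.P317R.Algo
import Vale.Agent.P328R.Pert
import Vale.Agent.P328R.MixPMF

/-! # P317: basic facts on the states, the integer weights and the proposal -/

namespace Vale.Agent.P317R

open Vale.Agent.P328RAM
open Vale.Agent.P328R (TVle Sym EE bern)
open scoped ENNReal
open Finset

variable {n : ℕ}

/-! ### rank functions -/

/-- the axioms of the rank function of a matroid -/
structure IsRk (rk : Finset (Fin n) → ℕ) : Prop where
  emp : rk ∅ = 0
  mono : ∀ A B, A ⊆ B → rk A ≤ rk B
  ins : ∀ A x, rk (insert x A) ≤ rk A + 1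
  sub : ∀ A B, rk (A ∪ B) + rk (A ∩ B) ≤ rk A + rk B

/-- two matroids of the same rank -/
structure Inst.Ok (I : Inst n) : Prop where
  h1 : IsRk I.rk1
  h2 : IsRk I.rk2
  t1 : I.rk1 univ = I.r
  t2 : I.rk2 univ = I.r

theorem IsRk.union_le {rk : Finset (Fin n) → ℕ} (h : IsRk rk) (A C : Finset (Fin n)) :
    rk (A ∪ C) ≤ rk A + C.card := by
  induction C using Finset.induction_on with
  | empty => simp
  | insert x C hx ih =>
    rw [Finset.union_insert, Finset.card_insert_of_notMem hx]
    have := h.ins (A ∪ C) x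
    omega

theorem IsRk.le_card {rk : Finset (Fin n) → ℕ} (h : IsRk rk) (A : Finset (Fin n)) :
    rk A ≤ A.card := by
  have := h.union_le ∅ A
  rw [Finset.empty_union, h.emp] at this
  omega

theorem IsRk.univ_le {rk : Finset (Fin n) → ℕ} (h : IsRk rk) (A : Finset (Fin n)) :
    rk univ ≤ rk A + (n - A.card) := by
  have := h.union_le A (univ \ A)
  rw [Finset.union_sdiff_of_subset (Finset.subset_univ A)] at this
  rw [Finset.card_sdiff_of_subset (Finset.subset_univ A)] at this
  simpa using this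

/-! ### cardinalities -/

theorem card_eq_sum (B : St n) : B.card = ∑ e, npair B e := by
  have h : B.card = ∑ x : Fin n × Bool, if x ∈ B then 1 else 0 := by simp
  rw [h, Fintype.sum_prod_type]
  refine Finset.sum_congr rfl fun e _ => ?_
  rw [Fintype.sum_bool]
  unfold npair
  ring

theorem card_A1 (B : St n) : (A1 B).card = ∑ e, if (e, false) ∈ B then 1 else 0 := by
  unfold A1
  rw [Finset.card_filter]

theorem card_A2 (B : St n) : (A2 B).card + ∑ e : Fin n, (if (e, true) ∈ B then 1 else 0) = n := by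
  unfold A2
  rw [Finset.card_filter, ← Finset.sum_add_distrib]
  have : ∀ e : Fin n, ((if (e, true) ∉ B then 1 else 0) + if (e, true) ∈ B then 1 else 0) = 1 := by
    intro e
    by_cases h : (e, true) ∈ B <;> simp [h]
  rw [Finset.sum_congr rfl fun e _ => this e]
  simp

theorem card_A1_A2 (B : St n) : (A1 B).card + n = B.card + (A2 B).card := by
  have h1 := card_A1 B
  have h2 := card_A2 B
  have h3 : B.card = (∑ e : Fin n, if (e, false) ∈ B then 1 else 0) +
      ∑ e : Fin n, if (e, true) ∈ B then 1 else 0 := by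
    rw [card_eq_sum, ← Finset.sum_add_distrib]
    rfl
  omega

theorem null_le {I : Inst n} (hI : I.Ok) {B : St n} (hB : B.card = n) : null I B ≤ n := by
  unfold null
  have h1 := card_A1_A2 B
  have h2 := hI.h2.univ_le (A2 B)
  have h3 := hI.h1.le_card (A1 B)
  have h4 : (A2 B).card ≤ n := by
    have := Finset.card_le_univ (A2 B)
    simpa using this
  rw [hI.t2] at h2
  have h5 := hI.h2.mono (A2 B) univ (Finset.subset_univ _)
  rw [hI.t2] at h5
  omega

/-! ### classes -/

theorem npair_le (B : St n) (e : Fin n) : npair B e ≤ 2 := by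
  unfold npair
  split_ifs <;> omega

theorem Perf.card {B : St n} (h : Perf B) : B.card = n := by
  rw [card_eq_sum]
  have h' : ∀ e ∈ (univ : Finset (Fin n)), npair B e = 1 := fun e _ => h e
  rw [Finset.sum_congr rfl h']
  simp

theorem Cls.ne {ij : Fin n × Fin n} {B : St n} (h : Cls ij B) : ij.1 ≠ ij.2 := by
  intro he
  have h1 := h.1
  have h2 := h.2.1
  rw [he] at h1
  omega

theorem Cls.card {ij : Fin n × Fin n} {B : St n} (h : Cls ij B) : B.card = n := by
  have hne := h.ne
  rw [card_eq_sum]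
  have key : ∀ e : Fin n, ((npair B e : ℕ) : ℤ) =
      1 + (if e = ij.1 then 1 else 0) - if e = ij.2 then 1 else 0 := by
    intro e
    by_cases h1 : e = ij.1
    · have h2 : e ≠ ij.2 := by rw [h1]; exact hne
      rw [if_pos h1, if_neg h2, h1, h.1]
      norm_num
    · by_cases h2 : e = ij.2
      · rw [if_neg h1, if_pos h2, h2, h.2.1]
        norm_num
      · rw [if_neg h1, if_neg h2, h.2.2 e h1 h2]
        norm_num
  have h3 : ((∑ e, npair B e : ℕ) : ℤ) = (n : ℤ) := by
    push_cast
    rw [Finset.sum_congr rfl fun e _ => key e, Finset.sum_sub_distrib, Finset.sum_add_distrib]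
    simp
  exact_mod_cast h3

theorem IsSt.card {B : St n} (h : IsSt B) : B.card = n := by
  rcases h with h | ⟨ij, h⟩
  · exact h.card
  · exact h.card

theorem Cls.unique {ij kl : Fin n × Fin n} {B : St n} (h : Cls ij B) (h' : Cls kl B) :
    ij = kl := by
  have h1 : ij.1 = kl.1 := by
    by_contra h1
    have a := h.1
    by_cases h2 : ij.1 = kl.2
    · have := h'.2.1
      rw [← h2] at this
      omega
    · have := h'.2.2 _ h1 h2
      omega
  have h2 : ij.2 = kl.2 := by
    by_contra h2
    have a := h.2.1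
    by_cases h3 : ij.2 = kl.1
    · have := h'.1
      rw [← h3] at this
      omega
    · have := h'.2.2 _ h3 h2
      omega
  exact Prod.ext h1 h2

theorem cl_of_cls {ij : Fin n × Fin n} {B : St n} (h : Cls ij B) : cl B = some ij := by
  unfold cl
  have h' : ∃ ij : Fin n × Fin n, Cls ij B := ⟨ij, h⟩
  rw [dif_pos h']
  exact congrArg some (h'.choose_spec.unique h)

theorem Perf.not_cls {B : St n} (h : Perf B) (ij : Fin n × Fin n) : ¬ Cls ij B := by
  intro h'
  have := h'.1
  rw [h ij.1] at this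
  omega

theorem cl_of_perf {B : St n} (h : Perf B) : cl B = none := by
  unfold cl
  rw [dif_neg]
  rintro ⟨ij, h'⟩
  exact h.not_cls ij h'

theorem cl_eq_some {ij : Fin n × Fin n} {B : St n} : cl B = some ij ↔ Cls ij B := by
  constructor
  · intro h
    unfold cl at h
    split_ifs at h with h'
    have := h'.choose_spec
    rwa [Option.some.inj h] at this
  · exact cl_of_cls

theorem cl_eq_none {B : St n} (hB : IsSt B) : cl B = none ↔ Perf B := by
  constructor
  · intro h
    rcases hB with h' | ⟨ij, h'⟩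
    · exact h'
    · rw [cl_of_cls h'] at h
      exact absurd h (by simp)
  · exact cl_of_perf

/-! ### the real weights -/

/-- the ratio of the levels -/
noncomputable def qn (n : ℕ) : ℝ := (4 * n - 1) / (4 * n)

theorem qn_pos (hn : 0 < n) : 0 < qn n := by
  unfold qn
  have : (1 : ℝ) ≤ n := by exact_mod_cast hn
  exact div_pos (by linarith) (by linarith)

theorem qn_le_one (hn : 0 < n) : qn n ≤ 1 := by
  unfold qn
  have : (1 : ℝ) ≤ n := by exact_mod_cast hn
  rw [div_le_one (by linarith)]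
  linarith

theorem qn_eq (hn : 0 < n) : qn n = 1 - 1 / (4 * n) := by
  unfold qn
  have : (1 : ℝ) ≤ n := by exact_mod_cast hn
  field_simp

/-- the real weight of a state at the level `k` -/
noncomputable def wR (I : Inst n) (k : ℕ) (t : Tb n) (B : St n) : ℝ :=
  qn n ^ (k * null I B) * (2 : ℝ) ^ exq t (cl B)

theorem wR_pos (hn : 0 < n) (I : Inst n) (k : ℕ) (t : Tb n) (B : St n) : 0 < wR I k t B := by
  unfold wR
  have := qn_pos hn
  positivity

theorem wR_perf (I : Inst n) (k : ℕ) (t : Tb n) {B : St n} (h : Perf B) :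
    wR I k t B = qn n ^ (k * null I B) := by
  unfold wR
  rw [cl_of_perf h]
  simp [exq]

theorem wR_cls (I : Inst n) (k : ℕ) (t : Tb n) {ij : Fin n × Fin n} {B : St n} (h : Cls ij B) :
    wR I k t B = qn n ^ (k * null I B) * (2 : ℝ) ^ t ij := by
  unfold wR
  rw [cl_of_cls h]
  simp [exq]

/-- the scale of the integer weights -/
noncomputable def scW (n : ℕ) (p : Par) (k : ℕ) : ℝ := (4 * n : ℝ) ^ (k * n) * 2 ^ p.E0

theorem scW_pos (hn : 0 < n) (p : Par) (k : ℕ) : 0 < scW n p k := by
  unfold scW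
  have : (1 : ℝ) ≤ n := by exact_mod_cast hn
  positivity

/-- a table whose integer exponents are not cut off -/
def TbOk (p : Par) (t : Tb n) : Prop := ∀ ij, 0 ≤ (p.E0 : ℤ) + t ij

theorem Wt_eq {I : Inst n} (hI : I.Ok) (hn : 0 < n) {p : Par} {t : Tb n} (ht : TbOk p t) (k : ℕ)
    {B : St n} (hB : IsSt B) : (Wt I p k t B : ℝ) = scW n p k * wR I k t B := by
  unfold Wt
  rw [if_pos hB]
  have h1 : null I B ≤ n := null_le hI hB.card
  have h4 : (1 : ℝ) ≤ n := by exact_mod_cast hn
  have h5 : ((4 * n - 1 : ℕ) : ℝ) = 4 * n - 1 := by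
    rw [Nat.cast_sub (by omega)]
    push_cast
    ring
  have h6 : ((2 ^ ((p.E0 : ℤ) + exq t (cl B)).toNat : ℕ) : ℝ) = 2 ^ p.E0 * (2 : ℝ) ^ exq t (cl B) := by
    have h7 : 0 ≤ (p.E0 : ℤ) + exq t (cl B) := by
      cases h : cl B with
      | none => simp [exq]
      | some ij => exact ht ij
    push_cast
    rw [← zpow_natCast, Int.toNat_of_nonneg h7, zpow_add₀ (by norm_num), zpow_natCast]
  rw [Nat.cast_mul, h6]
  unfold scW wR qn
  push_cast
  rw [h5, div_pow]
  have h8 : (4 * (n : ℝ)) ^ (k * n) = (4 * n) ^ (k * null I B) * (4 * n) ^ (k * (n - null I B)) := by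
    rw [← pow_add, ← Nat.mul_add]
    congr 2
    omega
  rw [h8]
  have h9 : (4 * (n : ℝ)) ^ (k * null I B) ≠ 0 := by positivity
  field_simp

theorem Wt_ne_zero {I : Inst n} (hn : 0 < n) {p : Par} {t : Tb n} {k : ℕ} {B : St n} :
    Wt I p k t B ≠ 0 ↔ IsSt B := by
  unfold Wt
  constructor
  · intro h
    by_contra h'
    rw [if_neg h'] at h
    exact h rfl
  · intro h
    rw [if_pos h]
    have h1 : 4 * n - 1 ≠ 0 := by omega
    have h2 : 4 * n ≠ 0 := by omega
    positivity

/-! ### the proposal -/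

theorem exch_inv {c d x y : ℕ} {B B' : St n} (h : B ≠ B') :
    exch c d x y B = B' ↔ exch d c y x B' = B := by
  have key : ∀ (c d x y : ℕ) (B B' : St n), B ≠ B' → exch c d x y B = B' →
      exch d c y x B' = B := by
    intro c d x y B B' h h1
    unfold exch at h1
    split_ifs at h1 with hx hv
    · subst h1
      unfold exch
      rw [dif_pos hx.symm]
      have hne : ((⟨x, hx.1⟩ : Fin n), decide (c = 1)) ≠ ((⟨y, hx.2⟩ : Fin n), decide (d = 1)) := by
        intro he
        exact hv.2 (he ▸ hv.1)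
      rw [if_pos]
      · rw [Finset.erase_insert]
        · exact Finset.insert_erase hv.1
        · intro hm
          exact hv.2 (Finset.mem_of_mem_erase hm)
      · refine ⟨Finset.mem_insert_self _ _, ?_⟩
        intro hm
        rcases Finset.mem_insert.1 hm with hm | hm
        · exact hne hm
        · exact (Finset.notMem_erase _ _) hm
    · exact absurd h1 h
    · exact absurd h1 h
  exact ⟨key c d x y B B' h, key d c y x B' B (Ne.symm h)⟩

/-- the law of the four draws -/
noncomputable def draws (Bn : ℕ) : PMF (ℕ × ℕ × ℕ × ℕ) :=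
  (unif 1).bind fun c => (unif 1).bind fun d => (unif Bn).bind fun x =>
    (unif Bn).map fun y => (c, d, x, y)

theorem propK_eq (p : Par) (B : St n) :
    propK p B = (draws p.Bn).map fun d => exch d.1 d.2.1 d.2.2.1 d.2.2.2 B := by
  unfold propK draws
  simp only [PMF.map_bind, PMF.map_comp]
  rfl

theorem bind_pair_apply {α β : Type} (μ : PMF α) (f : α → PMF β) (a : α) (b : β) :
    (μ.bind fun a => (f a).map fun b => (a, b)) (a, b) = μ a * f a b := by
  classical
  rw [PMF.bind_apply, tsum_eq_single a]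
  · rw [PMF.map_apply, tsum_eq_single b]
    · simp
    · intro b' hb'
      simp [Ne.symm hb']
  · intro a' ha'
    rw [PMF.map_apply, ENNReal.tsum_eq_zero.2, mul_zero]
    intro b'
    simp [Ne.symm ha']

theorem draws_apply (Bn c d x y : ℕ) :
    draws Bn (c, d, x, y) = unif 1 c * (unif 1 d * (unif Bn x * unif Bn y)) := by
  have h : draws Bn = (unif 1).bind fun c => (((unif 1).bind fun d => ((unif Bn).bind fun x =>
      (unif Bn).map fun y => (x, y)).map fun z => (d, z))).map fun z => (c, z) := by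
    unfold draws
    simp only [PMF.map_bind, PMF.map_comp]
    rfl
  rw [h, bind_pair_apply, bind_pair_apply, bind_pair_apply]

theorem propK_sym (p : Par) (B B' : St n) : propK p B B' = propK p B' B := by
  classical
  by_cases h : B = B'
  · rw [h]
  rw [propK_eq, propK_eq]
  simp only [PMF.map_apply]
  let τ : ℕ × ℕ × ℕ × ℕ ≃ ℕ × ℕ × ℕ × ℕ :=
    { toFun := fun d => (d.2.1, d.1, d.2.2.2, d.2.2.1)
      invFun := fun d => (d.2.1, d.1, d.2.2.2, d.2.2.1)
      left_inv := fun _ => rfl
      right_inv := fun _ => rfl }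
  rw [← τ.tsum_eq]
  refine tsum_congr fun d => ?_
  obtain ⟨c, d, x, y⟩ := d
  simp only [τ, Equiv.coe_fn_mk]
  have h1 : draws p.Bn (d, c, y, x) = draws p.Bn (c, d, x, y) := by
    rw [draws_apply, draws_apply]
    ring
  rw [h1]
  have h2 : (B' = exch d c y x B) ↔ (B = exch c d x y B') := by
    constructor
    · intro h3
      exact ((exch_inv h).1 h3.symm).symm
    · intro h3
      exact ((exch_inv h).2 h3.symm).symm
  simp only [h2]
  congr

theorem unif_apply {B k : ℕ} (h : k < 2 ^ B) : unif B k = (2 ^ B)⁻¹ := by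
  classical
  have : Nonempty (Fin (2 ^ B)) := ⟨⟨0, by positivity⟩⟩
  rw [P328R.unif_eq, PMF.map_apply, tsum_eq_single (⟨k, h⟩ : Fin (2 ^ B))]
  · simp
  · intro b hb
    rw [if_neg]
    intro h'
    exact hb (Fin.ext h'.symm)

/-- the probability of a particular exchange -/
theorem propK_ge {p : Par} (hBn : n ≤ 2 ^ p.Bn) {B : St n} {e f : Fin n × Bool} (he : e ∈ B)
    (hf : f ∉ B) : ((4 * (2 ^ p.Bn) ^ 2 : ℕ) : ℝ≥0∞)⁻¹ ≤ propK p B (insert f (B.erase e)) := by
  classical
  obtain ⟨⟨x, hx⟩, c⟩ := e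
  obtain ⟨⟨y, hy⟩, d⟩ := f
  rw [propK_eq, PMF.map_apply]
  have hc : ∀ c : Bool, (if c then 1 else 0 : ℕ) < 2 ^ 1 := by
    intro c
    cases c <;> simp
  have hd : ∀ c : Bool, decide ((if c then 1 else 0 : ℕ) = 1) = c := by
    intro c
    cases c <;> simp
  refine le_trans ?_ (ENNReal.le_tsum (((if c then 1 else 0 : ℕ), (if d then 1 else 0 : ℕ), x, y) :
    ℕ × ℕ × ℕ × ℕ))
  have h1 : insert ((⟨y, hy⟩ : Fin n), d) (B.erase ((⟨x, hx⟩ : Fin n), c)) =
      exch (if c then 1 else 0) (if d then 1 else 0) x y B := by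
    unfold exch
    rw [dif_pos ⟨hx, hy⟩]
    simp only [hd]
    rw [if_pos ⟨he, hf⟩]
  rw [if_pos h1, draws_apply, unif_apply (hc c), unif_apply (hc d),
    unif_apply (hx.trans_le hBn), unif_apply (hy.trans_le hBn)]
  have h2 : ((4 * (2 ^ p.Bn) ^ 2 : ℕ) : ℝ≥0∞) = 2 ^ 1 * (2 ^ 1 * (2 ^ p.Bn * 2 ^ p.Bn)) := by
    push_cast
    ring
  rw [h2]
  have h3 : (2 : ℝ≥0∞) ^ p.Bn ≠ 0 := by positivity
  have h4 : (2 : ℝ≥0∞) ^ p.Bn ≠ ⊤ := ENNReal.pow_ne_top (by norm_num)
  rw [ENNReal.mul_inv (Or.inl (by norm_num)) (Or.inl (by norm_num)),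
    ENNReal.mul_inv (Or.inl (by norm_num)) (Or.inl (by norm_num)),
    ENNReal.mul_inv (Or.inl h3) (Or.inl h4)]

end Vale.Agent.P317R
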