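import Vale.Agent.P317R.PoinDefs

/-!
# P317R: energies of near-perfect classes and the cost

MODULE TP1.
-/

namespace Vale.Agent.P317R

open Finset

variable {ι : Type*} [Fintype ι] [DecidableEq ι]

/-- the part of the node cost of the pair `j` -/
def pairCost (wt g h : Finset (ι × Bool) → ℝ) (j : ι) (S : Finset (ι × Bool)) : ℝ :=
  (if (j, true) ∈ S then 0 else
    wt (insert (j, true) S) * (g (insert (j, true) S) - h S) ^ 2) +
  (if (j, false) ∈ S then 0 else
    wt (insert (j, false) S) * (g (insert (j, false) S) - h S) ^ 2)

theorem nodeCost_eq (wt g h : Finset (ι × Bool) → ℝ) (S : Finset (ι × Bool)) :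
    nodeCost wt g h S = ∑ j, pairCost wt g h j S := by
  unfold nodeCost pairCost
  rw [Fintype.sum_prod_type]
  refine sum_congr rfl fun j _ => ?_
  rw [Fintype.sum_bool]

omit [Fintype ι] in
theorem pairCost_nonneg {wt : Finset (ι × Bool) → ℝ} (hwt : ∀ S, 0 ≤ wt S)
    (g h : Finset (ι × Bool) → ℝ) (j : ι) (S : Finset (ι × Bool)) :
    0 ≤ pairCost wt g h j S := by
  unfold pairCost
  have h1 : 0 ≤ if (j, true) ∈ S then (0 : ℝ) else
      wt (insert (j, true) S) * (g (insert (j, true) S) - h S) ^ 2 := by
    split_ifs
    · exact le_rfl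
    · exact mul_nonneg (hwt _) (sq_nonneg _)
  have h2 : 0 ≤ if (j, false) ∈ S then (0 : ℝ) else
      wt (insert (j, false) S) * (g (insert (j, false) S) - h S) ^ 2 := by
    split_ifs
    · exact le_rfl
    · exact mul_nonneg (hwt _) (sq_nonneg _)
  exact add_nonneg h1 h2

/-- a transversal of `K` over a base which is pinned outside of `J ⊇ K` -/
theorem IsTr.pinned_trans {J K : Finset ι} {W S : Finset (ι × Bool)}
    (hW : Pinned J W) (hS : IsTr K W S) : IsTr (univ \ (J \ K)) ∅ S := by
  refine ⟨fun g hg => ?_, fun j hj => ?_⟩
  · have hg' : g.1 ∈ J \ K := by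
      by_contra h; exact hg (by simp only [mem_sdiff, mem_univ, true_and]; simpa using h)
    rw [mem_sdiff] at hg'
    have h1 := hS.1 g hg'.2
    have h2 := hW.free g.1 hg'.1 g.2
    constructor
    · intro h; exact absurd (h1.1 h) h2
    · intro h; simp at h
  · by_cases hjK : j ∈ K
    · exact hS.2 j hjK
    · have hjJ : j ∉ J := by
        intro h
        simp only [mem_sdiff, mem_univ, true_and] at hj
        exact hj ⟨h, hjK⟩
      have h1 := hW.2 j (by simp [hjJ])
      rw [hS.1 (j, true) hjK, hS.1 (j, false) hjK]
      exact h1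

/-- TP1: the energies in the near-perfect classes are bounded by the cost. For a transversal `S'` of
`J \ {i, j}` over `W`, `U = S' + (j, false) + (j, true)` is a neighbour of the nodes
`S' + (j, false)` and `S' + (j, true)`, and
`wt U (h (S' + a) - h (S' + b))² ≤ 2 wt U ((g U - h (S' + a))² + (g U - h (S' + b))²)`. The part
`∑ over c in the pair i` of the cost of the nodes (perfect states) is separated. -/
theorem cost_near {w wt : Finset (ι × Bool) → ℝ} {ω : ι → ι → ℝ} (hwt : WtOK w wt ω)
    (g h : Finset (ι × Bool) → ℝ) {J : Finset ι} {W : Finset (ι × Bool)} (hW : Pinned J W)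
    {i : ι} (hi : i ∈ J) :
    ∑ j ∈ J.erase i, ω j i * En ((J.erase i).erase j) w h W j / 2 +
      trs (J.erase i) (fun S => w (insert (i, false) S) * (g (insert (i, false) S) - h S) ^ 2 +
        w (insert (i, true) S) * (g (insert (i, true) S) - h S) ^ 2) W ≤ Cost J wt g h W i := by
  have hfree := hW.free
  have hfK : Free (J.erase i) W := fun j hj b => hfree j (mem_of_mem_erase hj) b
  -- the pair `i`
  have hperf : trs (J.erase i) (fun S => w (insert (i, false) S) *
      (g (insert (i, false) S) - h S) ^ 2 +
        w (insert (i, true) S) * (g (insert (i, true) S) - h S) ^ 2) W =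
      trs (J.erase i) (pairCost wt g h i) W := by
    refine trs_congr hfK fun S hS => ?_
    have hn : ∀ b, (i, b) ∉ S := fun b hb =>
      hfree i hi b ((hS.1 (i, b) (notMem_erase i J)).1 hb)
    have hp : ∀ b, wt (insert (i, b) S) = w (insert (i, b) S) := by
      intro b
      refine hwt.perf _ ⟨fun g hg => absurd (mem_univ _) hg, fun j _ => ?_⟩
      by_cases hji : j = i
      · subst hji
        cases b <;> simp [hn]
      · have h1 : ((j, true) ∈ S ↔ (j, false) ∉ S) := by
          refine (IsTr.pinned_trans hW hS).2 j ?_
          rw [mem_sdiff, mem_sdiff, mem_erase]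
          exact ⟨mem_univ _, fun h5 => h5.2 ⟨hji, h5.1⟩⟩
        have e1 : ((j, true) : ι × Bool) ≠ (i, b) := fun h => hji (congrArg Prod.fst h)
        have e2 : ((j, false) : ι × Bool) ≠ (i, b) := fun h => hji (congrArg Prod.fst h)
        simp only [mem_insert, e1, e2, false_or]
        exact h1
    unfold pairCost
    rw [if_neg (hn true), if_neg (hn false), hp, hp]
    ring
  -- the other pairs
  have hnear : ∀ j ∈ J.erase i, ω j i * En ((J.erase i).erase j) w h W j / 2 ≤
      trs (J.erase i) (pairCost wt g h j) W := by
    intro j hj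
    have hji : j ≠ i := ne_of_mem_erase hj
    have hjJ : j ∈ J := mem_of_mem_erase hj
    have hfK' : Free ((J.erase i).erase j) W := fun l hl b => hfK l (mem_of_mem_erase hl) b
    rw [trs_split hj hfK, trs_shift (a := (j, false)) (notMem_erase j _),
      trs_shift (a := (j, true)) (notMem_erase j _), ← trs_add]
    have e : ω j i * En ((J.erase i).erase j) w h W j / 2 =
        trs ((J.erase i).erase j) (fun S => ω j i / 2 *
          (w (insert (j, false) (insert (j, true) S)) *
            (h (insert (j, false) S) - h (insert (j, true) S)) ^ 2)) W := by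
      rw [trs_smul]; unfold En; ring
    rw [e]
    refine trs_mono' hfK' fun S hS => ?_
    have hn : ∀ b, (j, b) ∉ S := fun b hb =>
      hfree j hjJ b ((hS.1 (j, b) (notMem_erase j _)).1 hb)
    have hU : wt (insert (j, false) (insert (j, true) S)) =
        ω j i * w (insert (j, false) (insert (j, true) S)) := by
      refine hwt.near i j (Ne.symm hji) S ?_
      have h1 := IsTr.pinned_trans hW hS
      have h2 : univ \ (J \ (J.erase i).erase j) = (univ.erase i).erase j := by
        ext l
        rw [mem_sdiff, mem_sdiff, mem_erase, mem_erase, mem_erase, mem_erase]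
        constructor
        · intro h'
          refine ⟨fun e => ?_, fun e => ?_, mem_univ _⟩
          · subst e
            exact h'.2 ⟨hjJ, fun h3 => h3.1 rfl⟩
          · subst e
            exact h'.2 ⟨hi, fun h3 => h3.2.1 rfl⟩
        · rintro ⟨h3, h4, _⟩
          exact ⟨mem_univ _, fun h5 => h5.2 ⟨h3, h4, h5.1⟩⟩
      rw [h2] at h1
      exact h1
    have c1 : pairCost wt g h j (insert (j, false) S) =
        wt (insert (j, false) (insert (j, true) S)) *
          (g (insert (j, false) (insert (j, true) S)) - h (insert (j, false) S)) ^ 2 := by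
      unfold pairCost
      have a1 : (j, true) ∉ insert (j, false) S := by simp [hn]
      rw [if_neg a1, if_pos (mem_insert_self _ _), add_zero, Finset.insert_comm (j, true)]
    have c2 : pairCost wt g h j (insert (j, true) S) =
        wt (insert (j, false) (insert (j, true) S)) *
          (g (insert (j, false) (insert (j, true) S)) - h (insert (j, true) S)) ^ 2 := by
      unfold pairCost
      have a1 : (j, false) ∉ insert (j, true) S := by simp [hn]
      rw [if_neg a1, if_pos (mem_insert_self _ _), zero_add]
    rw [c1, c2]
    set x := wt (insert (j, false) (insert (j, true) S)) with hx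
    have hx0 : 0 ≤ x := hwt.nonneg _
    set G := g (insert (j, false) (insert (j, true) S))
    set ha := h (insert (j, false) S)
    set hb := h (insert (j, true) S)
    have : ω j i / 2 * (w (insert (j, false) (insert (j, true) S)) * (ha - hb) ^ 2) =
        x / 2 * (ha - hb) ^ 2 := by
      rw [hU]; ring
    rw [this]
    nlinarith [mul_nonneg hx0 (sq_nonneg ((G - ha) + (G - hb)))]
  rw [hperf]
  unfold Cost
  have hall : trs (J.erase i) (nodeCost wt g h) W =
      ∑ j, trs (J.erase i) (pairCost wt g h j) W := by
    rw [← trs_sum]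
    congr 1
    funext S
    exact nodeCost_eq wt g h S
  rw [hall]
  have hsub : insert i (J.erase i) ⊆ (univ : Finset ι) := subset_univ _
  calc ∑ j ∈ J.erase i, ω j i * En ((J.erase i).erase j) w h W j / 2 +
        trs (J.erase i) (pairCost wt g h i) W
      ≤ ∑ j ∈ J.erase i, trs (J.erase i) (pairCost wt g h j) W +
        trs (J.erase i) (pairCost wt g h i) W := by
        gcongr with j hj
        exact hnear j hj
    _ = ∑ j ∈ insert i (J.erase i), trs (J.erase i) (pairCost wt g h j) W := by
        rw [sum_insert (notMem_erase i J)]; ring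
    _ ≤ ∑ j, trs (J.erase i) (pairCost wt g h j) W :=
        sum_le_sum_of_subset_of_nonneg hsub fun j _ _ =>
          trs_nonneg (fun S => pairCost_nonneg hwt.nonneg g h j S) W

end Vale.Agent.P317R
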