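import Vale.Agent.P317R.TrBase
import Vale.Agent.P317R.AFCons

/-!
# P317R: the class sums and the cycle inequalities (T2), (T3)

MODULE CYC.
-/

namespace Vale.Agent.P317R

open Finset

variable {ι : Type*} [Fintype ι] [DecidableEq ι]

/-- `Zc J w W i j`: total weight of the sets over `W` with the pair `i` double, the pair `j`
empty and one element of every other pair of `J` -/
noncomputable def Zc (J : Finset ι) (w : Finset (ι × Bool) → ℝ) (W : Finset (ι × Bool))
    (i j : ι) : ℝ :=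
  trs ((J.erase i).erase j) (fun S => w (insert (i, false) (insert (i, true) S))) W

theorem cyc_free {J J' : Finset ι} {W : Finset (ι × Bool)} (h : J' ⊆ J) (hW : Free J W) :
    Free J' W := fun j hj b => hW j (h hj) b

theorem cyc_double {J : Finset ι} {W : Finset (ι × Bool)} {i j : ι} (hi : ∀ b, (i, b) ∉ W)
    (w : Finset (ι × Bool) → ℝ) :
    dd (ep i) (dd (ep i) (trs ((J.erase i).erase j) w)) W = 2 * Zc J w W i j := by
  have hiJ : i ∉ (J.erase i).erase j := by
    intro h
    exact absurd (mem_of_mem_erase h) (notMem_erase i J)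
  have h1 : ∀ b, (i, !b) ∉ insert (i, b) W := by
    intro b h
    rcases mem_insert.1 h with h | h
    · have := congrArg Prod.snd h
      simp at this
    · exact hi _ h
  have e1 : trs ((J.erase i).erase j) w (insert (i, true) (insert (i, false) W)) =
      Zc J w W i j := by
    unfold Zc
    rw [Finset.insert_comm, trs_shift (by exact hiJ), trs_shift (by exact hiJ)]
  have e2 : trs ((J.erase i).erase j) w (insert (i, false) (insert (i, true) W)) =
      Zc J w W i j := by
    unfold Zc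
    rw [trs_shift (by exact hiJ), trs_shift (by exact hiJ)]
  have h2 : (i, false) ∉ insert (i, true) W := h1 true
  have h3 : (i, true) ∉ insert (i, false) W := h1 false
  rw [dd_ep, dd_ev, dd_ev, if_neg (hi false), if_neg (hi true), dd_ep, dd_ep, dd_ev, dd_ev, dd_ev,
    dd_ev, if_pos (mem_insert_self _ _), if_neg h3, if_neg h2, if_pos (mem_insert_self _ _), e1, e2]
  ring

theorem cyc_total {J : Finset ι} {i j : ι} (hi : i ∈ J) (hj : j ∈ J) (hij : i ≠ j)
    (w : Finset (ι × Bool) → ℝ) :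
    dd (ep i) (dd (ep j) (trs ((J.erase i).erase j) w)) = trs J w := by
  rw [← trs_erase_dd (mem_erase.2 ⟨hij.symm, hj⟩), ← trs_erase_dd hi]

/-- (T2): `Lor` for `QF (eps ((J.erase i).erase j))` with `u = ep i`, `v = ep j`:
`Q(ep i, ep i) = 2 Zc i j`, `Q(ep j, ep j) = 2 Zc j i`, `Q(ep i, ep j) = N`. -/
theorem cyc2 {w : Finset (ι × Bool) → ℝ} (hw : ∀ S, 0 < w S) (hL : Lor w) {J : Finset ι}
    {W : Finset (ι × Bool)} (hW : Free J W) {i j : ι} (hi : i ∈ J) (hj : j ∈ J) (hij : i ≠ j) :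
    4 * (Zc J w W i j * Zc J w W j i) ≤ trs J w W ^ 2 := by
  have h := hL (eps ((J.erase i).erase j)) (eps_nonneg _) W (ep i) (ep j) (ep_nonneg i)
  have e1 : QF (eps ((J.erase i).erase j)) w W (ep i) (ep i) = 2 * Zc J w W i j :=
    cyc_double (hW i hi) w
  have e2 : QF (eps ((J.erase i).erase j)) w W (ep j) (ep j) = 2 * Zc J w W j i := by
    rw [erase_right_comm]
    exact cyc_double (hW j hj) w
  have e3 : QF (eps ((J.erase i).erase j)) w W (ep i) (ep j) = trs J w W :=
    congrFun (cyc_total hi hj hij w) W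
  rw [e1, e2, e3] at h
  linarith

/-- (T3): `Lor.triangle` for the list `ep k :: eps (J \ {i,j,k})` with `u = ep i`, `v = ep k`,
`v' = ep j`: `Q(ep i, ep i) = 2 Z i j`, `Q(ep i, ep j) = N`, `Q(ep k, ep i) = 2 Z k j`,
`Q(ep k, ep j) = 2 Z k i`. -/
theorem cyc3 {w : Finset (ι × Bool) → ℝ} (hw : ∀ S, 0 < w S) (hL : Lor w) {J : Finset ι}
    {W : Finset (ι × Bool)} (hW : Free J W) {i j k : ι} (hi : i ∈ J) (hj : j ∈ J) (hk : k ∈ J)
    (hij : i ≠ j) (hik : i ≠ k) (hjk : j ≠ k) :
    Zc J w W k i * Zc J w W i j ≤ trs J w W * Zc J w W k j := by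
  set J3 := ((J.erase i).erase j).erase k with hJ3
  have m1 : k ∈ (J.erase i).erase j := mem_erase.2 ⟨hjk.symm, mem_erase.2 ⟨hik.symm, hk⟩⟩
  have r1 : dd (ep k) (trs J3 w) = trs ((J.erase i).erase j) w := (trs_erase_dd m1 w).symm
  have r2 : dd (ep j) (trs J3 w) = trs ((J.erase k).erase i) w := by
    have m2 : j ∈ (J.erase k).erase i := mem_erase.2 ⟨hij.symm, mem_erase.2 ⟨hjk, hj⟩⟩
    have e : J3 = ((J.erase k).erase i).erase j := by
      rw [hJ3]
      ext x
      simp only [mem_erase]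
      tauto
    rw [e]
    exact (trs_erase_dd m2 w).symm
  have r3 : dd (ep i) (trs J3 w) = trs ((J.erase k).erase j) w := by
    have m2 : i ∈ (J.erase k).erase j := mem_erase.2 ⟨hij, mem_erase.2 ⟨hik, hi⟩⟩
    have e : J3 = ((J.erase k).erase j).erase i := by
      rw [hJ3]
      ext x
      simp only [mem_erase]
      tauto
    rw [e]
    exact (trs_erase_dd m2 w).symm
  have hcs : ∀ c ∈ ep k :: eps J3, ∀ g, 0 ≤ c g := by
    intro c hc g
    rcases List.mem_cons.1 hc with rfl | hc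
    · exact ep_nonneg k g
    · exact eps_nonneg J3 c hc g
  have h := hL.triangle (fun S => (hw S).le) hcs W (ep_nonneg i) (ep_nonneg k) (ep_nonneg j)
  have f0 : dds (ep k :: eps J3) w = dd (ep k) (trs J3 w) := rfl
  have e1 : QF (ep k :: eps J3) w W (ep i) (ep i) = 2 * Zc J w W i j := by
    unfold QF
    rw [f0, r1]
    exact cyc_double (hW i hi) w
  have e2 : QF (ep k :: eps J3) w W (ep k) (ep j) = 2 * Zc J w W k i := by
    unfold QF
    rw [f0, dd_comm (ep j) (ep k), r2]
    exact cyc_double (hW k hk) w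
  have e3 : QF (ep k :: eps J3) w W (ep i) (ep k) = 2 * Zc J w W k j := by
    unfold QF
    rw [f0, dd_comm (ep i) (ep k), dd_comm (ep i) (ep k), r3]
    exact cyc_double (hW k hk) w
  have e4 : QF (ep k :: eps J3) w W (ep i) (ep j) = trs J w W := by
    unfold QF
    rw [f0, r1, cyc_total hi hj hij w]
  rw [e1, e2, e3, e4] at h
  linarith

theorem Zc_pos {w : Finset (ι × Bool) → ℝ} (hw : ∀ S, 0 < w S) {J : Finset ι}
    {W : Finset (ι × Bool)} (hW : Free J W) (i j : ι) : 0 < Zc J w W i j :=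
  trs_pos (cyc_free ((erase_subset _ _).trans (erase_subset _ _)) hW) (fun S => hw _)

/-- potentials of the level `(J, W)`: `t j = 1 + ∑_{k ≠ j} Z(k,j) / N` -/
noncomputable def pot (J : Finset ι) (w : Finset (ι × Bool) → ℝ) (W : Finset (ι × Bool))
    (j : ι) : ℝ :=
  1 + ∑ k ∈ J.erase j, Zc J w W k j / trs J w W

/-- `z_ij t_i ≤ t_j` -/
theorem pot_le {w : Finset (ι × Bool) → ℝ} (hw : ∀ S, 0 < w S) (hL : Lor w) {J : Finset ι}
    {W : Finset (ι × Bool)} (hW : Free J W) {i j : ι} (hi : i ∈ J) (hj : j ∈ J) (hij : i ≠ j) :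
    Zc J w W i j * pot J w W i ≤ trs J w W * pot J w W j := by
  have hN : 0 < trs J w W := trs_pos hW hw
  set N := trs J w W with hNdef
  have hZ := fun a b => Zc_pos hw hW a b
  have m1 : j ∈ J.erase i := mem_erase.2 ⟨hij.symm, hj⟩
  have m2 : i ∈ J.erase j := mem_erase.2 ⟨hij, hi⟩
  have e1 : ∑ k ∈ J.erase i, Zc J w W k i / N =
      Zc J w W j i / N + ∑ k ∈ (J.erase i).erase j, Zc J w W k i / N :=
    (add_sum_erase _ _ m1).symm
  have e2 : ∑ k ∈ J.erase j, Zc J w W k j / N =
      Zc J w W i j / N + ∑ k ∈ (J.erase i).erase j, Zc J w W k j / N := by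
    rw [erase_right_comm]
    exact (add_sum_erase _ _ m2).symm
  have h3 : Zc J w W i j * ∑ k ∈ (J.erase i).erase j, Zc J w W k i / N ≤
      N * ∑ k ∈ (J.erase i).erase j, Zc J w W k j / N := by
    rw [mul_sum, mul_sum]
    refine sum_le_sum fun k hk => ?_
    have hk1 := mem_erase.1 hk
    have hk2 := mem_erase.1 hk1.2
    have h4 := cyc3 hw hL hW hi hj hk2.2 hij hk2.1.symm hk1.1.symm
    calc Zc J w W i j * (Zc J w W k i / N) = (Zc J w W k i * Zc J w W i j) / N := by ring
      _ ≤ (N * Zc J w W k j) / N := div_le_div_of_nonneg_right h4 hN.le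
      _ = N * (Zc J w W k j / N) := by ring
  have h4 : Zc J w W i j * (Zc J w W j i / N) ≤ N := by
    have h5 := cyc2 hw hL hW hi hj hij
    calc Zc J w W i j * (Zc J w W j i / N) = (Zc J w W i j * Zc J w W j i) / N := by ring
      _ ≤ N ^ 2 / N := by
          apply div_le_div_of_nonneg_right _ hN.le
          have := mul_pos (hZ i j) (hZ j i)
          linarith
      _ = N := by field_simp
  have h6 : N * (Zc J w W i j / N) = Zc J w W i j := by field_simp
  unfold pot
  rw [← hNdef, e1, e2]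
  calc Zc J w W i j * (1 + (Zc J w W j i / N + ∑ k ∈ (J.erase i).erase j, Zc J w W k i / N))
      = Zc J w W i j + Zc J w W i j * (Zc J w W j i / N) +
        Zc J w W i j * ∑ k ∈ (J.erase i).erase j, Zc J w W k i / N := by ring
    _ ≤ Zc J w W i j + N + N * ∑ k ∈ (J.erase i).erase j, Zc J w W k j / N := by linarith
    _ = N * (1 + (Zc J w W i j / N + ∑ k ∈ (J.erase i).erase j, Zc J w W k j / N)) := by
        rw [mul_add, mul_add, h6]; ring

theorem pot_pos {w : Finset (ι × Bool) → ℝ} (hw : ∀ S, 0 < w S) {J : Finset ι}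
    {W : Finset (ι × Bool)} (hW : Free J W) (i : ι) : 0 < pot J w W i := by
  unfold pot
  have : 0 ≤ ∑ k ∈ J.erase i, Zc J w W k i / trs J w W :=
    sum_nonneg fun k _ => div_nonneg (Zc_pos hw hW k i).le (trs_pos hW hw).le
  linarith

/-- root choice: for positive numbers `t` there is a root `i ∈ J` with `Z_W(i,j) t_i ≤ N_W t_j`
for all `j ∈ J`: take `i` with `t i / pot i` minimal. -/
theorem exists_root {w : Finset (ι × Bool) → ℝ} (hw : ∀ S, 0 < w S) (hL : Lor w) {J : Finset ι}
    (hJ : J.Nonempty) {W : Finset (ι × Bool)} (hW : Free J W) (t : ι → ℝ) (ht : ∀ i, 0 < t i) :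
    ∃ i ∈ J, ∀ j ∈ J, j ≠ i → Zc J w W i j * t i ≤ trs J w W * t j := by
  obtain ⟨i, hi, hmin⟩ := exists_min_image J (fun i => t i / pot J w W i) hJ
  refine ⟨i, hi, fun j hj hji => ?_⟩
  have h1 := hmin j hj
  have h2 := pot_le hw hL hW hi hj hji.symm
  have pi := pot_pos hw hW i
  have pj := pot_pos hw hW j
  rw [div_le_div_iff₀ pi pj] at h1
  have hZ := Zc_pos hw hW i j
  have hN : 0 < trs J w W := trs_pos hW hw
  have h3 : Zc J w W i j * t i * pot J w W j ≤ trs J w W * t j * pot J w W j := by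
    calc Zc J w W i j * t i * pot J w W j = Zc J w W i j * (t i * pot J w W j) := by ring
      _ ≤ Zc J w W i j * (t j * pot J w W i) := mul_le_mul_of_nonneg_left h1 hZ.le
      _ = t j * (Zc J w W i j * pot J w W i) := by ring
      _ ≤ t j * (trs J w W * pot J w W j) := mul_le_mul_of_nonneg_left h2 (ht j).le
      _ = _ := by ring
  exact le_of_mul_le_mul_right h3 pj

/-- if `ω j i * Z(j,i) ≥ N / 4` for all `i ≠ j` (all pairs, base `∅`) then every level has a root
with `Z_W(i,j) ≤ 4 ω j i N_W`: `exists_root` with `t = pot univ w ∅`, and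
`ω j i ≥ N / (4 Z(j,i)) ≥ t j / (4 t i)` by `pot_le`. -/
theorem exists_root_omega {w : Finset (ι × Bool) → ℝ} (hw : ∀ S, 0 < w S) (hL : Lor w)
    (ω : ι → ι → ℝ) (hω : ∀ i j, i ≠ j → trs univ w ∅ ≤ 4 * (ω j i * Zc univ w ∅ j i))
    {J : Finset ι} (hJ : J.Nonempty) {W : Finset (ι × Bool)} (hW : Free J W) :
    ∃ i ∈ J, ∀ j ∈ J, j ≠ i → Zc J w W i j ≤ 4 * ω j i * trs J w W := by
  have hF : Free (univ : Finset ι) (∅ : Finset (ι × Bool)) := fun _ _ _ => notMem_empty _
  set t := pot univ w ∅ with ht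
  have htp : ∀ i, 0 < t i := fun i => pot_pos hw hF i
  obtain ⟨i, hi, h⟩ := exists_root hw hL hJ hW t htp
  refine ⟨i, hi, fun j hj hji => ?_⟩
  have h1 := h j hj hji
  have h2 := pot_le hw hL hF (mem_univ j) (mem_univ i) hji
  have h3 := hω i j hji.symm
  have hZ := Zc_pos hw hF j i
  have hN : 0 < trs J w W := trs_pos hW hw
  have h4 : t j ≤ 4 * ω j i * t i := by
    have h5 : Zc univ w ∅ j i * t j ≤ Zc univ w ∅ j i * (4 * ω j i * t i) := by
      calc Zc univ w ∅ j i * t j ≤ trs univ w ∅ * t i := h2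
        _ ≤ 4 * (ω j i * Zc univ w ∅ j i) * t i := mul_le_mul_of_nonneg_right h3 (htp i).le
        _ = _ := by ring
    exact le_of_mul_le_mul_left h5 hZ
  have h6 : Zc J w W i j * t i ≤ 4 * ω j i * trs J w W * t i := by
    calc Zc J w W i j * t i ≤ trs J w W * t j := h1
      _ ≤ trs J w W * (4 * ω j i * t i) := mul_le_mul_of_nonneg_left h4 hN.le
      _ = _ := by ring
  exact le_of_mul_le_mul_right h6 (htp i)

end Vale.Agent.P317R
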