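import Vale.Agent.P328R.Mix

/-!
# P317: decay of the Dirichlet form, class frequencies and the watched kernel (real valued)

Everything is for a lazy reversible kernel `P` on a finite type with stationary law `p`.
-/

namespace Vale.Agent.P317R

open Finset Vale.Agent.P328R

variable {Ω : Type*} [Fintype Ω] {p : Ω → ℝ} {P : Ω → Ω → ℝ}

/-- inner product -/
def ip (p f g : Ω → ℝ) : ℝ := ∑ x, p x * (f x * g x)

theorem ip_comm (f g : Ω → ℝ) : ip p f g = ip p g f :=
  sum_congr rfl fun x _ => by ring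

theorem ip_add_left (f f' g : Ω → ℝ) : ip p (f + f') g = ip p f g + ip p f' g := by
  unfold ip; rw [← sum_add_distrib]
  exact sum_congr rfl fun x _ => by simp only [Pi.add_apply]; ring

theorem ip_sub_left (f f' g : Ω → ℝ) : ip p (f - f') g = ip p f g - ip p f' g := by
  unfold ip; rw [← sum_sub_distrib]
  exact sum_congr rfl fun x _ => by simp only [Pi.sub_apply]; ring

theorem ip_sub_right (f g g' : Ω → ℝ) : ip p f (g - g') = ip p f g - ip p f g' := by
  rw [ip_comm, ip_sub_left, ip_comm g, ip_comm g']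

theorem ip_self_nonneg (h : LazyRev p P) (f : Ω → ℝ) : 0 ≤ ip p f f :=
  sum_nonneg fun x _ => mul_nonneg (h.p_nonneg x) (mul_self_nonneg _)

/-- `P` is self-adjoint -/
theorem ip_opP (h : LazyRev p P) (f g : Ω → ℝ) : ip p (opP P f) g = ip p f (opP P g) := by
  unfold ip opP
  have e1 : ∀ x, p x * ((∑ y, P x y * f y) * g x) = ∑ y, p x * P x y * (f y * g x) := fun x => by
    rw [sum_mul, mul_sum]; exact sum_congr rfl fun y _ => by ring
  have e2 : ∀ x, p x * (f x * ∑ y, P x y * g y) = ∑ y, p x * P x y * (f x * g y) := fun x => by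
    rw [mul_sum, mul_sum]; exact sum_congr rfl fun y _ => by ring
  simp only [e1, e2]
  rw [sum_comm]
  refine sum_congr rfl fun y _ => sum_congr rfl fun x _ => ?_
  rw [h.rev x y]

theorem opP_add (f g : Ω → ℝ) : opP P (f + g) = opP P f + opP P g := by
  funext x; unfold opP; simp only [Pi.add_apply]; rw [← sum_add_distrib]
  exact sum_congr rfl fun y _ => by ring

theorem opP_sub (f g : Ω → ℝ) : opP P (f - g) = opP P f - opP P g := by
  funext x; unfold opP; simp only [Pi.sub_apply]; rw [← sum_sub_distrib]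
  exact sum_congr rfl fun y _ => by ring

/-- `P` is positive semidefinite -/
theorem ip_opP_nonneg (h : LazyRev p P) (f : Ω → ℝ) : 0 ≤ ip p f (opP P f) := by
  refine le_trans ?_ (sq_opP_le h f)
  exact sum_nonneg fun x _ => mul_nonneg (h.p_nonneg x) (sq_nonneg _)

theorem Dir_ip (h : LazyRev p P) (g : Ω → ℝ) : Dir p P g = ip p g (g - opP P g) := by
  rw [Dir_eq h, ip_sub_right]
  unfold ip
  congr 1
  exact sum_congr rfl fun x _ => by ring

theorem Dir_nonneg (h : LazyRev p P) (g : Ω → ℝ) : 0 ≤ Dir p P g := by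
  unfold Dir
  refine mul_nonneg (by norm_num) (sum_nonneg fun x _ => sum_nonneg fun y _ => ?_)
  exact mul_nonneg (mul_nonneg (h.p_nonneg x) (h.nonneg x y)) (sq_nonneg _)

/-- the Dirichlet form decreases -/
theorem Dir_opP_le (h : LazyRev p P) (f : Ω → ℝ) : Dir p P (opP P f) ≤ Dir p P f := by
  rw [Dir_ip h, Dir_ip h]
  -- with `d = f - P f`: `<f,d> - <Pf, Pd> = <d, d> + <Pf, d - P d>` and `<Pf, d - Pd> = <d, P d>`
  set d := f - opP P f with hd
  have e1 : opP P f - opP P (opP P f) = opP P d := by rw [hd, opP_sub]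
  rw [e1]
  have h1 : ip p f d = ip p d d + ip p (opP P f) d := by
    have : f = d + opP P f := by rw [hd]; funext x; simp
    conv_lhs => rw [this]
    rw [ip_add_left]
  have h2 : ip p (opP P f) d = ip p d (opP P d) + ip p (opP P f) (opP P d) := by
    have e2 : ip p (opP P f) d = ip p f (opP P d) := ip_opP h f d
    rw [e2]
    have : f = d + opP P f := by rw [hd]; funext x; simp
    conv_lhs => rw [this]
    rw [ip_add_left]
  have h3 := ip_opP_nonneg h d
  have h4 := ip_self_nonneg h d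
  linarith

theorem Vr_nonneg' (h : LazyRev p P) (g : Ω → ℝ) : 0 ≤ Vr p g :=
  sum_nonneg fun x _ => mul_nonneg (h.p_nonneg x) (sq_nonneg _)

/-- **Decay of the Dirichlet form.** -/
theorem Dir_iter_le (h : LazyRev p P) (f : Ω → ℝ) (s : ℕ) :
    (s + 1) * Dir p P ((opP P)^[s] f) ≤ Vr p f := by
  have mono : ∀ r t, Dir p P ((opP P)^[r + t] f) ≤ Dir p P ((opP P)^[r] f) := by
    intro r t
    induction t with
    | zero => exact le_rfl
    | succ t ih =>
      rw [← add_assoc, Function.iterate_succ_apply']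
      exact (Dir_opP_le h _).trans ih
  have tel : ∀ t, ∑ r ∈ range t, Dir p P ((opP P)^[r] f) ≤ Vr p f - Vr p ((opP P)^[t] f) := by
    intro t
    induction t with
    | zero => simp
    | succ t ih =>
      rw [sum_range_succ, Function.iterate_succ_apply']
      have := Vr_opP_le h ((opP P)^[t] f)
      linarith
  have h1 : ∑ _r ∈ range (s + 1), Dir p P ((opP P)^[s] f) ≤
      ∑ r ∈ range (s + 1), Dir p P ((opP P)^[r] f) := by
    refine sum_le_sum fun r hr => ?_
    rw [mem_range] at hr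
    obtain ⟨t, rfl⟩ := Nat.exists_eq_add_of_le (Nat.lt_succ_iff.1 hr)
    exact mono r t
  rw [sum_const, card_range, nsmul_eq_mul] at h1
  have h2 := tel (s + 1)
  have h3 := Vr_nonneg' h ((opP P)^[s + 1] f)
  push_cast at h1
  linarith

theorem Vr_le_sq (h : LazyRev p P) (f : Ω → ℝ) : Vr p f ≤ ∑ x, p x * f x ^ 2 := by
  rw [Vr_eq h.p_sum]
  have := sq_nonneg (Ex p f)
  linarith

theorem Ex_iter' (h : LazyRev p P) (f : Ω → ℝ) (s : ℕ) : Ex p ((opP P)^[s] f) = Ex p f :=
  Ex_iter h f s

/-- **Class frequencies.** If `(∑_{x ∈ C} p x (g x - E g))² ≤ K Dir g` for all `g`, then for every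
function `f` the `C`-mass of `P^s f` is `p(C) E f` up to `√(K Var f / (s+1))`. -/
theorem class_freq (h : LazyRev p P) (C : Finset Ω) {K : ℝ} (hK : 0 ≤ K)
    (hC : ∀ g : Ω → ℝ, (∑ x ∈ C, p x * (g x - Ex p g)) ^ 2 ≤ K * Dir p P g) (f : Ω → ℝ) (s : ℕ) :
    |∑ x ∈ C, p x * (opP P)^[s] f x - (∑ x ∈ C, p x) * Ex p f| ≤
      Real.sqrt (K * Vr p f / (s + 1)) := by
  have h1 := hC ((opP P)^[s] f)
  have h2 := Dir_iter_le h f s
  have hs : (0 : ℝ) < s + 1 := by positivity
  have e : ∑ x ∈ C, p x * ((opP P)^[s] f x - Ex p ((opP P)^[s] f)) =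
      ∑ x ∈ C, p x * (opP P)^[s] f x - (∑ x ∈ C, p x) * Ex p f := by
    rw [Ex_iter h f s, sum_mul, ← sum_sub_distrib]
    exact sum_congr rfl fun x _ => by ring
  rw [e] at h1
  apply Real.abs_le_sqrt
  refine h1.trans ?_
  rw [mul_div_assoc]
  refine mul_le_mul_of_nonneg_left ?_ hK
  rw [le_div_iff₀ hs]
  linarith

end Vale.Agent.P317R
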