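import Vale.Agent.P317R.Steps

/-! # P317: the level sums -/

namespace Vale.Agent.P317R

open Vale.Agent.P328RAM
open Vale.Agent.P328R (TVle Sym EE bern lawOf)
open scoped ENNReal
open Finset

variable {n : ℕ} {I : Inst n} {p : Par} {k : ℕ} {t : Tb n}

/-- the base weight of a class at the level `k` -/
noncomputable def ZR (I : Inst n) (k : ℕ) (c : Option (Fin n × Fin n)) : ℝ :=
  ∑ B ∈ clS n c, qn n ^ (k * null I B)

/-- the weight of a class at the level `k` with the table `t` -/
noncomputable def ZT (I : Inst n) (k : ℕ) (t : Tb n) (c : Option (Fin n × Fin n)) : ℝ :=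
  (2 : ℝ) ^ exq t c * ZR I k c

/-- valid tables -/
def Valid (I : Inst n) (k : ℕ) (t : Tb n) : Prop :=
  ∀ ij : Fin n × Fin n, ij.1 ≠ ij.2 →
    ZR I k none ≤ 4 * ZT I k t (some ij) ∧ ZT I k t (some ij) ≤ 4 * ZR I k none

theorem ZT_none : ZT I k t none = ZR I k none := by
  unfold ZT
  simp [exq]

theorem ZR_nonneg (hn : 0 < n) (c : Option (Fin n × Fin n)) : 0 ≤ ZR I k c := by
  unfold ZR
  have := qn_pos hn
  positivity

theorem ZT_nonneg (hn : 0 < n) (c : Option (Fin n × Fin n)) : 0 ≤ ZT I k t c := by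
  unfold ZT
  have := ZR_nonneg (I := I) (k := k) hn c
  positivity

theorem ZR_none_pos (hn : 0 < n) : 0 < ZR I k none := by
  unfold ZR
  have h := qn_pos hn
  exact Finset.sum_pos (fun B _ => by positivity) (peS_nonempty n)

theorem clS_diag (i : Fin n) : clS n (some (i, i)) = ∅ := by
  ext B
  simp only [clS, mem_filter, mem_univ, true_and, Finset.notMem_empty, iff_false]
  intro h
  exact h.ne rfl

theorem ZR_diag (i : Fin n) : ZR I k (some (i, i)) = 0 := by
  unfold ZR
  rw [clS_diag]
  simp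

/-- the states are the disjoint union of the classes -/
theorem sum_stS {M : Type*} [AddCommMonoid M] (f : St n → M) :
    ∑ B ∈ stS n, f B = ∑ c : Option (Fin n × Fin n), ∑ B ∈ clS n c, f B := by
  classical
  rw [← Finset.sum_fiberwise (stS n) cl f]
  refine Finset.sum_congr rfl fun c _ => Finset.sum_congr ?_ fun _ _ => rfl
  ext B
  rw [mem_clS, mem_filter, mem_stS]

theorem sum_stS' (f : St n → ℝ) :
    ∑ B ∈ stS n, f B = ∑ B ∈ peS n, f B + ∑ ij : Fin n × Fin n, ∑ B ∈ clS n (some ij), f B := by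
  rw [sum_stS, Fintype.sum_option]
  rfl

theorem clS_subset (c : Option (Fin n × Fin n)) : clS n c ⊆ stS n := fun B hB =>
  mem_stS.2 (mem_clS.1 hB).1

theorem wR_of_cl {c : Option (Fin n × Fin n)} {B : St n} (h : B ∈ clS n c) :
    wR I k t B = (2 : ℝ) ^ exq t c * qn n ^ (k * null I B) := by
  unfold wR
  rw [(mem_clS.1 h).2, mul_comm]

theorem sum_wR_cl (c : Option (Fin n × Fin n)) : ∑ B ∈ clS n c, wR I k t B = ZT I k t c := by
  unfold ZT ZR
  rw [Finset.mul_sum]
  exact Finset.sum_congr rfl fun B hB => wR_of_cl hB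

theorem sum_Wt_cl (hI : I.Ok) (hn : 0 < n) (ht : TbOk p t) (c : Option (Fin n × Fin n)) :
    ((∑ B ∈ clS n c, Wt I p k t B : ℕ) : ℝ) = scW n p k * ZT I k t c := by
  rw [← sum_wR_cl]
  push_cast
  rw [Finset.mul_sum]
  exact Finset.sum_congr rfl fun B hB => Wt_eq hI hn ht k (mem_clS.1 hB).1

theorem Zp_eq (hI : I.Ok) (hn : 0 < n) (ht : TbOk p t) :
    (Zp I p k t : ℝ) = scW n p k * ZR I k none := by
  have := sum_Wt_cl (k := k) hI hn ht none
  rw [ZT_none] at this
  exact this

/-- the total weight divided by the scale -/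
noncomputable def ZA (I : Inst n) (k : ℕ) (t : Tb n) : ℝ := ∑ c, ZT I k t c

theorem Zs_eq (hI : I.Ok) (hn : 0 < n) (ht : TbOk p t) :
    (Zs I p k t : ℝ) = scW n p k * ZA I k t := by
  unfold Zs ZA
  rw [sum_stS, Finset.mul_sum]
  push_cast
  refine Finset.sum_congr rfl fun c _ => ?_
  have := sum_Wt_cl (k := k) hI hn ht c
  push_cast at this
  exact this

theorem ZA_pos (hn : 0 < n) : 0 < ZA I k t := by
  unfold ZA
  refine Finset.sum_pos' (fun c _ => ZT_nonneg hn c) ⟨none, Finset.mem_univ _, ?_⟩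
  rw [ZT_none]
  exact ZR_none_pos hn

/-- the mass of a class -/
theorem mass_piS (hI : I.Ok) (hn : 0 < n) (ht : TbOk p t) (c : Option (Fin n × Fin n)) :
    mass (piS I p k t) (clS n c) = ZT I k t c / ZA I k t := by
  unfold mass
  simp only [piS_apply_real hn]
  rw [← Finset.sum_div]
  have h1 := sum_Wt_cl (k := k) hI hn ht c
  push_cast at h1
  rw [h1, Zs_eq hI hn ht]
  exact mul_div_mul_left _ _ (scW_pos hn p k).ne'

theorem ZA_le (hn : 0 < n) (hv : Valid I k t) : ZA I k t ≤ 4 * n ^ 2 * ZR I k none := by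
  unfold ZA
  rw [Fintype.sum_option, ZT_none]
  have hN := ZR_none_pos (I := I) (k := k) hn
  have h1 : ∑ ij : Fin n × Fin n, ZT I k t (some ij) ≤
      ∑ ij : Fin n × Fin n, if ij.1 = ij.2 then 0 else 4 * ZR I k none := by
    refine Finset.sum_le_sum fun ij _ => ?_
    split_ifs with h
    · have : ij = (ij.1, ij.1) := Prod.ext rfl h.symm
      rw [this]
      unfold ZT
      rw [ZR_diag, mul_zero]
    · exact (hv ij h).2
  have h2 : ∑ ij : Fin n × Fin n, (if ij.1 = ij.2 then 0 else 4 * ZR I k none) =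
      (n ^ 2 - n) * (4 * ZR I k none) := by
    rw [Fintype.sum_prod_type]
    have : ∀ i : Fin n, ∑ j : Fin n, (if i = j then 0 else 4 * ZR I k none) =
        (n - 1) * (4 * ZR I k none) := by
      intro i
      have h3 : ∀ j : Fin n, (if i = j then 0 else 4 * ZR I k none) =
          4 * ZR I k none - if i = j then 4 * ZR I k none else 0 := by
        intro j
        split_ifs <;> ring
      simp only [h3]
      rw [Finset.sum_sub_distrib]
      simp
      ring
    simp only [this]
    rw [Finset.sum_const, Finset.card_univ, Fintype.card_fin, nsmul_eq_mul]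
    ring
  rw [h2] at h1
  have h4 : (1 : ℝ) ≤ n := by exact_mod_cast hn
  nlinarith

theorem ZT_le_ZA (hn : 0 < n) (c : Option (Fin n × Fin n)) : ZT I k t c ≤ ZA I k t :=
  Finset.single_le_sum (f := fun c => ZT I k t c) (fun c _ => ZT_nonneg hn c) (Finset.mem_univ c)

/-- the mass of the perfect states -/
theorem mass_perf_ge (hI : I.Ok) (hn : 0 < n) (ht : TbOk p t) (hv : Valid I k t) :
    1 / (4 * n ^ 2) ≤ mass (piS I p k t) (peS n) := by
  have h1 := mass_piS (k := k) hI hn ht none
  rw [ZT_none] at h1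
  have h2 : mass (piS I p k t) (peS n) = ZR I k none / ZA I k t := h1
  rw [h2]
  have h4 : (1 : ℝ) ≤ n := by exact_mod_cast hn
  rw [div_le_div_iff₀ (by positivity) (ZA_pos hn)]
  have := ZA_le hn hv
  linarith

theorem mass_cls_ge (hI : I.Ok) (hn : 0 < n) (ht : TbOk p t) (hv : Valid I k t)
    {ij : Fin n × Fin n} (hij : ij.1 ≠ ij.2) :
    1 / (16 * n ^ 2) ≤ mass (piS I p k t) (clS n (some ij)) := by
  rw [mass_piS hI hn ht]
  have h4 : (1 : ℝ) ≤ n := by exact_mod_cast hn
  rw [div_le_div_iff₀ (by positivity) (ZA_pos hn)]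
  have h1 := ZA_le hn hv
  have h2 := (hv ij hij).1
  nlinarith [sq_nonneg (n : ℝ)]

/-! ### drift -/

theorem qn_pow_n (hn : 0 < n) : 3 / 4 ≤ qn n ^ n := by
  have h1 : (-2 : ℝ) ≤ -(1 / (4 * n)) := by
    have : (1 : ℝ) ≤ n := by exact_mod_cast hn
    have : 1 / (4 * (n : ℝ)) ≤ 1 := by
      rw [div_le_one (by positivity)]
      linarith
    linarith
  have h2 := one_add_mul_le_pow h1 n
  have h3 : (n : ℝ) ≠ 0 := by exact_mod_cast hn.ne'
  have h4 : 1 + (n : ℝ) * -(1 / (4 * n)) = 3 / 4 := by
    field_simp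
    norm_num
  rw [h4] at h2
  rw [qn_eq hn]
  have h5 : 1 - 1 / (4 * (n : ℝ)) = 1 + -(1 / (4 * n)) := by ring
  rw [h5]
  exact h2

theorem qn_pow_le (hn : 0 < n) {m : ℕ} (hm : m ≤ n) : 3 / 4 ≤ qn n ^ m :=
  (qn_pow_n hn).trans (pow_le_pow_of_le_one (qn_pos hn).le (qn_le_one hn) hm)

theorem ZR_succ_le (hn : 0 < n) (c : Option (Fin n × Fin n)) : ZR I (k + 1) c ≤ ZR I k c := by
  unfold ZR
  refine Finset.sum_le_sum fun B _ => ?_
  exact pow_le_pow_of_le_one (qn_pos hn).le (qn_le_one hn)
    (Nat.mul_le_mul_right _ (Nat.le_succ k))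

theorem ZR_succ_ge (hI : I.Ok) (hn : 0 < n) (c : Option (Fin n × Fin n)) :
    3 / 4 * ZR I k c ≤ ZR I (k + 1) c := by
  unfold ZR
  rw [Finset.mul_sum]
  refine Finset.sum_le_sum fun B hB => ?_
  have h1 : null I B ≤ n := null_le hI (mem_clS.1 hB).1.card
  have h2 := qn_pow_le hn h1
  rw [Nat.succ_mul, pow_add, mul_comm]
  exact mul_le_mul_of_nonneg_left h2 (pow_nonneg (qn_pos hn).le _)

/-! ### warm starts -/

theorem piP_apply_real' (hI : I.Ok) (hn : 0 < n) (ht : TbOk p t) {B : St n} (hB : Perf B) :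
    (piP I p k t B).toReal = qn n ^ (k * null I B) / ZR I k none := by
  rw [piP_apply_real hn hB, Wt_eq hI hn ht k (Or.inl hB), Zp_eq hI hn ht, wR_perf I k t hB]
  exact mul_div_mul_left _ _ (scW_pos hn p k).ne'

/-- the law on the perfect states does not depend on the table -/
theorem piP_congr (hI : I.Ok) (hn : 0 < n) {t' : Tb n} (ht : TbOk p t) (ht' : TbOk p t') :
    piP I p k t = piP I p k t' := by
  ext B
  by_cases hB : Perf B
  · have h1 := piP_apply_real' (k := k) hI hn ht hB
    have h2 := piP_apply_real' (k := k) hI hn ht' hB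
    rw [← h2] at h1
    exact (ENNReal.toReal_eq_toReal_iff' (PMF.apply_ne_top _ _) (PMF.apply_ne_top _ _)).1 h1
  · rw [piP_apply_not hn hB, piP_apply_not hn hB]

theorem warm (hI : I.Ok) (hn : 0 < n) {t' : Tb n} (ht : TbOk p t) (ht' : TbOk p t') (B : St n) :
    (piP I p k t B).toReal ≤ 4 / 3 * (piP I p (k + 1) t' B).toReal := by
  by_cases hB : Perf B
  · rw [piP_apply_real' hI hn ht hB, piP_apply_real' hI hn ht' hB]
    have h1 : null I B ≤ n := null_le hI hB.card
    have h2 := qn_pow_le hn h1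
    have h3 := ZR_none_pos (I := I) (k := k) hn
    have h4 := ZR_none_pos (I := I) (k := k + 1) hn
    have h5 := ZR_succ_le (I := I) (k := k) hn none
    have h6 : 0 < qn n ^ (k * null I B) := pow_pos (qn_pos hn) _
    rw [← mul_div_assoc, div_le_div_iff₀ h3 h4]
    rw [Nat.succ_mul, pow_add]
    have h7 : 1 ≤ 4 / 3 * qn n ^ null I B := by linarith
    calc qn n ^ (k * null I B) * ZR I (k + 1) none
        ≤ qn n ^ (k * null I B) * ZR I k none := by gcongr
      _ = 1 * (qn n ^ (k * null I B) * ZR I k none) := by ring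
      _ ≤ 4 / 3 * qn n ^ null I B * (qn n ^ (k * null I B) * ZR I k none) := by gcongr
      _ = _ := by ring
  · rw [piP_apply_not hn hB, piP_apply_not hn hB]
    simp

/-! ### the level zero -/

/-- the perfect state of a choice function -/
def ofF (f : Fin n → Bool) : St n := Finset.univ.filter fun e : Fin n × Bool => e.2 = f e.1

theorem mem_ofF {f : Fin n → Bool} {e : Fin n × Bool} : e ∈ ofF f ↔ e.2 = f e.1 := by
  simp [ofF]

theorem ofF_inj : Function.Injective (ofF (n := n)) := by
  intro f g h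
  funext e
  have h1 : ((e, f e) : Fin n × Bool) ∈ ofF f := mem_ofF.2 rfl
  rw [h] at h1
  exact mem_ofF.1 h1

theorem perf_iff {B : St n} : Perf B ↔ ∃ f, ofF f = B := by
  constructor
  · intro h
    refine ⟨fun e => decide ((e, true) ∈ B), ?_⟩
    ext ⟨e, b⟩
    rw [mem_ofF]
    have h1 := h e
    unfold npair at h1
    by_cases h2 : (e, true) ∈ B <;> by_cases h3 : (e, false) ∈ B <;> cases b <;>
      simp_all
  · rintro ⟨f, rfl⟩
    exact perf_exists f

theorem peS_eq : peS n = univ.image (ofF (n := n)) := by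
  ext B
  rw [mem_peS, perf_iff]
  simp

theorem card_peS : (peS n).card = 2 ^ n := by
  rw [peS_eq, Finset.card_image_of_injective _ ofF_inj]
  simp

theorem ZR_zero_none : ZR I 0 none = 2 ^ n := by
  unfold ZR
  simp only [Nat.zero_mul, pow_zero, Finset.sum_const, nsmul_eq_mul, mul_one]
  have : clS n none = peS n := rfl
  rw [this, card_peS]
  push_cast
  rfl

theorem randT_eq : randT n = (PMF.uniformOfFintype (Fin n → Bool)).map ofF := rfl

/-- the uniform perfect state has the law of the level zero -/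
theorem randT_law (hI : I.Ok) (hn : 0 < n) (ht : TbOk p t) : randT n = piP I p 0 t := by
  classical
  ext B
  rw [randT_eq, PMF.map_apply]
  by_cases hB : Perf B
  · obtain ⟨f, rfl⟩ := perf_iff.1 hB
    rw [tsum_eq_single f]
    · rw [if_pos rfl]
      have h1 := piP_apply_real' (k := 0) hI hn ht hB
      rw [ZR_zero_none, Nat.zero_mul, pow_zero] at h1
      have h2 : (PMF.uniformOfFintype (Fin n → Bool) f).toReal = 1 / 2 ^ n := by
        rw [PMF.uniformOfFintype_apply]
        simp
      rw [← h2] at h1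
      exact ((ENNReal.toReal_eq_toReal_iff' (PMF.apply_ne_top _ _) (PMF.apply_ne_top _ _)).1 h1).symm
    · intro g hg
      rw [if_neg]
      intro h
      exact hg (ofF_inj h.symm)
  · rw [piP_apply_not hn hB, ENNReal.tsum_eq_zero]
    intro f
    rw [if_neg]
    intro h
    exact hB (perf_iff.2 ⟨f, h.symm⟩)

/-- the state of the class `(i, j)` of a choice function -/
def ofC (ij : Fin n × Fin n) (f : Fin n → Bool) : St n :=
  Finset.univ.filter fun e : Fin n × Bool => e.1 = ij.1 ∨ (e.1 ≠ ij.2 ∧ e.2 = f e.1)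

theorem mem_ofC {ij : Fin n × Fin n} {f : Fin n → Bool} {e : Fin n × Bool} :
    e ∈ ofC ij f ↔ e.1 = ij.1 ∨ (e.1 ≠ ij.2 ∧ e.2 = f e.1) := by
  simp [ofC]

/-- the normal choice functions of the class `(i, j)` -/
def nf (ij : Fin n × Fin n) : Finset (Fin n → Bool) :=
  Fintype.piFinset fun e => if e = ij.1 ∨ e = ij.2 then {false} else univ

theorem mem_nf {ij : Fin n × Fin n} {f : Fin n → Bool} :
    f ∈ nf ij ↔ f ij.1 = false ∧ f ij.2 = false := by
  unfold nf
  rw [Fintype.mem_piFinset]
  constructor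
  · intro h
    have h1 := h ij.1
    have h2 := h ij.2
    simp at h1 h2
    exact ⟨h1, h2⟩
  · rintro ⟨h1, h2⟩ e
    split_ifs with h
    · rcases h with rfl | rfl
      · simpa using h1
      · simpa using h2
    · simp

theorem clS_eq {ij : Fin n × Fin n} (hij : ij.1 ≠ ij.2) :
    clS n (some ij) = (nf ij).image (ofC ij) := by
  ext B
  simp only [clS, mem_filter, mem_univ, true_and, mem_image]
  constructor
  · intro h
    refine ⟨fun e => if e = ij.1 ∨ e = ij.2 then false else decide ((e, true) ∈ B), ?_, ?_⟩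
    · rw [mem_nf]
      simp
    · ext ⟨e, b⟩
      rw [mem_ofC]
      by_cases h1 : e = ij.1
      · have h2 := h.1
        rw [← h1] at h2
        unfold npair at h2
        have h3 : (e, false) ∈ B ∧ (e, true) ∈ B := by
          by_cases h4 : (e, false) ∈ B <;> by_cases h5 : (e, true) ∈ B <;> simp_all
        simp only [h1, true_or, true_iff]
        rw [h1] at h3
        cases b
        · exact h3.1
        · exact h3.2
      · by_cases h2 : e = ij.2
        · have h3 := h.2.1
          rw [← h2] at h3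
          unfold npair at h3
          have h4 : (e, false) ∉ B ∧ (e, true) ∉ B := by
            by_cases h4 : (e, false) ∈ B <;> by_cases h5 : (e, true) ∈ B <;> simp_all
          simp only [h2, ne_eq, not_true_eq_false, false_and]
          have h5 : ij.2 ≠ ij.1 := fun e => hij e.symm
          simp only [h5, false_or, false_iff]
          rw [h2] at h4
          cases b
          · exact h4.1
          · exact h4.2
        · have h3 := h.2.2 e h1 h2
          unfold npair at h3
          simp only [h1, h2, false_or, ne_eq, not_false_eq_true, true_and, if_false]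
          by_cases h4 : (e, true) ∈ B <;> by_cases h5 : (e, false) ∈ B <;> cases b <;>
            simp_all
  · rintro ⟨f, _, rfl⟩
    refine ⟨?_, ?_, ?_⟩
    · unfold npair
      simp [mem_ofC]
    · unfold npair
      have h5 : ij.2 ≠ ij.1 := fun e => hij e.symm
      simp [mem_ofC, h5]
    · intro e h1 h2
      unfold npair
      simp only [mem_ofC, h1, h2, false_or, ne_eq, not_false_eq_true, true_and]
      cases f e <;> simp

theorem ofC_inj {ij : Fin n × Fin n} (hij : ij.1 ≠ ij.2) : Set.InjOn (ofC ij) (nf ij : Set _) := by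
  intro f hf g hg h
  have hf' := mem_nf.1 (Finset.mem_coe.1 hf)
  have hg' := mem_nf.1 (Finset.mem_coe.1 hg)
  funext e
  by_cases h1 : e = ij.1
  · rw [h1, hf'.1, hg'.1]
  · by_cases h2 : e = ij.2
    · rw [h2, hf'.2, hg'.2]
    · have h3 : ((e, f e) : Fin n × Bool) ∈ ofC ij f := mem_ofC.2 (Or.inr ⟨h2, rfl⟩)
      rw [h] at h3
      rcases mem_ofC.1 h3 with h4 | h4
      · exact absurd h4 h1
      · exact h4.2

theorem card_nf {ij : Fin n × Fin n} (hij : ij.1 ≠ ij.2) : 4 * (nf ij).card = 2 ^ n := by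
  unfold nf
  rw [Fintype.card_piFinset]
  have h1 : ∀ e : Fin n, (if e = ij.1 ∨ e = ij.2 then ({false} : Finset Bool) else univ).card =
      if e = ij.1 ∨ e = ij.2 then 1 else 2 := by
    intro e
    split_ifs <;> simp
  simp only [h1]
  rw [← Finset.mul_prod_erase univ _ (Finset.mem_univ ij.1),
    ← Finset.mul_prod_erase (univ.erase ij.1) _ (Finset.mem_erase.2 ⟨hij.symm, Finset.mem_univ ij.2⟩)]
  rw [if_pos (Or.inl rfl), if_pos (Or.inr rfl)]
  have h2 : ∏ x ∈ (univ.erase ij.1).erase ij.2, (if x = ij.1 ∨ x = ij.2 then 1 else 2) =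
      2 ^ ((univ.erase ij.1).erase ij.2).card := by
    rw [← Finset.prod_const]
    refine Finset.prod_congr rfl fun x hx => ?_
    rw [if_neg]
    rintro (h | h)
    · exact (Finset.mem_erase.1 (Finset.mem_erase.1 hx).2).1 h
    · exact (Finset.mem_erase.1 hx).1 h
  rw [h2, Finset.card_erase_of_mem (Finset.mem_erase.2 ⟨hij.symm, Finset.mem_univ ij.2⟩),
    Finset.card_erase_of_mem (Finset.mem_univ ij.1), Finset.card_univ, Fintype.card_fin]
  have h3 : 2 ≤ n := by
    have h4 := ij.1.2
    have h5 := ij.2.2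
    have h6 : (ij.1 : ℕ) ≠ ij.2 := fun e => hij (Fin.ext e)
    omega
  have h7 : n = (n - 1 - 1) + 2 := by omega
  conv_rhs => rw [h7]
  rw [pow_add]
  ring

theorem ZR_zero_some {ij : Fin n × Fin n} (hij : ij.1 ≠ ij.2) :
    4 * ZR I 0 (some ij) = 2 ^ n := by
  unfold ZR
  simp only [Nat.zero_mul, pow_zero, Finset.sum_const, nsmul_eq_mul, mul_one]
  rw [clS_eq hij, Finset.card_image_of_injOn (ofC_inj hij)]
  exact_mod_cast card_nf hij

theorem valid_zero : Valid I 0 (fun _ : Fin n × Fin n => (2 : ℤ)) := by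
  intro ij hij
  have h1 := ZR_zero_some (I := I) hij
  have h2 := ZR_zero_none (I := I)
  have h3 : ZT I 0 (fun _ : Fin n × Fin n => (2 : ℤ)) (some ij) = 4 * ZR I 0 (some ij) := by
    unfold ZT
    simp only [exq, Option.elim_some]
    norm_num
  rw [h3, h1, h2]
  have h4 : (0 : ℝ) < 2 ^ n := by positivity
  constructor <;> linarith

/-! ### the last level -/

theorem A2_eq_A1 {B : St n} (h : Perf B) : A2 B = A1 B := by
  ext e
  simp only [A1, A2, mem_filter, mem_univ, true_and]
  have h1 := h e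
  unfold npair at h1
  by_cases h2 : (e, false) ∈ B <;> by_cases h3 : (e, true) ∈ B <;> simp_all

/-- the common bases -/
def cbs (I : Inst n) : Finset (Finset (Fin n)) :=
  univ.filter fun A => (A.card = I.r ∧ I.rk1 A = I.r) ∧ I.rk2 A = I.r

theorem null_eq_zero {B : St n} (hI : I.Ok) (h : Perf B) : null I B = 0 ↔ A1 B ∈ cbs I := by
  unfold null cbs
  rw [A2_eq_A1 h]
  simp only [mem_filter, mem_univ, true_and]
  have h1 := hI.h1.le_card (A1 B)
  have h2 := hI.h2.le_card (A1 B)
  have h3 := hI.h1.mono (A1 B) univ (Finset.subset_univ _)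
  have h4 := hI.h2.mono (A1 B) univ (Finset.subset_univ _)
  rw [hI.t1] at h3
  rw [hI.t2] at h4
  omega

theorem A1_ofF (f : Fin n → Bool) : A1 (ofF f) = univ.filter fun e => f e = false := by
  ext e
  simp only [A1, mem_filter, mem_univ, true_and, mem_ofF]
  exact eq_comm

/-- the number of perfect states of nullity zero -/
theorem card_null_zero (hI : I.Ok) :
    ((peS n).filter fun B => null I B = 0).card = (cbs I).card := by
  refine Finset.card_bij (fun B _ => A1 B) ?_ ?_ ?_
  · intro B hB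
    rw [mem_filter, mem_peS] at hB
    exact (null_eq_zero hI hB.1).1 hB.2
  · intro B hB B' hB' h
    rw [mem_filter, mem_peS] at hB hB'
    obtain ⟨f, rfl⟩ := perf_iff.1 hB.1
    obtain ⟨g, rfl⟩ := perf_iff.1 hB'.1
    simp only [A1_ofF] at h
    congr 1
    funext e
    have h1 := congrArg (fun s => e ∈ s) h
    simp only [mem_filter, mem_univ, true_and, eq_iff_iff] at h1
    cases h2 : f e <;> cases h3 : g e <;> simp_all
  · intro A hA
    have h1 : A1 (ofF fun e => decide (e ∉ A)) = A := by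
      rw [A1_ofF]
      ext e
      simp
    have h2 : Perf (ofF fun e => decide (e ∉ A)) := perf_iff.2 ⟨_, rfl⟩
    refine ⟨ofF fun e => decide (e ∉ A), ?_, h1⟩
    rw [mem_filter, mem_peS]
    refine ⟨h2, ?_⟩
    rw [null_eq_zero hI h2, h1]
    exact hA

theorem cbs_le_ZR (hI : I.Ok) (hn : 0 < n) : ((cbs I).card : ℝ) ≤ ZR I k none := by
  rw [← card_null_zero hI]
  unfold ZR
  rw [Finset.cast_card]
  have hsub : (peS n).filter (fun B => null I B = 0) ⊆ clS n none := Finset.filter_subset _ _
  refine le_trans ?_ (Finset.sum_le_sum_of_subset_of_nonneg hsub fun B _ _ =>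
    pow_nonneg (qn_pos hn).le _)
  refine Finset.sum_le_sum fun B hB => ?_
  rw [(mem_filter.1 hB).2]
  simp

theorem ZR_le_cbs (hI : I.Ok) (hn : 0 < n) :
    ZR I k none ≤ (cbs I).card + 2 ^ n * qn n ^ k := by
  rw [← card_null_zero hI]
  unfold ZR
  have h0 : clS n none = peS n := rfl
  rw [h0]
  have h1 : ∀ B ∈ peS n, qn n ^ (k * null I B) ≤ (if null I B = 0 then 1 else 0) + qn n ^ k := by
    intro B _
    have h2 : 0 ≤ qn n ^ k := pow_nonneg (qn_pos hn).le _
    split_ifs with h
    · rw [h, Nat.mul_zero, pow_zero]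
      linarith
    · rw [zero_add]
      refine pow_le_pow_of_le_one (qn_pos hn).le (qn_le_one hn) ?_
      exact Nat.le_mul_of_pos_right k (Nat.pos_of_ne_zero h)
  refine (Finset.sum_le_sum h1).trans ?_
  rw [Finset.sum_add_distrib, Finset.sum_const, card_peS, nsmul_eq_mul, Finset.card_filter]
  push_cast
  exact le_refl _

end Vale.Agent.P317R
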