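import Vale.Agent.P328R.Fpras

/-!
# P317: passes with randomised tests

Abstract form of the final estimation: a pass starts with a random state, makes `T` steps of the
kernel `κ' l` at every level `l ≥ 1`, and at every level `l` a coin depending on the state is
thrown and counted.
-/

namespace Vale.Agent.P317R

open scoped ENNReal
open Vale.Agent.P328RAM (iterBind seqBind seqBind_succ')
open Vale.Agent.P328R

variable {σ : Type}

section pass

variable (κ' : ℕ → σ → PMF σ) (T : ℕ) (hp : σ → PMF Bool) (μ0 : PMF σ)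

/-- the level `l` of a pass -/
noncomputable def phF (l : ℕ) (x : σ × (ℕ → ℕ)) : PMF (σ × (ℕ → ℕ)) :=
  (if l = 0 then PMF.pure x.1 else iterBind (κ' l) T x.1).bind fun y =>
    (hp y).map fun b => (y, if b then Function.update x.2 l (x.2 l + 1) else x.2)

/-- the law of the state after the levels `1, …, l` -/
noncomputable def psL : ℕ → PMF σ
  | 0 => μ0
  | l + 1 => (psL l).bind (iterBind (κ' (l + 1)) T)

/-- the same as a sequence of kernels -/
theorem psL_eq (l : ℕ) :
    psL κ' T μ0 l = μ0.bind (seqBind (fun k => iterBind (κ' (k + 1)) T) l) := by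
  induction l with
  | zero =>
    have : (seqBind (fun k => iterBind (κ' (k + 1)) T) 0 : σ → PMF σ) = PMF.pure := by
      funext x; rfl
    rw [this, PMF.bind_pure]
    rfl
  | succ l ih =>
    show (psL κ' T μ0 l).bind _ = _
    rw [ih, PMF.bind_bind]
    rfl

theorem phF_fst_zero (x : σ × (ℕ → ℕ)) : (phF κ' T hp 0 x).map Prod.fst = PMF.pure x.1 := by
  unfold phF
  rw [if_pos rfl, PMF.pure_bind, PMF.map_comp]
  exact PMF.map_const _ _

theorem phF_fst_succ (l : ℕ) (x : σ × (ℕ → ℕ)) :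
    (phF κ' T hp (l + 1) x).map Prod.fst = iterBind (κ' (l + 1)) T x.1 := by
  unfold phF
  rw [if_neg (Nat.succ_ne_zero l), PMF.map_bind]
  have : (fun y => ((hp y).map fun b => (y, if b then
      Function.update x.2 (l + 1) (x.2 (l + 1) + 1) else x.2)).map Prod.fst) = PMF.pure := by
    funext y
    rw [PMF.map_comp]
    exact PMF.map_const _ _
  rw [this, PMF.bind_pure]

/-- the law of the state after the levels `0, …, l` of a pass -/
theorem pass_fst (h : ℕ → ℕ) (l : ℕ) :
    (μ0.bind fun B => seqBind (phF κ' T hp) (l + 1) (B, h)).map Prod.fst = psL κ' T μ0 l := by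
  induction l with
  | zero =>
    rw [PMF.map_bind]
    have : (fun B => (seqBind (phF κ' T hp) (0 + 1) (B, h)).map Prod.fst) = PMF.pure := by
      funext B
      simp only [seqBind, PMF.pure_bind]
      exact phF_fst_zero κ' T hp (B, h)
    rw [this, PMF.bind_pure]
    rfl
  | succ l ih =>
    show _ = (psL κ' T μ0 l).bind _
    rw [← ih, PMF.bind_map]
    have e : (μ0.bind fun B => seqBind (phF κ' T hp) (l + 1 + 1) (B, h)) =
        (μ0.bind fun B => seqBind (phF κ' T hp) (l + 1) (B, h)).bind (phF κ' T hp (l + 1)) := by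
      rw [PMF.bind_bind]
      rfl
    rw [e, PMF.map_bind]
    congr 1
    funext x
    exact phF_fst_succ κ' T hp l x

/-- the counters of a pass -/
theorem pass_counter (h : ℕ → ℕ) (x0 : σ) (k l : ℕ) :
    ∀ s ∈ (seqBind (phF κ' T hp) l (x0, h)).support,
      (l ≤ k → s.2 k = h k) ∧ (s.2 k = h k ∨ s.2 k = h k + 1) := by
  induction l with
  | zero =>
    intro s hs
    simp only [seqBind, PMF.mem_support_pure_iff] at hs
    subst hs
    exact ⟨fun _ => rfl, Or.inl rfl⟩
  | succ l ih =>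
    intro s hs
    simp only [seqBind, PMF.mem_support_bind_iff] at hs
    obtain ⟨s1, h1, h2⟩ := hs
    obtain ⟨i1, i2⟩ := ih s1 h1
    unfold phF at h2
    rw [PMF.mem_support_bind_iff] at h2
    obtain ⟨y, _, h2⟩ := h2
    rw [PMF.mem_support_map_iff] at h2
    obtain ⟨b, _, rfl⟩ := h2
    constructor
    · intro hk'
      have h3 : k ≠ l := by omega
      show (if b = true then Function.update s1.2 l (s1.2 l + 1) else s1.2) k = h k
      split_ifs
      · rw [Function.update_of_ne h3]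
        exact i1 (by omega)
      · exact i1 (by omega)
    · show (if b = true then Function.update s1.2 l (s1.2 l + 1) else s1.2) k = h k ∨
        (if b = true then Function.update s1.2 l (s1.2 l + 1) else s1.2) k = h k + 1
      by_cases hkl : k = l
      · subst hkl
        have h4 := i1 le_rfl
        split_ifs
        · right; simp [h4]
        · left; exact h4
      · split_ifs
        · rw [Function.update_of_ne hkl]
          exact i2
        · exact i2

/-- the probability that the counter `k` increases -/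
theorem pass_prob (h : ℕ → ℕ) (k l : ℕ) (hk : k < l) :
    (μ0.bind fun B => seqBind (phF κ' T hp) l (B, h)).toOuterMeasure {s | s.2 k = h k + 1} =
      EE (psL κ' T μ0 k) fun y => hp y true := by
  classical
  induction l with
  | zero => omega
  | succ l ih =>
    have e : (μ0.bind fun B => seqBind (phF κ' T hp) (l + 1) (B, h)) =
        (μ0.bind fun B => seqBind (phF κ' T hp) l (B, h)).bind (phF κ' T hp l) := by
      rw [PMF.bind_bind]
      rfl
    have hcoin : ∀ (y : σ), EE (hp y) (fun b => if b then (1 : ℝ≥0∞) else 0) = hp y true := by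
      intro y
      unfold EE
      rw [tsum_fintype, Fintype.sum_bool]
      simp
    rcases Nat.lt_succ_iff_lt_or_eq.1 hk with h1 | h1
    · rw [← ih h1, e, ← EE_indicator, ← EE_indicator, EE_bind]
      refine congrArg _ (funext fun s => ?_)
      unfold phF
      rw [EE_bind]
      have h3 : k ≠ l := by omega
      have : ∀ y, EE ((hp y).map fun b => (y, if b = true then
          Function.update s.2 l (s.2 l + 1) else s.2))
          (({s : σ × (ℕ → ℕ) | s.2 k = h k + 1} : Set _).indicator fun _ => (1 : ℝ≥0∞)) =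
          ({s : σ × (ℕ → ℕ) | s.2 k = h k + 1} : Set _).indicator (fun _ => (1 : ℝ≥0∞)) s := by
        intro y
        rw [EE_map]
        have : (fun b : Bool => ({s : σ × (ℕ → ℕ) | s.2 k = h k + 1} : Set _).indicator
            (fun _ => (1 : ℝ≥0∞)) (y, if b = true then
              Function.update s.2 l (s.2 l + 1) else s.2)) =
            fun _ => ({s : σ × (ℕ → ℕ) | s.2 k = h k + 1} : Set _).indicator
              (fun _ => (1 : ℝ≥0∞)) s := by
          funext b
          split_ifs <;> simp [Set.indicator, Function.update_of_ne h3]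
        rw [this, EE_const]
      simp only [this]
      rw [EE_const]
    · subst h1
      rw [e, ← EE_indicator, EE_bind]
      -- the value of the counter before the level `k`
      have hbefore : ∀ s ∈ (μ0.bind fun B => seqBind (phF κ' T hp) k (B, h)).support,
          s.2 k = h k := by
        intro s hs
        rw [PMF.mem_support_bind_iff] at hs
        obtain ⟨B, _, hs⟩ := hs
        exact (pass_counter κ' T hp h B k k s hs).1 le_rfl
      have e2 : EE (μ0.bind fun B => seqBind (phF κ' T hp) k (B, h))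
          (fun s => EE (phF κ' T hp k s)
            (({s : σ × (ℕ → ℕ) | s.2 k = h k + 1} : Set _).indicator fun _ => (1 : ℝ≥0∞))) =
          EE (μ0.bind fun B => seqBind (phF κ' T hp) k (B, h))
          (fun s => EE ((phF κ' T hp k s).map Prod.fst) fun y => hp y true) := by
        refine EE_congr fun s hs => ?_
        have h4 := hbefore s hs
        rw [EE_map]
        unfold phF
        rw [EE_bind, EE_bind]
        refine congrArg _ (funext fun y => ?_)
        rw [EE_map, EE_map]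
        have e3 : (fun b : Bool => ({s : σ × (ℕ → ℕ) | s.2 k = h k + 1} : Set _).indicator
            (fun _ => (1 : ℝ≥0∞)) (y, if b = true then
              Function.update s.2 k (s.2 k + 1) else s.2)) =
            fun b => if b then (1 : ℝ≥0∞) else 0 := by
          funext b
          cases b <;> simp [Set.indicator, h4]
        rw [e3, hcoin y]
        exact (EE_const (hp y) (hp y true)).symm
      rw [e2]
      have e4 := pass_fst κ' T hp μ0 h k
      have e5 : (μ0.bind fun B => seqBind (phF κ' T hp) (k + 1) (B, h)) =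
          (μ0.bind fun B => seqBind (phF κ' T hp) k (B, h)).bind (phF κ' T hp k) := by
        rw [PMF.bind_bind]
        rfl
      rw [e5, PMF.map_bind] at e4
      rw [← e4]
      exact (EE_bind _ _ _).symm

end pass

/-- **The law of the state in a pass.** -/
theorem psL_close {L T : ℕ} {F : Finset σ} {u : ℕ → PMF σ} {κ κ' : ℕ → σ → PMF σ} {A ε' : ℝ}
    (hgood : ∀ l, 1 ≤ l → l < L → GoodChain F (u l) (κ l) A ε') {ζ : ℝ} (hζ : 0 ≤ ζ)
    (hcl : ∀ l, 1 ≤ l → l < L → ∀ x ∈ F, ∀ y ∈ (κ' l x).support, y ∈ F)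
    (hpert : ∀ l, 1 ≤ l → l < L → ∀ x ∈ F, TVle (κ' l x) (κ l x) (ENNReal.ofReal ζ))
    (hsupp : ∀ l < L, ∀ x ∈ (u l).support, x ∈ F) {M η : ℝ} (hM1 : 1 ≤ M) (hη : 0 < η)
    (hε' : ε' * M ^ 2 ≤ η ^ 2)
    (hM : ∀ l, l + 1 < L → ∀ y, (u l y).toReal ≤ M * (u (l + 1) y).toReal)
    (ht : 2 * A * Real.log (M / η) ≤ T) (l : ℕ) (hl : l < L) :
    TVle (psL κ' T (u 0) l) (u l) (ENNReal.ofReal (l * (η + T * ζ))) := by
  have han := anneal_soft (L := L - 1) (S := fun _ => F) (u := u) (π := u) (κ := κ) (κ' := κ')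
    (A := A) (ε := ε') (fun l hl => hgood (l + 1) (by omega) (by omega))
    (η0 := 0) (ζ := ENNReal.ofReal ζ) (fun l _ => TVle.refl _ _)
    (fun l hl => hcl (l + 1) (by omega) (by omega))
    (fun l hl => hpert (l + 1) (by omega) (by omega)) (fun _ => id)
    (fun l hl x hx => hsupp l (by omega) x hx) hM1 hη hε'
    (fun l hl y => by rw [PMF.map_id]; exact hM l (by omega) y) T ht
    (psL κ' T (u 0)) (δ := 0) (TVle.refl _ _)
    (fun l _ => by rw [PMF.map_id]; rfl) l (by omega)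
  refine han.mono (le_of_eq ?_)
  rw [zero_add, zero_add, ENNReal.ofReal_mul (Nat.cast_nonneg l), ENNReal.ofReal_natCast,
    ENNReal.ofReal_add hη.le (by positivity), ENNReal.ofReal_mul (Nat.cast_nonneg T),
    ENNReal.ofReal_natCast]

/-- expectation of a test under a law close to `u` -/
theorem test_close {μ u : PMF σ} {F : Finset σ} {δ ζ' r : ℝ} (hδ : 0 ≤ δ)
    (h : TVle μ u (ENNReal.ofReal δ)) (hu : ∀ x, x ∉ F → u x = 0) {hp : σ → PMF Bool}
    {a : σ → ℝ} (ha : ∀ x ∈ F, |(hp x true).toReal - a x| ≤ ζ')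
    (hr : ∑ x ∈ F, (u x).toReal * a x = r) :
    |(EE μ fun y => hp y true).toReal - r| ≤ δ + ζ' := by
  have hle : ∀ y, hp y true ≤ 1 := fun y => PMF.coe_le_one _ _
  have n1 : EE μ (fun y => hp y true) ≠ ∞ := ne_top_of_le_ne_top ENNReal.one_ne_top (EE_le_one hle)
  have n2 : EE u (fun y => hp y true) ≠ ∞ := ne_top_of_le_ne_top ENNReal.one_ne_top (EE_le_one hle)
  have b1 : (EE μ fun y => hp y true).toReal ≤ (EE u fun y => hp y true).toReal + δ := by
    have := ENNReal.toReal_mono (ENNReal.add_ne_top.2 ⟨n2, ENNReal.ofReal_ne_top⟩) (h _ hle)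
    rwa [ENNReal.toReal_add n2 ENNReal.ofReal_ne_top, ENNReal.toReal_ofReal hδ] at this
  have b2 : (EE u fun y => hp y true).toReal ≤ (EE μ fun y => hp y true).toReal + δ := by
    have := ENNReal.toReal_mono (ENNReal.add_ne_top.2 ⟨n1, ENNReal.ofReal_ne_top⟩) (h.symm _ hle)
    rwa [ENNReal.toReal_add n1 ENNReal.ofReal_ne_top, ENNReal.toReal_ofReal hδ] at this
  have e : (EE u fun y => hp y true).toReal = ∑ x ∈ F, (u x).toReal * (hp x true).toReal := by
    unfold EE
    rw [tsum_eq_sum (s := F) (fun x hx => by rw [hu x hx, zero_mul]),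
      ENNReal.toReal_sum (fun x _ => ENNReal.mul_ne_top (u.apply_ne_top x)
        ((hp x).apply_ne_top true))]
    exact Finset.sum_congr rfl fun x _ => ENNReal.toReal_mul
  have hs : ∑ x ∈ F, (u x).toReal = 1 := by
    rw [← vec_sum hu]
    exact (Finset.sum_coe_sort F fun x => (u x).toReal).symm
  have b3 : |(EE u fun y => hp y true).toReal - r| ≤ ζ' := by
    rw [e, ← hr, ← Finset.sum_sub_distrib]
    calc |∑ x ∈ F, ((u x).toReal * (hp x true).toReal - (u x).toReal * a x)|
        ≤ ∑ x ∈ F, |(u x).toReal * (hp x true).toReal - (u x).toReal * a x| :=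
          Finset.abs_sum_le_sum_abs _ _
      _ ≤ ∑ x ∈ F, (u x).toReal * ζ' := Finset.sum_le_sum fun x hx => by
          rw [← mul_sub, abs_mul, abs_of_nonneg ENNReal.toReal_nonneg]
          exact mul_le_mul_of_nonneg_left (ha x hx) ENNReal.toReal_nonneg
      _ = ζ' := by rw [← Finset.sum_mul, hs, one_mul]
  rw [abs_le] at b3 ⊢
  constructor <;> linarith [b3.1, b3.2]

/-- **The estimator.** -/
theorem est_main {L T : ℕ} {F : Finset σ} {u : ℕ → PMF σ} {κ κ' : ℕ → σ → PMF σ} {A ε' : ℝ}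
    (hgood : ∀ l, 1 ≤ l → l < L → GoodChain F (u l) (κ l) A ε') {ζ : ℝ} (hζ : 0 ≤ ζ)
    (hcl : ∀ l, 1 ≤ l → l < L → ∀ x ∈ F, ∀ y ∈ (κ' l x).support, y ∈ F)
    (hpert : ∀ l, 1 ≤ l → l < L → ∀ x ∈ F, TVle (κ' l x) (κ l x) (ENNReal.ofReal ζ))
    (hsupp : ∀ l < L, ∀ x, x ∉ F → u l x = 0) {M η : ℝ} (hM1 : 1 ≤ M) (hη : 0 < η)
    (hε' : ε' * M ^ 2 ≤ η ^ 2)
    (hM : ∀ l, l + 1 < L → ∀ y, (u l y).toReal ≤ M * (u (l + 1) y).toReal)
    (ht : 2 * A * Real.log (M / η) ≤ T)
    {hp : σ → PMF Bool} {a : σ → ℝ} {ζ' : ℝ} (hζ' : 0 ≤ ζ')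
    (ha : ∀ x ∈ F, |(hp x true).toReal - a x| ≤ ζ')
    {Z : ℕ → ℝ} (hZ : ∀ l ≤ L, 0 < Z l)
    (hr : ∀ l < L, ∑ x ∈ F, (u l x).toReal * a x = Z (l + 1) / Z l)
    {β τ ε δ : ℝ} (hβ0 : 0 < β) (hβ1 : β ≤ 1) (hβ : ∀ l < L, β ≤ Z (l + 1) / Z l)
    (hε0 : 0 ≤ ε) (hε1 : ε ≤ 1) (hτ0 : 0 ≤ τ) (hτ2 : τ ≤ 2)
    (hτ : 16 * L * (L * (η + T * ζ) + ζ' + τ) ≤ ε * β) {S : ℕ} (hS : 0 < S)
    (hδ : 2 * L * Real.exp (-(S * τ ^ 2 / 4)) ≤ δ) :
    (iterBind (fun h => ((u 0).bind fun B => seqBind (phF κ' T hp) L (B, h)).map Prod.snd) S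
      (fun _ => 0)).toOuterMeasure
      {h | ¬ ((1 - ε) * Z L ≤ Z 0 * (∏ l ∈ Finset.range L, (h l : ℝ)) / (S : ℝ) ^ L ∧
        Z 0 * (∏ l ∈ Finset.range L, (h l : ℝ)) / (S : ℝ) ^ L ≤ (1 + ε) * Z L)} ≤
      ENNReal.ofReal δ := by
  classical
  have hz : (0 : ℝ) ≤ η + T * ζ := by positivity
  set K : (ℕ → ℕ) → PMF (ℕ → ℕ) :=
    fun h => ((u 0).bind fun B => seqBind (phF κ' T hp) L (B, h)).map Prod.snd with hK
  have hS' : (0 : ℝ) < S := by exact_mod_cast hS
  have hc1 : ∀ l < L, ∀ c : ℕ → ℕ, True → ∀ c' ∈ (K c).support,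
      ((c' l : ℕ) : ℝ) = (c l : ℝ) ∨ ((c' l : ℕ) : ℝ) = (c l : ℝ) + 1 := by
    intro l hl c _ c' hc'
    rw [hK, PMF.mem_support_map_iff] at hc'
    obtain ⟨s, hs, rfl⟩ := hc'
    rw [PMF.mem_support_bind_iff] at hs
    obtain ⟨B, _, hs⟩ := hs
    rcases (pass_counter κ' T hp c B l L s hs).2 with h1 | h1
    · left; rw [h1]
    · right; rw [h1]; push_cast; ring
  have hc2 : ∀ l < L, ∀ c : ℕ → ℕ, True →
      |((K c).toOuterMeasure {y | ((y l : ℕ) : ℝ) = (c l : ℝ) + 1}).toReal -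
        (Z l)⁻¹ / (Z (l + 1))⁻¹| ≤ L * (η + T * ζ) + ζ' := by
    intro l hl c _
    have e1 : (K c).toOuterMeasure {y | ((y l : ℕ) : ℝ) = (c l : ℝ) + 1} =
        EE (psL κ' T (u 0) l) fun y => hp y true := by
      rw [hK, ← pass_prob κ' T hp (u 0) c l L hl]
      show (((u 0).bind fun B => seqBind (phF κ' T hp) L (B, c)).map Prod.snd).toOuterMeasure _ = _
      rw [prob_map]
      congr 1
      ext s
      constructor
      · intro (hs : ((s.2 l : ℕ) : ℝ) = (c l : ℝ) + 1)
        show s.2 l = c l + 1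
        exact_mod_cast hs
      · intro (hs : s.2 l = c l + 1)
        show ((s.2 l : ℕ) : ℝ) = (c l : ℝ) + 1
        exact_mod_cast hs
    have e2 : (Z l)⁻¹ / (Z (l + 1))⁻¹ = Z (l + 1) / Z l := by
      rw [div_inv_eq_mul, mul_comm, div_eq_mul_inv]
    rw [e1, e2]
    have h1 := psL_close hgood hζ hcl hpert (fun l hl x hx => by
      by_contra hxF
      exact hx (hsupp l hl x hxF)) hM1 hη hε' hM ht l hl
    have h2 := test_close (by positivity) h1 (hsupp l hl) ha (hr l hl)
    refine h2.trans ?_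
    have h3 : (l : ℝ) ≤ L := by exact_mod_cast hl.le
    have := mul_le_mul_of_nonneg_right h3 hz
    linarith
  have hβ' : ∀ l < L, β ≤ (Z l)⁻¹ / (Z (l + 1))⁻¹ := by
    intro l hl
    have e2 : (Z l)⁻¹ / (Z (l + 1))⁻¹ = Z (l + 1) / Z l := by
      rw [div_inv_eq_mul, mul_comm, div_eq_mul_inv]
    rw [e2]; exact hβ l hl
  have key := fpras_main (σ := ℕ → ℕ) (K := K) (I := fun _ => True)
    (fun _ _ _ _ => trivial) (c := fun l c => (c l : ℝ)) (Zs := fun l => (Z l)⁻¹)
    (ε := ε / 2) (δ := δ)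
    (fun l hl => inv_pos.2 (hZ l hl)) hβ0 hβ1 hβ' hc1 hc2 (by linarith) (by linarith) hτ0
    hτ2 (by positivity) (by linarith) S hS hδ (fun _ => 0) trivial (fun _ _ => by simp)
  refine le_trans (MeasureTheory.OuterMeasure.mono _ ?_) key
  intro h hh
  by_contra hcon
  apply hh
  have hcon' : (1 - ε / 2) * ((Z L)⁻¹ / (Z 0)⁻¹) ≤ ∏ l ∈ Finset.range L, (S : ℝ) / (h l : ℝ) ∧
      ∏ l ∈ Finset.range L, (S : ℝ) / (h l : ℝ) ≤ (1 + ε / 2) * ((Z L)⁻¹ / (Z 0)⁻¹) := by
    by_contra h'
    exact hcon h'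
  obtain ⟨c1, c2⟩ := hcon'
  have hZL := hZ L le_rfl
  have hZ0 := hZ 0 (Nat.zero_le _)
  set Q := ∏ l ∈ Finset.range L, (S : ℝ) / (h l : ℝ) with hQ
  have e0 : (Z L)⁻¹ / (Z 0)⁻¹ = Z 0 / Z L := by
    rw [div_inv_eq_mul, mul_comm, div_eq_mul_inv]
  rw [e0] at c1 c2
  have hpos : 0 < Z 0 / Z L := by positivity
  have hQ0 : 0 < Q := lt_of_lt_of_le (mul_pos (by linarith) hpos) c1
  have e1 : (∏ l ∈ Finset.range L, (h l : ℝ)) / (S : ℝ) ^ L = Q⁻¹ := by
    rw [hQ, ← Finset.prod_inv_distrib]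
    have : ∀ l, ((S : ℝ) / (h l : ℝ))⁻¹ = (h l : ℝ) / S := fun l => inv_div _ _
    simp only [this]
    rw [Finset.prod_div_distrib, Finset.prod_const, Finset.card_range]
  have e2 : Z 0 * (∏ l ∈ Finset.range L, (h l : ℝ)) / (S : ℝ) ^ L = Z 0 * Q⁻¹ := by
    rw [mul_div_assoc, e1]
  rw [e2]
  have f1 : (1 - ε / 2) * Z 0 ≤ Q * Z L := by
    have := mul_le_mul_of_nonneg_right c1 hZL.le
    have e3 : (1 - ε / 2) * (Z 0 / Z L) * Z L = (1 - ε / 2) * Z 0 := by field_simp
    linarith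
  have f2 : Q * Z L ≤ (1 + ε / 2) * Z 0 := by
    have := mul_le_mul_of_nonneg_right c2 hZL.le
    have e3 : (1 + ε / 2) * (Z 0 / Z L) * Z L = (1 + ε / 2) * Z 0 := by field_simp
    linarith
  constructor
  · rw [← div_eq_mul_inv, le_div_iff₀ hQ0]
    have h1 : (1 - ε) * (Q * Z L) ≤ (1 - ε) * ((1 + ε / 2) * Z 0) :=
      mul_le_mul_of_nonneg_left f2 (by linarith)
    have h2 : (1 - ε) * (1 + ε / 2) ≤ 1 := by nlinarith
    have h3 := mul_le_mul_of_nonneg_right h2 hZ0.le
    nlinarith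
  · rw [← div_eq_mul_inv, div_le_iff₀ hQ0]
    have h1 : (1 + ε) * ((1 - ε / 2) * Z 0) ≤ (1 + ε) * (Q * Z L) :=
      mul_le_mul_of_nonneg_left f1 (by linarith)
    have h2 : 1 ≤ (1 + ε) * (1 - ε / 2) := by nlinarith
    have h3 := mul_le_mul_of_nonneg_right h2 hZ0.le
    nlinarith

end Vale.Agent.P317R
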