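import Vale.Agent.P317R.Steps
import Vale.Agent.P317R.Levels
import Vale.Agent.P317R.PassEst

/-!
# P317: the final estimation

The laws of the perfect states at the levels, the total variation distance of the state of a pass
from its ideal law, and the accuracy of the product of the frequencies.
-/

namespace Vale.Agent.P317R

open Vale.Agent.P328RAM
open Vale.Agent.P328R (TVle EE bern lawOf GoodChain)
open scoped ENNReal
open Finset

variable {n : ℕ} {I : Inst n} {p : Par} {k : ℕ} {t : Tb n}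

/-! ### the laws of the perfect states -/

theorem Wt_perf (hI : I.Ok) (hn : 0 < n) {B : St n} (hB : Perf B) :
    (Wt I p k t B : ℝ) = scW n p k * qn n ^ (k * null I B) := by
  have h := Wt_eq (t := fun _ => 0) (p := p) hI hn (fun _ => by simp) k (Or.inl hB)
  rw [wR_perf I k _ hB] at h
  rw [← h]
  have hs : IsSt B := Or.inl hB
  unfold Wt
  rw [if_pos hs, if_pos hs, cl_of_perf hB]
  simp [exq]

theorem Zp_eq' (hI : I.Ok) (hn : 0 < n) :
    (Zp I p k t : ℝ) = scW n p k * ∑ B ∈ peS n, qn n ^ (k * null I B) := by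
  unfold Zp
  push_cast
  rw [mul_sum]
  exact sum_congr rfl fun B hB => Wt_perf hI hn (mem_peS.1 hB)

theorem lev_pos (hn : 0 < n) (I : Inst n) (k : ℕ) : 0 < ∑ B ∈ peS n, qn n ^ (k * null I B) :=
  sum_pos (fun _ _ => pow_pos (qn_pos hn) _) (peS_nonempty n)

theorem piP_real (hI : I.Ok) (hn : 0 < n) {B : St n} (hB : Perf B) :
    (piP I p k t B).toReal = qn n ^ (k * null I B) / ∑ B ∈ peS n, qn n ^ (k * null I B) := by
  rw [piP_apply_real hn hB, Wt_perf hI hn hB, Zp_eq' hI hn]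
  exact mul_div_mul_left _ _ (scW_pos hn p k).ne'

theorem piP_support (hn : 0 < n) {B : St n} (hB : B ∈ (piP I p k t).support) : Perf B := by
  by_contra h
  exact (PMF.mem_support_iff _ _).1 hB (piP_apply_not hn h)

/-- the ratio of two levels, pointwise -/
theorem qn_pow_ge (hn : 0 < n) {m : ℕ} (hm : m ≤ n) : 3 / 4 ≤ qn n ^ m := by
  have h1 : 1 + (n : ℝ) * (-(1 / (4 * n))) ≤ (1 + -(1 / (4 * (n : ℝ)))) ^ n := by
    apply one_add_mul_le_pow
    have : (1 : ℝ) ≤ n := by exact_mod_cast hn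
    have h2 : 1 / (4 * (n : ℝ)) ≤ 1 := by
      rw [div_le_one (by linarith)]; linarith
    linarith
  have h3 : (1 : ℝ) ≤ n := by exact_mod_cast hn
  have h4 : 1 + (n : ℝ) * (-(1 / (4 * n))) = 3 / 4 := by
    field_simp; norm_num
  rw [h4] at h1
  have h5 : qn n = 1 + -(1 / (4 * (n : ℝ))) := by rw [qn_eq hn]; ring
  rw [← h5] at h1
  exact h1.trans (pow_le_pow_of_le_one (qn_pos hn).le (qn_le_one hn) hm)

theorem lev_succ_le (hn : 0 < n) (I : Inst n) (k : ℕ) :
    ∑ B ∈ peS n, qn n ^ ((k + 1) * null I B) ≤ ∑ B ∈ peS n, qn n ^ (k * null I B) :=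
  sum_le_sum fun B _ => pow_le_pow_of_le_one (qn_pos hn).le (qn_le_one hn)
    (Nat.mul_le_mul_right _ (Nat.le_succ k))

theorem lev_succ_ge (hI : I.Ok) (hn : 0 < n) (k : ℕ) :
    3 / 4 * ∑ B ∈ peS n, qn n ^ (k * null I B) ≤ ∑ B ∈ peS n, qn n ^ ((k + 1) * null I B) := by
  rw [mul_sum]
  refine sum_le_sum fun B hB => ?_
  rw [add_mul, one_mul, pow_add, mul_comm]
  exact mul_le_mul_of_nonneg_left (qn_pow_ge hn (null_le hI (mem_peS.1 hB).card))
    (pow_nonneg (qn_pos hn).le _)

/-- **Warm start.** -/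
theorem piP_warm (hI : I.Ok) (hn : 0 < n) (t' : Tb n) (B : St n) :
    (piP I p k t B).toReal ≤ 4 / 3 * (piP I p (k + 1) t' B).toReal := by
  by_cases hB : Perf B
  · rw [piP_real hI hn hB, piP_real hI hn hB]
    have h1 := lev_succ_le hn I k
    have h2 := qn_pow_ge hn (null_le hI hB.card)
    have h3 := lev_pos hn I k
    have h4 := lev_pos hn I (k + 1)
    have h5 : 0 < qn n ^ (k * null I B) := pow_pos (qn_pos hn) _
    rw [← mul_div_assoc, div_le_div_iff₀ h3 h4]
    have h6 : qn n ^ (k * null I B) ≤ 4 / 3 * qn n ^ ((k + 1) * null I B) := by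
      rw [add_mul, one_mul, pow_add]
      nlinarith
    exact mul_le_mul h6 h1 h4.le (mul_nonneg (by norm_num) (pow_nonneg (qn_pos hn).le _))
  · rw [piP_apply_not hn hB, piP_apply_not hn hB]
    simp

/-- the expectation of a function of the state under the law of the level -/
theorem EE_piP (hn : 0 < n) (F : St n → ℝ≥0∞) :
    EE (piP I p k t) F = ∑ B ∈ peS n, piP I p k t B * F B := by
  unfold EE
  rw [tsum_eq_sum]
  intro B hB
  rw [piP_apply_not hn (fun h => hB (mem_peS.2 h)), zero_mul]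

/-- the probability of the test is the ratio of the level sums -/
theorem EE_piP_q (hI : I.Ok) (hn : 0 < n) :
    EE (piP I p k t) (fun B => ENNReal.ofReal (qn n ^ null I B)) =
      ENNReal.ofReal ((∑ B ∈ peS n, qn n ^ ((k + 1) * null I B)) /
        ∑ B ∈ peS n, qn n ^ (k * null I B)) := by
  rw [EE_piP hn, sum_div, ENNReal.ofReal_sum_of_nonneg]
  · refine sum_congr rfl fun B hB => ?_
    rw [← ENNReal.ofReal_toReal (PMF.apply_ne_top (piP I p k t) B), piP_real hI hn (mem_peS.1 hB),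
      ← ENNReal.ofReal_mul (div_nonneg (pow_nonneg (qn_pos hn).le _) (lev_pos hn I k).le)]
    congr 1
    rw [div_mul_eq_mul_div, ← pow_add, add_mul, one_mul]
  · intro B _
    exact div_nonneg (pow_nonneg (qn_pos hn).le _) (lev_pos hn I k).le

/-- the start of a pass has the law of the level `0` -/
theorem randT_piP (hI : I.Ok) (hn : 0 < n) : randT n = piP I p 0 t := by
  have h1 : TbOk p (fun _ : Fin n × Fin n => (0 : ℤ)) := fun _ => by simp
  rw [randT_law hI hn h1]
  ext B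
  by_cases hB : Perf B
  · have h2 := piP_real (p := p) (k := 0) (t := t) hI hn hB
    rw [← piP_real (p := p) (k := 0) (t := fun _ => 0) hI hn hB] at h2
    exact ((ENNReal.toReal_eq_toReal_iff' (PMF.apply_ne_top _ _) (PMF.apply_ne_top _ _)).1 h2).symm
  · rw [piP_apply_not hn hB, piP_apply_not hn hB]

/-! ### the passes -/

theorem stepJ_support (hn : 0 < n) {x : St n} (hx : Perf x) :
    ∀ y ∈ (stepJ I p k t x).support, Perf y := by
  intro y hy
  have h := jker_support (κ := stepK I p k t) (I := fun x => x ∈ stS n)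
    (fun x hx y hy => stepK_closed hn x hx y hy) p.s Perf x ⟨peS_subset (mem_peS.2 hx), hx⟩ y hy
  exact h.2

theorem stepJ_pert (hn : 0 < n) {x : St n} (hx : Perf x) :
    TVle (stepJ I p k t x) (jker (stepI I p k t) p.s Perf x) (p.s * ((2 : ℝ≥0∞) ^ p.K)⁻¹) :=
  jker_pert (κ := stepK I p k t) (κ' := stepI I p k t) (I := fun x => x ∈ stS n)
    (fun x hx y hy => stepK_closed hn x hx y hy)
    (fun _ hx => stepK_stepI hn (mem_stS.1 hx)) p.s Perf x (peS_subset (mem_peS.2 hx))

/-- **The law of the state of a pass.** -/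
theorem passK_TV (hI : I.Ok) (hn : 0 < n) (t : ℕ → Tb n) {m : ℕ} {A ε' η : ℝ}
    (hgood : ∀ l < m, GoodChain (peS n) (piP I p (l + 1) (t (l + 1)))
      (jker (stepI I p (l + 1) (t (l + 1))) p.s Perf) A ε')
    (hη : 0 < η) (hε' : ε' * (4 / 3) ^ 2 ≤ η ^ 2)
    (hT : 2 * A * Real.log ((4 / 3) / η) ≤ p.T) :
    ∀ l ≤ m, TVle (passK I p t l) (piP I p l (t l))
      (ENNReal.ofReal (l * (η + p.T * (p.s * (2 ^ p.K)⁻¹)))) := by
  intro l hl
  have h := P328R.anneal_soft (L := m) (S := fun _ => peS n) (u := fun l => piP I p l (t l))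
    (π := fun l => piP I p l (t l)) (κ := fun l => jker (stepI I p l (t l)) p.s Perf)
    (κ' := fun l => stepJ I p l (t l)) hgood (η0 := 0) (ζ := p.s * ((2 : ℝ≥0∞) ^ p.K)⁻¹)
    (fun l _ => TVle.refl _ _)
    (fun l _ x hx y hy => mem_peS.2 (stepJ_support hn (mem_peS.1 hx) y hy))
    (fun l _ x hx => stepJ_pert hn (mem_peS.1 hx))
    (fun _ => id) (fun l _ x hx => mem_peS.2 (piP_support hn hx))
    (M := 4 / 3) (η := η) (by norm_num) hη hε'
    (fun l _ y => by rw [PMF.map_id]; exact piP_warm hI hn _ y)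
    p.T hT (passK I p t) (δ := 0)
    (by
      show TVle ((randT n).bind (seqBind _ 0)) _ _
      rw [show seqBind (fun k => iterBind (stepJ I p (k + 1) (t (k + 1))) p.T) 0 =
        (PMF.pure : St n → PMF (St n)) from funext fun _ => rfl, PMF.bind_pure, randT_piP hI hn]
      exact TVle.refl _ _)
    (fun l _ => by
      rw [PMF.map_id]
      unfold passK
      rw [PMF.bind_bind]
      rfl) l hl
  refine h.mono (le_of_eq ?_)
  have h2 : (0 : ℝ) ≤ (2 ^ p.K)⁻¹ := by positivity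
  rw [zero_add, zero_add, ENNReal.ofReal_mul (Nat.cast_nonneg _), ENNReal.ofReal_natCast,
    ENNReal.ofReal_add hη.le (by positivity), ENNReal.ofReal_mul (Nat.cast_nonneg _),
    ENNReal.ofReal_mul (Nat.cast_nonneg _), ENNReal.ofReal_natCast, ENNReal.ofReal_natCast,
    ENNReal.ofReal_inv_of_pos (by positivity), ENNReal.ofReal_pow (by norm_num),
    ENNReal.ofReal_ofNat]

/-! ### the final estimation -/

/-- the coin of the test -/
noncomputable def tstC (I : Inst n) (p : Par) (B : St n) : PMF Bool :=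
  (unif p.K).map fun U => decide (U * (4 * n) ^ null I B < 2 ^ p.K * (4 * n - 1) ^ null I B)

theorem tstC_close (hn : 0 < n) (I : Inst n) (p : Par) (B : St n) :
    |(tstC I p B true).toReal - qn n ^ null I B| ≤ (2 ^ p.K)⁻¹ := by
  classical
  have h := test_bern p.K ((4 * n) ^ null I B) ((4 * n - 1) ^ null I B) (by positivity)
  have hδ : ((2 : ℝ≥0∞) ^ p.K)⁻¹ = ENNReal.ofReal (2 ^ p.K)⁻¹ := by
    rw [ENNReal.ofReal_inv_of_pos (by positivity), ENNReal.ofReal_pow (by norm_num),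
      ENNReal.ofReal_ofNat]
  rw [hδ] at h
  have h1 := h.abs_prob (by positivity) {true}
  rw [PMF.toOuterMeasure_apply_singleton, PMF.toOuterMeasure_apply_singleton, P328R.bern_true] at h1
  have h2 : ((min 1 ((((4 * n - 1) ^ null I B : ℕ) : NNReal) / (((4 * n) ^ null I B : ℕ) : NNReal)) :
      NNReal) : ℝ≥0∞).toReal = qn n ^ null I B := by
    rw [ENNReal.coe_toReal, NNReal.coe_min, NNReal.coe_div]
    have h4 : (1 : ℝ) ≤ n := by exact_mod_cast hn
    have h5 : ((4 * n - 1 : ℕ) : ℝ) = 4 * n - 1 := by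
      rw [Nat.cast_sub (by omega)]
      push_cast
      ring
    rw [NNReal.coe_natCast, NNReal.coe_natCast, Nat.cast_pow, Nat.cast_pow, h5, ← div_pow]
    push_cast
    show min 1 (qn n ^ null I B) = _
    exact min_eq_right (pow_le_one₀ (qn_pos hn).le (qn_le_one hn))
  rw [h2] at h1
  exact h1

theorem estS_eq (t : ℕ → Tb n) : estS I p t = phF (fun l => stepJ I p l (t l)) p.T (tstC I p) := by
  funext l x
  unfold estS phF tstC
  refine congrArg _ (funext fun B => ?_)
  rw [PMF.map_comp]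
  congr 1
  funext U
  simp only [Function.comp, decide_eq_true_eq]

theorem estK_eq (t : ℕ → Tb n) : estK I p t =
    iterBind (fun h => ((randT n).bind fun B =>
      seqBind (phF (fun l => stepJ I p l (t l)) p.T (tstC I p)) p.L (B, h)).map Prod.snd) p.S
      fun _ => 0 := by
  unfold estK estP
  rw [estS_eq]
  simp only [PMF.map_bind]

/-- **The final estimation is accurate.** -/
theorem estK_good (hI : I.Ok) (hn : 0 < n) (t : ℕ → Tb n) {A ε' η τ ε δ : ℝ}
    (hgood : ∀ l, 1 ≤ l → l < p.L → GoodChain (peS n) (piP I p l (t l))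
      (jker (stepI I p l (t l)) p.s Perf) A ε')
    (hη : 0 < η) (hε' : ε' * (4 / 3) ^ 2 ≤ η ^ 2)
    (hT : 2 * A * Real.log ((4 / 3) / η) ≤ p.T)
    (hε0 : 0 ≤ ε) (hε1 : ε ≤ 1) (hτ0 : 0 ≤ τ) (hτ2 : τ ≤ 2)
    (hτ : 16 * p.L * (p.L * (η + p.T * (p.s * (2 ^ p.K)⁻¹)) + (2 ^ p.K)⁻¹ + τ) ≤ ε * (3 / 4))
    (hS : 0 < p.S) (hδ : 2 * p.L * Real.exp (-(p.S * τ ^ 2 / 4)) ≤ δ) :
    (estK I p t).toOuterMeasure
      {h | ¬ ((1 - ε) * ZR I p.L none ≤
          2 ^ n * (∏ l ∈ range p.L, (h l : ℝ)) / (p.S : ℝ) ^ p.L ∧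
        2 ^ n * (∏ l ∈ range p.L, (h l : ℝ)) / (p.S : ℝ) ^ p.L ≤
          (1 + ε) * ZR I p.L none)} ≤ ENNReal.ofReal δ := by
  have hζ : (p.s : ℝ≥0∞) * ((2 : ℝ≥0∞) ^ p.K)⁻¹ = ENNReal.ofReal (p.s * (2 ^ p.K)⁻¹) := by
    rw [ENNReal.ofReal_mul (Nat.cast_nonneg _), ENNReal.ofReal_natCast,
      ENNReal.ofReal_inv_of_pos (by positivity), ENNReal.ofReal_pow (by norm_num),
      ENNReal.ofReal_ofNat]
  have key := est_main (L := p.L) (T := p.T) (F := peS n) (u := fun l => piP I p l (t l))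
    (κ := fun l => jker (stepI I p l (t l)) p.s Perf) (κ' := fun l => stepJ I p l (t l))
    hgood (ζ := p.s * (2 ^ p.K)⁻¹) (by positivity)
    (fun l _ _ x hx y hy => mem_peS.2 (stepJ_support hn (mem_peS.1 hx) y hy))
    (fun l _ _ x hx => by rw [← hζ]; exact stepJ_pert hn (mem_peS.1 hx))
    (fun l _ x hx => piP_apply_not hn fun h => hx (mem_peS.2 h))
    (M := 4 / 3) (η := η) (by norm_num) hη hε'
    (fun l _ y => piP_warm hI hn _ y) hT (hp := tstC I p) (a := fun B => qn n ^ null I B)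
    (ζ' := (2 ^ p.K)⁻¹) (by positivity) (fun x _ => tstC_close hn I p x)
    (Z := fun l => ∑ B ∈ peS n, qn n ^ (l * null I B)) (fun l _ => lev_pos hn I l)
    (fun l _ => by
      rw [sum_div]
      refine sum_congr rfl fun B hB => ?_
      rw [piP_real hI hn (mem_peS.1 hB), div_mul_eq_mul_div, ← pow_add, add_mul, one_mul])
    (β := 3 / 4) (by norm_num) (by norm_num)
    (fun l _ => by
      rw [le_div_iff₀ (lev_pos hn I l)]
      exact lev_succ_ge hI hn l)
    hε0 hε1 hτ0 hτ2 hτ hS hδ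
  rw [estK_eq, randT_piP (I := I) (p := p) (t := t 0) hI hn]
  have e0 : ∑ B ∈ peS n, qn n ^ (0 * null I B) = 2 ^ n := by
    simp [card_peS]
  simp only [e0] at key
  exact key

end Vale.Agent.P317R
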