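import Vale.Agent.P317R.PoinDefs

/-!
# P317R: the cost of the nodes is bounded by the exchange energy

MODULE EXC.
-/

namespace Vale.Agent.P317R

open Finset

variable {ι : Type*} [Fintype ι] [DecidableEq ι]

/-- weighted average of `g` over the neighbours of the node `S` (`0` if the weights vanish) -/
noncomputable def havg (wt g : Finset (ι × Bool) → ℝ) (S : Finset (ι × Bool)) : ℝ :=
  (∑ c, if c ∈ S then 0 else wt (insert c S) * g (insert c S)) /
    (∑ c, if c ∈ S then 0 else wt (insert c S))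

theorem exc_var {κ : Type*} [Fintype κ] (a x : κ → ℝ) (ha : ∀ c, 0 ≤ a c) :
    ∑ c, a c * (x c - (∑ c, a c * x c) / (∑ c, a c)) ^ 2 ≤
      (1 / 2) * ∑ c, ∑ c', min (a c) (a c') * (x c - x c') ^ 2 := by
  obtain ⟨A, hA⟩ : ∃ A, A = ∑ c, a c := ⟨_, rfl⟩
  obtain ⟨B, hB⟩ : ∃ B, B = ∑ c, a c * x c := ⟨_, rfl⟩
  rw [← hA, ← hB]
  have hA0 : 0 ≤ A := by rw [hA]; exact sum_nonneg fun c _ => ha c
  have hle : ∀ c, a c ≤ A := fun c => by
    rw [hA]; exact single_le_sum (f := a) (fun c _ => ha c) (mem_univ c)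
  have hmin0 : ∀ c c', 0 ≤ min (a c) (a c') := fun c c' => le_min (ha c) (ha c')
  have hR : 0 ≤ (1 / 2) * ∑ c, ∑ c', min (a c) (a c') * (x c - x c') ^ 2 := by
    refine mul_nonneg (by norm_num) (sum_nonneg fun c _ => sum_nonneg fun c' _ => ?_)
    exact mul_nonneg (hmin0 c c') (sq_nonneg _)
  rcases hA0.eq_or_lt with h | h
  · have h0 : ∀ c, a c = 0 := fun c => le_antisymm (by rw [h]; exact hle c) (ha c)
    have h1 : ∑ c, a c * (x c - B / A) ^ 2 = 0 := sum_eq_zero fun c _ => by rw [h0 c, zero_mul]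
    rw [h1]; exact hR
  · have h2 : A * ∑ c, a c * (x c - B / A) ^ 2 = A * (∑ c, a c * x c ^ 2) - B ^ 2 := by
      have h3 : ∑ c, a c * (x c - B / A) ^ 2 =
          (∑ c, a c * x c ^ 2) - 2 * (B / A) * B + (B / A) ^ 2 * A := by
        have e1 : (2 * (B / A)) * B = ∑ c, (2 * (B / A)) * (a c * x c) := by
          rw [← mul_sum, ← hB]
        have e2 : (B / A) ^ 2 * A = ∑ c, (B / A) ^ 2 * a c := by
          rw [← mul_sum, ← hA]
        rw [e1, e2, ← sum_sub_distrib, ← sum_add_distrib]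
        exact sum_congr rfl fun c _ => by ring
      rw [h3]
      have := h.ne'
      field_simp
      ring
    have h4 : ∑ c, ∑ c', a c * a c' * (x c - x c') ^ 2 =
        2 * (A * (∑ c, a c * x c ^ 2) - B ^ 2) := by
      have e0 : ∀ c c', a c * a c' * (x c - x c') ^ 2 =
          (a c * x c ^ 2) * a c' + a c * (a c' * x c' ^ 2) - 2 * ((a c * x c) * (a c' * x c')) := by
        intro c c'; ring
      simp_rw [e0, sum_sub_distrib, sum_add_distrib]
      have e1 : ∑ c, ∑ c', (a c * x c ^ 2) * a c' = (∑ c, a c * x c ^ 2) * A := by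
        rw [hA, sum_mul_sum]
      have e2 : ∑ c, ∑ c', a c * (a c' * x c' ^ 2) = A * (∑ c, a c * x c ^ 2) := by
        rw [hA, sum_mul_sum]
      have e3 : ∑ c, ∑ c', 2 * ((a c * x c) * (a c' * x c')) = 2 * (B * B) := by
        simp_rw [← mul_sum]
        rw [hB, ← sum_mul]
      rw [e1, e2, e3]; ring
    have h5 : ∑ c, ∑ c', a c * a c' * (x c - x c') ^ 2 ≤
        A * ∑ c, ∑ c', min (a c) (a c') * (x c - x c') ^ 2 := by
      rw [mul_sum]
      refine sum_le_sum fun c _ => ?_
      rw [mul_sum]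
      refine sum_le_sum fun c' _ => ?_
      rw [← mul_assoc]
      refine mul_le_mul_of_nonneg_right ?_ (sq_nonneg _)
      rcases le_total (a c) (a c') with h6 | h6
      · rw [min_eq_left h6, mul_comm]
        exact mul_le_mul_of_nonneg_right (hle c') (ha c)
      · rw [min_eq_right h6]
        exact mul_le_mul_of_nonneg_right (hle c) (ha c')
    have h7 : A * ∑ c, a c * (x c - B / A) ^ 2 ≤
        A * ((1 / 2) * ∑ c, ∑ c', min (a c) (a c') * (x c - x c') ^ 2) := by
      rw [h2]; linarith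
    exact le_of_mul_le_mul_left h7 h

/-- the summand of the exchange energy of a node -/
noncomputable def excF (wt g : Finset (ι × Bool) → ℝ) (B B' : Finset (ι × Bool)) : ℝ :=
  min (wt B) (wt B') * (g B - g B') ^ 2

theorem exc_node (wt g : Finset (ι × Bool) → ℝ) (hwt : ∀ S, 0 ≤ wt S)
    (S : Finset (ι × Bool)) :
    nodeCost wt g (havg wt g) S ≤ (1 / 2) * ∑ c, ∑ c',
      if c ∉ S ∧ c' ∉ S ∧ c ≠ c' then excF wt g (insert c S) (insert c' S) else 0 := by
  have h1 := exc_var (fun c : ι × Bool => if c ∈ S then 0 else wt (insert c S))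
    (fun c => g (insert c S)) (fun c => by
      split_ifs
      · exact le_rfl
      · exact hwt _)
  have h2 : nodeCost wt g (havg wt g) S =
      ∑ c : ι × Bool, (if c ∈ S then 0 else wt (insert c S)) * (g (insert c S) -
        (∑ c : ι × Bool, (if c ∈ S then 0 else wt (insert c S)) * g (insert c S)) /
          ∑ c : ι × Bool, (if c ∈ S then 0 else wt (insert c S))) ^ 2 := by
    unfold nodeCost havg
    have h3 : (∑ c : ι × Bool, (if c ∈ S then 0 else wt (insert c S) * g (insert c S))) =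
        ∑ c : ι × Bool, (if c ∈ S then 0 else wt (insert c S)) * g (insert c S) := by
      refine sum_congr rfl fun c _ => ?_
      split_ifs
      · rw [zero_mul]
      · rfl
    rw [h3]
    refine sum_congr rfl fun c _ => ?_
    split_ifs
    · rw [zero_mul]
    · rfl
  rw [h2]
  refine h1.trans (le_of_eq ?_)
  congr 1
  refine sum_congr rfl fun c _ => sum_congr rfl fun c' _ => ?_
  by_cases hc : c ∈ S
  · have e1 : (if c ∈ S then (0 : ℝ) else wt (insert c S)) = 0 := if_pos hc
    have this : (0 : ℝ) ≤ if c' ∈ S then 0 else wt (insert c' S) := by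
      split_ifs
      · exact le_rfl
      · exact hwt _
    rw [e1, min_eq_left this, zero_mul]
    symm
    exact if_neg (fun h => h.1 hc)
  · by_cases hc' : c' ∈ S
    · have e1 : (if c' ∈ S then (0 : ℝ) else wt (insert c' S)) = 0 := if_pos hc'
      have this : (0 : ℝ) ≤ if c ∈ S then 0 else wt (insert c S) := by
        rw [if_neg hc]
        exact hwt _
      rw [e1, min_eq_right this, zero_mul]
      symm
      exact if_neg (fun h => h.2.1 hc')
    · rw [if_neg hc, if_neg hc']
      by_cases he : c = c'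
      · subst he
        rw [if_neg (fun h => h.2.2 rfl), sub_self]
        simp
      · rw [if_pos ⟨hc, hc', he⟩]
        rfl

omit [Fintype ι] in
theorem exc_inter {S : Finset (ι × Bool)} {c c' : ι × Bool} (he : c ≠ c') : insert c S ∩ insert c' S = S := by
  ext x
  simp only [mem_inter, mem_insert]
  constructor
  · rintro ⟨h1 | h1, h2 | h2⟩
    · exact absurd (h1.symm.trans h2) he
    · exact h2
    · exact h1
    · exact h1
  · exact fun h => ⟨Or.inr h, Or.inr h⟩

omit [Fintype ι] in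
theorem exc_sdiff {S : Finset (ι × Bool)} {c c' : ι × Bool} (hc : c ∉ S) (he : c ≠ c') :
    insert c S \ insert c' S = {c} := by
  ext x
  simp only [mem_sdiff, mem_insert, mem_singleton, not_or]
  constructor
  · rintro ⟨h1 | h1, h2, h3⟩
    · exact h1
    · exact absurd h1 h3
  · rintro rfl
    exact ⟨Or.inl rfl, he, hc⟩

theorem exc_idx {S : Finset (ι × Bool)} {i j : ι} (hi : IsTr (univ.erase i) ∅ S)
    (hj : IsTr (univ.erase j) ∅ S) : i = j := by
  by_contra h
  have h1 := hi.2 j (by simp [Ne.symm h])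
  have h2 : (j, true) ∉ S := fun h3 => by
    have := (hj.1 (j, true) (by simp)).1 h3
    simp at this
  have h4 : (j, false) ∉ S := fun h3 => by
    have := (hj.1 (j, false) (by simp)).1 h3
    simp at this
  exact h2 (h1.2 h4)

/-- For `h = havg wt g`: `∑_s wt_s (g_s - h)² = (1/(2 ∑ wt)) ∑_{s,s'} wt_s wt_s' (g_s - g_s')²` and
`wt_s wt_s' ≤ min wt_s wt_s' * ∑ wt`. Every ordered pair `(B, B')` of exchange neighbours occurs for
at most one node `S = B ∩ B'` and one `i` (the pair not met by `S`). -/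
theorem cost_le_exchange (wt g : Finset (ι × Bool) → ℝ) (hwt : ∀ S, 0 ≤ wt S) :
    ∑ i, Cost univ wt g (havg wt g) ∅ i ≤
      (1 / 2) * ∑ B : Finset (ι × Bool), ∑ B' : Finset (ι × Bool),
        if (B \ B').card = 1 ∧ (B' \ B).card = 1 then
          min (wt B) (wt B') * (g B - g B') ^ 2 else 0 := by
  have hF0 : ∀ B B', 0 ≤ excF wt g B B' := fun B B' =>
    mul_nonneg (le_min (hwt B) (hwt B')) (sq_nonneg _)
  have h1 : ∀ i : ι, Cost univ wt g (havg wt g) ∅ i ≤
      (1 / 2) * ∑ S : Finset (ι × Bool), ∑ c : ι × Bool, ∑ c' : ι × Bool,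
        if IsTr (univ.erase i) ∅ S ∧ c ∉ S ∧ c' ∉ S ∧ c ≠ c' then
          excF wt g (insert c S) (insert c' S) else 0 := by
    intro i
    unfold Cost
    rw [trs_eq_sum (fun j _ b => notMem_empty _), sum_filter, mul_sum]
    refine sum_le_sum fun S _ => ?_
    split_ifs with h
    · refine (exc_node wt g hwt S).trans (le_of_eq ?_)
      congr 1
      refine sum_congr rfl fun c _ => sum_congr rfl fun c' _ => ?_
      simp only [h, true_and]
    · refine mul_nonneg (by norm_num) (sum_nonneg fun c _ => sum_nonneg fun c' _ => ?_)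
      split_ifs
      · exact hF0 _ _
      · exact le_rfl
  refine (sum_le_sum fun i _ => h1 i).trans ?_
  rw [← mul_sum]
  refine mul_le_mul_of_nonneg_left ?_ (by norm_num)
  -- reorganise as a sum over quadruples
  have h2 : (∑ i : ι, ∑ S : Finset (ι × Bool), ∑ c : ι × Bool, ∑ c' : ι × Bool,
        if IsTr (univ.erase i) ∅ S ∧ c ∉ S ∧ c' ∉ S ∧ c ≠ c' then
          excF wt g (insert c S) (insert c' S) else 0) =
      ∑ t ∈ (univ : Finset (ι × Finset (ι × Bool) × (ι × Bool) × (ι × Bool))).filter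
        (fun t => IsTr (univ.erase t.1) ∅ t.2.1 ∧ t.2.2.1 ∉ t.2.1 ∧ t.2.2.2 ∉ t.2.1 ∧
          t.2.2.1 ≠ t.2.2.2), excF wt g (insert t.2.2.1 t.2.1) (insert t.2.2.2 t.2.1) := by
    rw [sum_filter, Fintype.sum_prod_type]
    refine sum_congr rfl fun i _ => ?_
    rw [Fintype.sum_prod_type]
    refine sum_congr rfl fun S _ => ?_
    symm
    exact Fintype.sum_prod_type _
  have h3 : (∑ B : Finset (ι × Bool), ∑ B' : Finset (ι × Bool),
        if (B \ B').card = 1 ∧ (B' \ B).card = 1 then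
          min (wt B) (wt B') * (g B - g B') ^ 2 else 0) =
      ∑ t ∈ (univ : Finset (Finset (ι × Bool) × Finset (ι × Bool))).filter
        (fun t => (t.1 \ t.2).card = 1 ∧ (t.2 \ t.1).card = 1), excF wt g t.1 t.2 := by
    rw [sum_filter, Fintype.sum_prod_type]
    rfl
  rw [h2, h3]
  have hinj : Set.InjOn (fun t : ι × Finset (ι × Bool) × (ι × Bool) × (ι × Bool) =>
      (insert t.2.2.1 t.2.1, insert t.2.2.2 t.2.1))
      ((univ : Finset (ι × Finset (ι × Bool) × (ι × Bool) × (ι × Bool))).filter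
        (fun t => IsTr (univ.erase t.1) ∅ t.2.1 ∧ t.2.2.1 ∉ t.2.1 ∧ t.2.2.2 ∉ t.2.1 ∧
          t.2.2.1 ≠ t.2.2.2) : Finset _) := by
    rintro ⟨i, S, c, c'⟩ ht ⟨j, T, e, e'⟩ ht' hh
    simp only [coe_filter, mem_univ, true_and, Set.mem_ofPred_eq] at ht ht'
    simp only [Prod.mk.injEq] at hh
    obtain ⟨hi, hc, hc', hcc⟩ := ht
    obtain ⟨hj, he, he', hee⟩ := ht'
    have hST : S = T := by
      rw [← exc_inter (S := S) hcc, ← exc_inter (S := T) hee, hh.1, hh.2]
    subst hST
    have e1 : c = e := by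
      have := exc_sdiff hc hcc
      rw [hh.1, hh.2, exc_sdiff he hee] at this
      exact (singleton_injective this).symm
    have e2 : c' = e' := by
      have := exc_sdiff hc' hcc.symm
      rw [hh.1, hh.2, exc_sdiff he' hee.symm] at this
      exact (singleton_injective this).symm
    have e3 : i = j := exc_idx hi hj
    rw [e1, e2, e3]
  have h4 : ∑ t ∈ (univ : Finset (ι × Finset (ι × Bool) × (ι × Bool) × (ι × Bool))).filter
        (fun t => IsTr (univ.erase t.1) ∅ t.2.1 ∧ t.2.2.1 ∉ t.2.1 ∧ t.2.2.2 ∉ t.2.1 ∧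
          t.2.2.1 ≠ t.2.2.2), excF wt g (insert t.2.2.1 t.2.1) (insert t.2.2.2 t.2.1) =
      ∑ p ∈ ((univ : Finset (ι × Finset (ι × Bool) × (ι × Bool) × (ι × Bool))).filter
        (fun t => IsTr (univ.erase t.1) ∅ t.2.1 ∧ t.2.2.1 ∉ t.2.1 ∧ t.2.2.2 ∉ t.2.1 ∧
          t.2.2.1 ≠ t.2.2.2)).image (fun t => (insert t.2.2.1 t.2.1, insert t.2.2.2 t.2.1)),
        excF wt g p.1 p.2 := by
    rw [sum_image hinj]
  rw [h4]
  refine sum_le_sum_of_subset_of_nonneg ?_ (fun p _ _ => hF0 _ _)
  intro p hp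
  rw [mem_image] at hp
  obtain ⟨⟨i, S, c, c'⟩, ht, rfl⟩ := hp
  rw [mem_filter] at ht
  obtain ⟨_, _, hc, hc', hcc⟩ := ht
  rw [mem_filter]
  refine ⟨mem_univ _, ?_, ?_⟩
  · show (insert c S \ insert c' S).card = 1
    rw [exc_sdiff hc hcc, card_singleton]
  · show (insert c' S \ insert c S).card = 1
    rw [exc_sdiff hc' (Ne.symm hcc), card_singleton]

end Vale.Agent.P317R
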