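import Vale.Agent.P317R.Steps
import Vale.Agent.P317R.AFRank

/-!
# P317R: the rank function of the instance

MODULE GL1.
-/

namespace Vale.Agent.P317R

open Finset

variable {n : ℕ}

/-- the rank function of the first matroid plus the dual of the second one -/
def RR (I : Inst n) (U : St n) : ℕ :=
  I.rk1 (A1 U) + ((univ.filter fun e : Fin n => (e, true) ∈ U).card + I.rk2 (A2 U) - I.r)

/-! ### rank functions of matroids are local rank functions -/

theorem rankFn_of_isRk {rk : Finset (Fin n) → ℕ} (h : IsRk rk) : RankFn rk where
  mono S g := h.mono _ _ (subset_insert _ _)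
  unit S g := h.ins _ _
  sub S g k := by
    have h1 := h.sub (insert g S) (insert k S)
    have e : insert g S ∪ insert k S = insert g (insert k S) := by
      ext x
      simp only [mem_union, mem_insert]
      tauto
    rw [e] at h1
    have h2 := h.mono S (insert g S ∩ insert k S)
      (subset_inter (subset_insert _ _) (subset_insert _ _))
    omega

theorem fr_sdiff_insert (T : Finset (Fin n)) (g : Fin n) :
    univ \ insert g T = (univ \ T).erase g := by
  ext x
  simp only [mem_sdiff, mem_univ, true_and, mem_insert, mem_erase, not_or]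

theorem rankFn_dual {rk : Finset (Fin n) → ℕ} (h : IsRk rk) {r : ℕ} (hr : rk univ = r) :
    RankFn (fun T : Finset (Fin n) => T.card + rk (univ \ T) - r) := by
  have hge : ∀ T : Finset (Fin n), r ≤ T.card + rk (univ \ T) := by
    intro T
    have h1 := h.univ_le (univ \ T)
    have h2 : (univ \ T).card = n - T.card := by
      rw [card_sdiff_of_subset (subset_univ T), card_univ, Fintype.card_fin]
    have h3 : T.card ≤ n := by simpa using card_le_univ T
    omega
  have hmono : ∀ (T : Finset (Fin n)) (g : Fin n),
      T.card + rk (univ \ T) ≤ (insert g T).card + rk (univ \ insert g T) := by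
    intro T g
    by_cases hg : g ∈ T
    · rw [insert_eq_of_mem hg]
    · rw [card_insert_of_notMem hg, fr_sdiff_insert]
      have h1 := h.ins ((univ \ T).erase g) g
      rw [insert_erase (by simp [hg])] at h1
      omega
  have hunit : ∀ (T : Finset (Fin n)) (g : Fin n),
      (insert g T).card + rk (univ \ insert g T) ≤ T.card + rk (univ \ T) + 1 := by
    intro T g
    have h1 := h.mono _ _ (sdiff_subset_sdiff (subset_refl univ) (subset_insert g T))
    have h2 := card_insert_le g T
    omega
  refine ⟨fun S g => ?_, fun S g => ?_, fun S g k => ?_⟩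
  · have := hmono S g
    omega
  · have := hunit S g
    have := hge S
    omega
  · have g1 := hge S
    have g2 := hge (insert g S)
    have g3 := hge (insert k S)
    have g4 := hge (insert g (insert k S))
    suffices hs : (insert g (insert k S)).card + rk (univ \ insert g (insert k S)) +
        (S.card + rk (univ \ S)) ≤ (insert g S).card + rk (univ \ insert g S) +
        ((insert k S).card + rk (univ \ insert k S)) by omega
    by_cases hg : g ∈ S
    · rw [insert_eq_of_mem hg, insert_eq_of_mem (mem_insert_of_mem hg)]
      omega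
    by_cases hk : k ∈ S
    · rw [insert_eq_of_mem hk]
    by_cases hgk : g = k
    · subst hgk
      rw [insert_eq_of_mem (mem_insert_self g S)]
      have := hmono S g
      omega
    have hg' : g ∉ insert k S := by
      rw [mem_insert, not_or]
      exact ⟨hgk, hg⟩
    rw [card_insert_of_notMem hg', card_insert_of_notMem hk, card_insert_of_notMem hg]
    have h1 := h.sub (univ \ insert k S) (univ \ insert g S)
    have e1 : (univ \ insert k S) ∩ (univ \ insert g S) = univ \ insert g (insert k S) := by
      ext x
      simp only [mem_inter, mem_sdiff, mem_univ, true_and, mem_insert, not_or]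
      tauto
    have e2 : (univ \ insert k S) ∪ (univ \ insert g S) = univ \ S := by
      ext x
      simp only [mem_union, mem_sdiff, mem_univ, true_and, mem_insert, not_or]
      constructor
      · rintro (h | h)
        · exact h.2
        · exact h.2
      · intro hx
        by_cases hxk : x = k
        · right
          exact ⟨fun hxg => hgk (hxg.symm.trans hxk), hx⟩
        · left
          exact ⟨hxk, hx⟩
    rw [e1, e2] at h1
    omega

/-- the elements of the dual of the second matroid -/
def T2 (U : St n) : Finset (Fin n) := univ.filter fun e : Fin n => (e, true) ∈ U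

theorem A2_eq (U : St n) : A2 U = univ \ T2 U := by
  ext e
  simp [A2, T2]

theorem A1_insert_false (U : St n) (e : Fin n) : A1 (insert (e, false) U) = insert e (A1 U) := by
  ext x
  simp [A1]

theorem A1_insert_true (U : St n) (e : Fin n) : A1 (insert (e, true) U) = A1 U := by
  ext x
  simp [A1]

theorem T2_insert_true (U : St n) (e : Fin n) : T2 (insert (e, true) U) = insert e (T2 U) := by
  ext x
  simp [T2]

theorem T2_insert_false (U : St n) (e : Fin n) : T2 (insert (e, false) U) = T2 U := by
  ext x
  simp [T2]

theorem rankFn_sum {R₁ R₂ : Finset (Fin n) → ℕ} (h₁ : RankFn R₁) (h₂ : RankFn R₂) :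
    RankFn (fun U : St n => R₁ (A1 U) + R₂ (T2 U)) := by
  refine ⟨?_, ?_, ?_⟩
  · rintro S ⟨e, b⟩
    cases b
    · simp only [A1_insert_false, T2_insert_false]
      have := h₁.mono (A1 S) e
      omega
    · simp only [A1_insert_true, T2_insert_true]
      have := h₂.mono (T2 S) e
      omega
  · rintro S ⟨e, b⟩
    cases b
    · simp only [A1_insert_false, T2_insert_false]
      have := h₁.unit (A1 S) e
      omega
    · simp only [A1_insert_true, T2_insert_true]
      have := h₂.unit (T2 S) e
      omega
  · rintro S ⟨e, b⟩ ⟨f, c⟩
    cases b <;> cases c <;>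
      simp only [A1_insert_true, T2_insert_true, A1_insert_false, T2_insert_false]
    · have := h₁.sub (A1 S) e f
      omega
    · omega
    · omega
    · have := h₂.sub (T2 S) e f
      omega

/-- `|U₂| + rk₂(E \ U₂) ≥ r` (`IsRk.univ_le`); inserting `(e, false)` changes only `A1`;
inserting `(e, true)` increases `|U₂|` by one and removes `e` from `A2`. -/
theorem rankFn_RR {I : Inst n} (hI : I.Ok) : RankFn (RR I) := by
  have h := rankFn_sum (rankFn_of_isRk hI.h1) (rankFn_dual hI.h2 hI.t2)
  have e : RR I = fun U : St n => I.rk1 (A1 U) + ((T2 U).card + I.rk2 (univ \ T2 U) - I.r) := by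
    funext U
    unfold RR
    rw [A2_eq]
    rfl
  rw [e]
  exact h

/-- corank and rank -/
theorem null_RR {I : Inst n} (hI : I.Ok) {U : St n} (hU : U.card = n) :
    null I U + RR I U = n := by
  unfold null RR
  have h1 := hI.h1.le_card (A1 U)
  have h2 := hI.h2.mono (A2 U) univ (subset_univ _)
  rw [hI.t2] at h2
  have h3 := hI.h2.univ_le (A2 U)
  rw [hI.t2] at h3
  have h4 := card_A1_A2 U
  have h5 : (A2 U).card + (univ.filter fun e : Fin n => (e, true) ∈ U).card = n := by
    have := card_A2 U
    rw [card_filter]
    exact this
  omega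

/-- `θ = qn⁻¹ ^ k` -/
noncomputable def thk (n k : ℕ) : ℝ := (qn n)⁻¹ ^ k

/-- the weight of the general theory -/
noncomputable def wk (I : Inst n) (k : ℕ) (U : St n) : ℝ := thk n k ^ RR I U

theorem one_le_thk (hn : 0 < n) (k : ℕ) : 1 ≤ thk n k :=
  one_le_pow₀ ((one_le_inv₀ (qn_pos hn)).2 (qn_le_one hn))

theorem lor_wk {I : Inst n} (hI : I.Ok) (hn : 0 < n) (k : ℕ) : Lor (wk I k) :=
  lor_rank (rankFn_RR hI) (one_le_thk hn k)

theorem wk_pos (I : Inst n) (hn : 0 < n) (k : ℕ) (S : St n) : 0 < wk I k S :=
  pow_pos (lt_of_lt_of_le one_pos (one_le_thk hn k)) _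

/-- `qn ^ (k null) = wk / θ ^ n` for sets with `n` elements -/
theorem wk_null {I : Inst n} (hI : I.Ok) (hn : 0 < n) (k : ℕ) {U : St n} (hU : U.card = n) :
    wk I k U = thk n k ^ n * qn n ^ (k * null I U) := by
  have hq := qn_pos hn
  have h1 : thk n k ^ null I U * qn n ^ (k * null I U) = 1 := by
    unfold thk
    rw [← pow_mul, inv_pow, inv_mul_cancel₀ (pow_ne_zero _ hq.ne')]
  have h2 : thk n k ^ n = thk n k ^ RR I U * thk n k ^ null I U := by
    rw [← pow_add]
    congr 1
    have := null_RR hI hU
    omega
  rw [h2, mul_assoc, h1, mul_one]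
  rfl

end Vale.Agent.P317R
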