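import Vale.Agent.P317R.AFPos

/-!
# P317R: sums over transversals of pairs

MODULE GF0. Ground set `ι × Bool`; the pair `j` consists of `(j, false)` and `(j, true)`.
`trs J f W = ∑ f (W ∪ S)` over all transversals `S` of the pairs `j ∈ J` (if the pairs in `J` do
not meet `W`).
-/

namespace Vale.Agent.P317R

open Finset

variable {ι : Type*} [Fintype ι] [DecidableEq ι]

/-- indicator function of the pair `j` -/
def ep (j : ι) : ι × Bool → ℝ := fun g => if g.1 = j then 1 else 0

/-- the list of the indicator functions of the pairs in `J` -/
noncomputable def eps (J : Finset ι) : List (ι × Bool → ℝ) := J.toList.map ep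

/-- sum over the transversals of the pairs in `J` -/
noncomputable def trs (J : Finset ι) (f : Finset (ι × Bool) → ℝ) : Finset (ι × Bool) → ℝ :=
  dds (eps J) f

/-- the pairs in `J` do not meet `W` -/
def Free (J : Finset ι) (W : Finset (ι × Bool)) : Prop := ∀ j ∈ J, ∀ b, (j, b) ∉ W

/-- `S` is `W` together with a transversal of the pairs in `J` -/
def IsTr (J : Finset ι) (W S : Finset (ι × Bool)) : Prop :=
  (∀ g : ι × Bool, g.1 ∉ J → (g ∈ S ↔ g ∈ W)) ∧ ∀ j ∈ J, ((j, true) ∈ S ↔ (j, false) ∉ S)

instance (J : Finset ι) (W S : Finset (ι × Bool)) : Decidable (IsTr J W S) := by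
  unfold IsTr; infer_instance

omit [Fintype ι] in
theorem ep_nonneg (j : ι) (g : ι × Bool) : 0 ≤ ep j g := by
  unfold ep; split_ifs <;> norm_num

theorem eps_nonneg (J : Finset ι) : ∀ c ∈ eps J, ∀ g, 0 ≤ c g := by
  intro c hc g
  unfold eps at hc
  obtain ⟨j, _, rfl⟩ := List.mem_map.1 hc
  exact ep_nonneg j g

theorem dd_ep (j : ι) (f : Finset (ι × Bool) → ℝ) (S : Finset (ι × Bool)) :
    dd (ep j) f S = dd (ev (j, false)) f S + dd (ev (j, true)) f S := by
  rw [← dd_add]
  congr 1
  funext g
  obtain ⟨i, b⟩ := g
  unfold ep ev
  by_cases h : i = j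
  · subst h
    cases b <;> simp
  · simp [h]

@[simp] theorem trs_empty (f : Finset (ι × Bool) → ℝ) : trs ∅ f = f := by
  unfold trs eps; simp

theorem trs_insert_dd {J : Finset ι} {j : ι} (hj : j ∉ J) (f : Finset (ι × Bool) → ℝ) :
    trs (insert j J) f = dd (ep j) (trs J f) := by
  unfold trs
  rw [← dds_cons]
  refine dds_perm ?_ f
  unfold eps
  rw [← List.map_cons]
  exact (Finset.toList_insert hj).map ep

theorem trs_erase_dd {J : Finset ι} {j : ι} (hj : j ∈ J) (f : Finset (ι × Bool) → ℝ) :
    trs J f = dd (ep j) (trs (J.erase j) f) := by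
  conv_lhs => rw [← insert_erase hj]
  exact trs_insert_dd (notMem_erase j J) f

/-- the recursion -/
theorem trs_split {J : Finset ι} {j : ι} (hj : j ∈ J) {W : Finset (ι × Bool)} (hW : Free J W)
    (f : Finset (ι × Bool) → ℝ) :
    trs J f W = trs (J.erase j) f (insert (j, false) W) +
      trs (J.erase j) f (insert (j, true) W) := by
  rw [trs_erase_dd hj, dd_ep, dd_ev, dd_ev, if_neg (hW j hj false), if_neg (hW j hj true)]

/-- `trs` as a sum over a finset of sets -/
theorem trs_eq_sum {J : Finset ι} {W : Finset (ι × Bool)} (hW : Free J W)
    (f : Finset (ι × Bool) → ℝ) :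
    trs J f W = ∑ S ∈ univ.filter (fun S => IsTr J W S), f S := by
  induction J using Finset.induction_on generalizing W with
  | empty =>
    rw [trs_empty]
    have e : univ.filter (fun S => IsTr ∅ W S) = {W} := by
      ext S
      simp only [mem_filter, mem_univ, true_and, mem_singleton]
      constructor
      · intro h
        ext g
        exact h.1 g (notMem_empty _)
      · rintro rfl
        exact ⟨fun g _ => Iff.rfl, fun j hj => absurd hj (notMem_empty j)⟩
    rw [e, sum_singleton]
  | insert j J hj ih =>
    have hfree : ∀ b, Free J (insert (j, b) W) := by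
      intro b i hi b' h
      rcases mem_insert.1 h with h | h
      · have : i = j := congrArg Prod.fst h
        exact hj (this ▸ hi)
      · exact hW i (mem_insert_of_mem hi) b' h
    have h0 := hW j (mem_insert_self j J)
    rw [trs_split (mem_insert_self j J) hW, erase_insert hj, ih (hfree false), ih (hfree true),
      ← sum_union]
    · congr 1
      ext S
      simp only [mem_union, mem_filter, mem_univ, true_and]
      constructor
      · rintro (h | h)
        · have h1 := (h.1 (j, false) hj).2 (mem_insert_self _ _)
          have h2 : (j, true) ∉ S := fun h' => by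
            have := (h.1 (j, true) hj).1 h'
            rcases mem_insert.1 this with h3 | h3
            · simp at h3
            · exact h0 true h3
          refine ⟨fun g hg => ?_, fun i hi => ?_⟩
          · rw [mem_insert, not_or] at hg
            rw [h.1 g hg.2, mem_insert]
            constructor
            · rintro (h3 | h3)
              · exact absurd (congrArg Prod.fst h3) hg.1
              · exact h3
            · exact Or.inr
          · rcases mem_insert.1 hi with rfl | hi
            · exact ⟨fun h3 => absurd h3 h2, fun h3 => absurd h1 h3⟩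
            · exact h.2 i hi
        · have h1 := (h.1 (j, true) hj).2 (mem_insert_self _ _)
          have h2 : (j, false) ∉ S := fun h' => by
            have := (h.1 (j, false) hj).1 h'
            rcases mem_insert.1 this with h3 | h3
            · simp at h3
            · exact h0 false h3
          refine ⟨fun g hg => ?_, fun i hi => ?_⟩
          · rw [mem_insert, not_or] at hg
            rw [h.1 g hg.2, mem_insert]
            constructor
            · rintro (h3 | h3)
              · exact absurd (congrArg Prod.fst h3) hg.1
              · exact h3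
            · exact Or.inr
          · rcases mem_insert.1 hi with rfl | hi
            · exact ⟨fun _ => h2, fun _ => h1⟩
            · exact h.2 i hi
      · intro h
        have hj' := h.2 j (mem_insert_self j J)
        by_cases h1 : (j, true) ∈ S
        · right
          refine ⟨fun g hg => ?_, fun i hi => h.2 i (mem_insert_of_mem hi)⟩
          obtain ⟨i, b⟩ := g
          by_cases hi : i = j
          · subst hi
            cases b
            · simp only [mem_insert, Prod.mk.injEq, true_and, Bool.false_eq_true, false_or]
              exact ⟨fun h3 => absurd h3 (hj'.1 h1), fun h3 => absurd h3 (h0 false)⟩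
            · simp [h1]
          · rw [h.1 (i, b) (by rw [mem_insert, not_or]; exact ⟨hi, hg⟩), mem_insert]
            constructor
            · exact Or.inr
            · rintro (h3 | h3)
              · exact absurd (congrArg Prod.fst h3) hi
              · exact h3
        · left
          have h2 : (j, false) ∈ S := by
            by_contra h3
            exact h1 (hj'.2 h3)
          refine ⟨fun g hg => ?_, fun i hi => h.2 i (mem_insert_of_mem hi)⟩
          obtain ⟨i, b⟩ := g
          by_cases hi : i = j
          · subst hi
            cases b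
            · simp [h2]
            · simp only [mem_insert, Prod.mk.injEq, true_and, Bool.true_eq_false, false_or]
              exact ⟨fun h3 => absurd h3 h1, fun h3 => absurd h3 (h0 true)⟩
          · rw [h.1 (i, b) (by rw [mem_insert, not_or]; exact ⟨hi, hg⟩), mem_insert]
            constructor
            · exact Or.inr
            · rintro (h3 | h3)
              · exact absurd (congrArg Prod.fst h3) hi
              · exact h3
    · rw [disjoint_left]
      intro S h1 h2
      rw [mem_filter] at h1 h2
      have h3 := (h1.2.1 (j, false) hj).2 (mem_insert_self _ _)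
      have h4 := (h2.2.1 (j, false) hj).1 h3
      rcases mem_insert.1 h4 with h5 | h5
      · simp at h5
      · exact h0 false h5

theorem trs_congr {J : Finset ι} {W : Finset (ι × Bool)} (hW : Free J W)
    {f f' : Finset (ι × Bool) → ℝ} (h : ∀ S, IsTr J W S → f S = f' S) :
    trs J f W = trs J f' W := by
  rw [trs_eq_sum hW, trs_eq_sum hW]
  exact sum_congr rfl fun S hS => h S (mem_filter.1 hS).2

/-- shift of the base point; `a` is not in a pair of `J` -/
theorem trs_shift {J : Finset ι} {a : ι × Bool} (ha : a.1 ∉ J) (f : Finset (ι × Bool) → ℝ)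
    (W : Finset (ι × Bool)) :
    trs J f (insert a W) = trs J (fun S => f (insert a S)) W := by
  have key : ∀ j : ι, a.1 ≠ j → ∀ (F : Finset (ι × Bool) → ℝ) (W : Finset (ι × Bool)),
      dd (ep j) F (insert a W) = dd (ep j) (fun S => F (insert a S)) W := by
    intro j haj F W
    have h1 : ∀ b, ((j, b) ∈ insert a W ↔ (j, b) ∈ W) := by
      intro b
      rw [mem_insert]
      constructor
      · rintro (h | h)
        · exact absurd (congrArg Prod.fst h).symm haj
        · exact h
      · exact Or.inr
    rw [dd_ep, dd_ep, dd_ev, dd_ev, dd_ev, dd_ev]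
    simp only [h1, Finset.insert_comm a]
  induction J using Finset.induction_on generalizing W with
  | empty => rw [trs_empty, trs_empty]
  | insert j J hj ih =>
    rw [mem_insert, not_or] at ha
    rw [trs_insert_dd hj, trs_insert_dd hj, key j ha.1]
    congr 1
    funext S
    exact ih ha.2 S

theorem trs_add (J : Finset ι) (f f' : Finset (ι × Bool) → ℝ) (W : Finset (ι × Bool)) :
    trs J (fun S => f S + f' S) W = trs J f W + trs J f' W := dds_add_fun _ _ _ _

theorem trs_smul (J : Finset ι) (a : ℝ) (f : Finset (ι × Bool) → ℝ) (W : Finset (ι × Bool)) :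
    trs J (fun S => a * f S) W = a * trs J f W := dds_smul_fun _ _ _ _

theorem trs_sub (J : Finset ι) (f f' : Finset (ι × Bool) → ℝ) (W : Finset (ι × Bool)) :
    trs J (fun S => f S - f' S) W = trs J f W - trs J f' W := by
  have h := trs_add J f (fun S => (-1) * f' S) W
  rw [trs_smul] at h
  have e : (fun S => f S + (-1) * f' S) = fun S => f S - f' S := by funext S; ring
  rw [e] at h
  linarith

theorem trs_nonneg {J : Finset ι} {f : Finset (ι × Bool) → ℝ} (hf : ∀ S, 0 ≤ f S)
    (W : Finset (ι × Bool)) : 0 ≤ trs J f W :=
  dds_nonneg (eps_nonneg J) hf W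

theorem trs_mono {J : Finset ι} {f f' : Finset (ι × Bool) → ℝ} (h : ∀ S, f S ≤ f' S)
    (W : Finset (ι × Bool)) : trs J f W ≤ trs J f' W := by
  have := trs_nonneg (J := J) (f := fun S => f' S - f S) (fun S => sub_nonneg.2 (h S)) W
  rw [trs_sub] at this
  linarith

/-- monotonicity on the transversals only -/
theorem trs_mono' {J : Finset ι} {W : Finset (ι × Bool)} (hW : Free J W)
    {f f' : Finset (ι × Bool) → ℝ} (h : ∀ S, IsTr J W S → f S ≤ f' S) :
    trs J f W ≤ trs J f' W := by
  rw [trs_eq_sum hW, trs_eq_sum hW]
  exact sum_le_sum fun S hS => h S (mem_filter.1 hS).2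

/-- strict positivity -/
theorem trs_pos {J : Finset ι} {W : Finset (ι × Bool)} (hW : Free J W)
    {f : Finset (ι × Bool) → ℝ} (hf : ∀ S, 0 < f S) : 0 < trs J f W := by
  induction J using Finset.induction_on generalizing W with
  | empty => rw [trs_empty]; exact hf W
  | insert j J hj ih =>
    have hfree : ∀ b, Free J (insert (j, b) W) := by
      intro b i hi b' h
      rcases mem_insert.1 h with h | h
      · have : i = j := congrArg Prod.fst h
        exact hj (this ▸ hi)
      · exact hW i (mem_insert_of_mem hi) b' h
    rw [trs_split (mem_insert_self j J) hW, erase_insert hj]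
    exact add_pos (ih (hfree false)) (ih (hfree true))

/-- Cauchy-Schwarz: `(∑ w f)² ≤ (∑ w) (∑ w f²)` -/
theorem trs_cs {J : Finset ι} {W : Finset (ι × Bool)} (hW : Free J W)
    {w : Finset (ι × Bool) → ℝ} (hw : ∀ S, 0 ≤ w S) (f : Finset (ι × Bool) → ℝ) :
    trs J (fun S => w S * f S) W ^ 2 ≤ trs J w W * trs J (fun S => w S * f S ^ 2) W := by
  rw [trs_eq_sum hW, trs_eq_sum hW, trs_eq_sum hW]
  refine Finset.sum_sq_le_sum_mul_sum_of_sq_le_mul _ (fun S _ => hw S)
    (fun S _ => mul_nonneg (hw S) (sq_nonneg _)) (fun S _ => le_of_eq ?_)
  ring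

/-- exchange with the sum over a finite index set -/
theorem trs_sum {κ : Type*} (A : Finset κ) (J : Finset ι) (f : κ → Finset (ι × Bool) → ℝ)
    (W : Finset (ι × Bool)) :
    trs J (fun S => ∑ k ∈ A, f k S) W = ∑ k ∈ A, trs J (f k) W := by
  classical
  induction A using Finset.induction_on with
  | empty =>
    simp only [sum_empty]
    have := trs_smul J 0 (fun _ => 0) W
    simpa using this
  | insert k A hk ih =>
    simp only [sum_insert hk]
    rw [trs_add, ih]

end Vale.Agent.P317R
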