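import Vale.Agent.P317R.Steps
import Vale.Agent.P317R.TrBase

/-!
# P317R: transversals and states

MODULE GL2.
-/

namespace Vale.Agent.P317R

open Finset

variable {n : ℕ}

theorem ft_npair (S : St n) (e : Fin n) :
    npair S e = 1 ↔ ((e, true) ∈ S ↔ (e, false) ∉ S) := by
  unfold npair
  by_cases h1 : (e, false) ∈ S <;> by_cases h2 : (e, true) ∈ S <;> simp [h1, h2]

theorem ft_npair_two (S : St n) (e : Fin n) :
    npair S e = 2 ↔ ((e, true) ∈ S ∧ (e, false) ∈ S) := by
  unfold npair
  by_cases h1 : (e, false) ∈ S <;> by_cases h2 : (e, true) ∈ S <;> simp [h1, h2]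

theorem ft_npair_zero (S : St n) (e : Fin n) :
    npair S e = 0 ↔ ((e, true) ∉ S ∧ (e, false) ∉ S) := by
  unfold npair
  by_cases h1 : (e, false) ∈ S <;> by_cases h2 : (e, true) ∈ S <;> simp [h1, h2]

/-- the perfect states are the transversals -/
theorem isTr_perf (S : St n) : IsTr univ ∅ S ↔ Perf S := by
  unfold IsTr Perf
  simp only [ft_npair]
  constructor
  · intro h e
    exact h.2 e (mem_univ e)
  · intro h
    exact ⟨fun g hg => absurd (mem_univ _) hg, fun j _ => h j⟩

/-- the sum over all transversals -/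
theorem trs_univ (f : St n → ℝ) : trs univ f ∅ = ∑ B ∈ peS n, f B := by
  rw [trs_eq_sum (fun j _ b => notMem_empty _)]
  refine sum_congr ?_ fun _ _ => rfl
  ext S
  rw [mem_filter, mem_peS, isTr_perf]
  simp

/-- the states of a class and the transversals of the remaining pairs -/
theorem ft_cls {i j : Fin n} (hij : i ≠ j) (B : St n) :
    Cls (i, j) B ↔ (i, false) ∈ B ∧ (i, true) ∈ B ∧
      IsTr ((univ.erase i).erase j) ∅ ((B.erase (i, false)).erase (i, true)) := by
  unfold Cls
  rw [ft_npair_two, ft_npair_zero]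
  simp only [ft_npair]
  constructor
  · rintro ⟨⟨h1, h2⟩, ⟨h3, h4⟩, h5⟩
    refine ⟨h2, h1, ?_, ?_⟩
    · rintro ⟨e, b⟩ he
      have he' : e = i ∨ e = j := by
        by_contra hc
        rw [not_or] at hc
        exact he (mem_erase.2 ⟨hc.2, mem_erase.2 ⟨hc.1, mem_univ _⟩⟩)
      simp only [notMem_empty, iff_false, mem_erase, not_and]
      intro h6 h7
      rcases he' with rfl | rfl
      · cases b
        · exact absurd rfl h7
        · exact absurd rfl h6
      · cases b
        · exact h4
        · exact h3
    · intro e he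
      rw [mem_erase, mem_erase] at he
      have := h5 e he.2.1 he.1
      have hei : e ≠ i := he.2.1
      simp only [mem_erase, ne_eq, Prod.mk.injEq, hei, false_and, not_false_eq_true, true_and]
      exact this
  · rintro ⟨h1, h2, h3, h4⟩
    refine ⟨⟨h2, h1⟩, ?_, ?_⟩
    · have k1 := h3 (j, true) (by simp)
      have k2 := h3 (j, false) (by simp)
      have hji : j ≠ i := hij.symm
      simp only [notMem_empty, iff_false, mem_erase, ne_eq, Prod.mk.injEq, hji, false_and,
        not_false_eq_true, true_and] at k1 k2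
      exact ⟨k1, k2⟩
    · intro e he1 he2
      have k := h4 e (mem_erase.2 ⟨he2, mem_erase.2 ⟨he1, mem_univ _⟩⟩)
      have hei : e ≠ i := he1
      simp only [mem_erase, ne_eq, Prod.mk.injEq, hei, false_and, not_false_eq_true,
        true_and] at k
      exact k

/-- the class with the pair `i` double and the pair `j` empty -/
theorem trs_cls (f : St n → ℝ) {i j : Fin n} (hij : i ≠ j) :
    trs ((univ.erase i).erase j) (fun S => f (insert (i, false) (insert (i, true) S))) ∅ =
      ∑ B ∈ clS n (some (i, j)), f B := by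
  rw [trs_eq_sum (fun j _ b => notMem_empty _)]
  have hi : ∀ S : St n, IsTr ((univ.erase i).erase j) ∅ S → ∀ b, (i, b) ∉ S := by
    intro S hS b h
    have := (hS.1 (i, b) (by simp)).1 h
    exact notMem_empty _ this
  have hback : ∀ S : St n, IsTr ((univ.erase i).erase j) ∅ S →
      ((insert (i, false) (insert (i, true) S)).erase (i, false)).erase (i, true) = S := by
    intro S hS
    rw [erase_insert, erase_insert (hi S hS true)]
    rw [mem_insert, not_or]
    exact ⟨by simp, hi S hS false⟩
  refine sum_nbij' (fun S => insert (i, false) (insert (i, true) S))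
    (fun B => (B.erase (i, false)).erase (i, true)) ?_ ?_ ?_ ?_ ?_
  · intro S hS
    have hS' := (mem_filter.1 hS).2
    unfold clS
    rw [mem_filter]
    refine ⟨mem_univ _, (ft_cls hij _).2 ⟨mem_insert_self _ _, ?_, ?_⟩⟩
    · exact mem_insert_of_mem (mem_insert_self _ _)
    · rw [hback S hS']
      exact hS'
  · intro B hB
    unfold clS at hB
    exact mem_filter.2 ⟨mem_univ _, ((ft_cls hij B).1 (mem_filter.1 hB).2).2.2⟩
  · intro S hS
    exact hback S (mem_filter.1 hS).2
  · intro B hB
    unfold clS at hB
    obtain ⟨h1, h2, -⟩ := (ft_cls hij B).1 (mem_filter.1 hB).2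
    rw [insert_erase, insert_erase h1]
    exact mem_erase.2 ⟨by simp, h2⟩
  · intro S _
    rfl

end Vale.Agent.P317R
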