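import Vale.Agent.P317R.PoinStep

/-!
# P317R: Theorem P

MODULE TP3.
-/

namespace Vale.Agent.P317R

open Finset

variable {ι : Type*} [Fintype ι] [DecidableEq ι]

theorem tp3_pinned {J : Finset ι} {W : Finset (ι × Bool)} (hW : Pinned J W) {i : ι}
    (hi : i ∈ J) (c : Bool) : Pinned (J.erase i) (insert (i, c) W) := by
  have hf := hW.free
  constructor
  · intro g hg
    have hgK : g.1 ∈ J.erase i := by
      by_contra h
      exact hg (by simp only [mem_sdiff, mem_univ, true_and]; exact h)
    have hgi : g.1 ≠ i := Finset.ne_of_mem_erase hgK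
    have hgJ : g.1 ∈ J := Finset.mem_of_mem_erase hgK
    have hgW : g ∉ W := hf g.1 hgJ g.2
    have hne : g ≠ (i, c) := fun h => hgi (by rw [h])
    simp [hne, hgW]
  · intro j hj
    have hjK : j ∉ J.erase i := by
      simp only [mem_sdiff, mem_univ, true_and] at hj
      exact hj
    by_cases hji : j = i
    · subst hji
      have h1 := hf j hi true
      have h2 := hf j hi false
      cases c <;> simp [h1, h2]
    · have hjJ : j ∉ J := fun h => hjK (Finset.mem_erase.mpr ⟨hji, h⟩)
      have := hW.2 j (by simp [hjJ])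
      have e1 : ((j, true) : ι × Bool) ≠ (i, c) := fun h => hji (congrArg Prod.fst h)
      have e2 : ((j, false) : ι × Bool) ≠ (i, c) := fun h => hji (congrArg Prod.fst h)
      simp only [mem_insert, e1, e2, false_or]
      exact this

theorem tp3_alg {Nx Ny Mx My Qx Qy : ℝ} (hx : 0 < Nx) (hy : 0 < Ny) :
    (Qx + Qy) - (Mx + My) ^ 2 / (Nx + Ny) =
      (Qx - Mx ^ 2 / Nx) + (Qy - My ^ 2 / Ny) +
        Nx * Ny / (Nx + Ny) * (Mx / Nx - My / Ny) ^ 2 := by
  have h : Nx + Ny ≠ 0 := by positivity
  field_simp
  ring

/-- TP3: induction on the number of pairs in `J`: choose the root `i` by `exists_root_omega`; both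
children `(J.erase i, W + x)`, `(J.erase i, W + y)` are pinned, their costs for `l ≠ i` add up to
`Cost J wt g h W l` (`trs_split`), and
`Vn J W = Vn (J.erase i) (W + x) + Vn (J.erase i) (W + y) + N_x N_y / (N_x + N_y) (E_x - E_y)²`. -/
theorem poincare_rec {w wt : Finset (ι × Bool) → ℝ} {ω : ι → ι → ℝ} (hw : ∀ S, 0 < w S)
    (hL : Lor w) (hwt : WtOK w wt ω)
    (hω : ∀ i j, i ≠ j → trs univ w ∅ ≤ 4 * (ω j i * Zc univ w ∅ j i))
    (g h : Finset (ι × Bool) → ℝ) (J : Finset ι) (W : Finset (ι × Bool)) (hW : Pinned J W) :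
    Vn J w g W ≤ 24 * Fintype.card ι * ∑ i ∈ J, Cost J wt g h W i := by
  induction hn : J.card generalizing J W with
  | zero =>
    rw [Finset.card_eq_zero] at hn
    subst hn
    have h0 := (hw W).ne'
    simp only [Vn, Mn, trs_empty, sum_empty, mul_zero]
    apply le_of_eq
    field_simp
    ring
  | succ n ih =>
    have hJ : J.Nonempty := by
      rw [← Finset.card_pos]
      omega
    obtain ⟨i, hi, hroot⟩ := exists_root_omega hw hL ω hω hJ hW.free
    have hcard : (J.erase i).card = n := by
      rw [Finset.card_erase_of_mem hi]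
      omega
    have hWx := tp3_pinned hW hi false
    have hWy := tp3_pinned hW hi true
    have ihx := ih (J.erase i) _ hWx hcard
    have ihy := ih (J.erase i) _ hWy hcard
    have hNx : 0 < trs (J.erase i) w (insert (i, false) W) := trs_pos hWx.free hw
    have hNy : 0 < trs (J.erase i) w (insert (i, true) W) := trs_pos hWy.free hw
    have hstep := poincare_step hw hL hwt g h hW hi hroot _ _ rfl rfl
    have hV : Vn J w g W = Vn (J.erase i) w g (insert (i, false) W) +
        Vn (J.erase i) w g (insert (i, true) W) +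
        trs (J.erase i) w (insert (i, false) W) * trs (J.erase i) w (insert (i, true) W) /
          (trs (J.erase i) w (insert (i, false) W) + trs (J.erase i) w (insert (i, true) W)) *
          (Mn (J.erase i) w g (insert (i, false) W) / trs (J.erase i) w (insert (i, false) W) -
            Mn (J.erase i) w g (insert (i, true) W) /
              trs (J.erase i) w (insert (i, true) W)) ^ 2 := by
      have h1 := trs_split hi hW.free w
      have h2 := trs_split hi hW.free (fun S => w S * g S ^ 2)
      have h3 : Mn J w g W = Mn (J.erase i) w g (insert (i, false) W) +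
          Mn (J.erase i) w g (insert (i, true) W) := trs_split hi hW.free (fun S => w S * g S)
      rw [Vn, h1, h2, h3, tp3_alg hNx hNy]
      rfl
    have hC : ∀ l ∈ J.erase i, Cost J wt g h W l =
        Cost (J.erase i) wt g h (insert (i, false) W) l +
          Cost (J.erase i) wt g h (insert (i, true) W) l := by
      intro l hl
      have hli : l ≠ i := Finset.ne_of_mem_erase hl
      have hil : i ∈ J.erase l := Finset.mem_erase.mpr ⟨hli.symm, hi⟩
      have hfree : Free (J.erase l) W := fun j hj b => hW.free j (Finset.mem_of_mem_erase hj) b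
      have := trs_split hil hfree (nodeCost wt g h)
      rw [Cost, Cost, Cost, this, Finset.erase_right_comm]
    have hsum : ∑ l ∈ J, Cost J wt g h W l = Cost J wt g h W i +
        (∑ l ∈ J.erase i, Cost (J.erase i) wt g h (insert (i, false) W) l +
          ∑ l ∈ J.erase i, Cost (J.erase i) wt g h (insert (i, true) W) l) := by
      rw [← Finset.add_sum_erase J _ hi, Finset.sum_congr rfl hC, Finset.sum_add_distrib]
    rw [hV, hsum, mul_add, mul_add]
    linarith

/-- Theorem P -/
theorem theoremP {w wt : Finset (ι × Bool) → ℝ} {ω : ι → ι → ℝ} (hw : ∀ S, 0 < w S)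
    (hL : Lor w) (hwt : WtOK w wt ω)
    (hω : ∀ i j, i ≠ j → trs univ w ∅ ≤ 4 * (ω j i * Zc univ w ∅ j i))
    (g h : Finset (ι × Bool) → ℝ) :
    Vn univ w g ∅ ≤ 24 * Fintype.card ι * ∑ i, Cost univ wt g h ∅ i := by
  refine poincare_rec hw hL hwt hω g h univ ∅ ⟨fun g _ => Iff.rfl, fun j hj => ?_⟩
  simp at hj

end Vale.Agent.P317R
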