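import Vale.Agent.P317R.CostNear

/-!
# P317R: the means over the near-perfect classes (Theorem Q)

MODULE TQ.
-/

namespace Vale.Agent.P317R

open Finset

variable {ι : Type*} [Fintype ι] [DecidableEq ι]

/-- weighted sum of `g` over the class with the pair `j` double and the pair `i` empty -/
noncomputable def Mc (w g : Finset (ι × Bool) → ℝ) (j i : ι) : ℝ :=
  trs ((univ.erase j).erase i) (fun S => w (insert (j, false) (insert (j, true) S)) *
    g (insert (j, false) (insert (j, true) S))) ∅

omit [Fintype ι] [DecidableEq ι] in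
theorem tq_free (J : Finset ι) : Free J (∅ : Finset (ι × Bool)) := fun _ _ _ => by simp

omit [Fintype ι] [DecidableEq ι] in
/-- elements of a pair outside of `J` are not in a transversal of `J` -/
theorem tq_notMem {J : Finset ι} {S : Finset (ι × Bool)} (hS : IsTr J ∅ S) {j : ι} (hj : j ∉ J)
    (b : Bool) : (j, b) ∉ S := by
  rw [hS.1 (j, b) hj]
  simp

theorem tq_split {K : Finset ι} {j : ι} (hj : j ∈ K) (f : Finset (ι × Bool) → ℝ) :
    trs K f ∅ = trs (K.erase j) (fun S => f (insert (j, false) S) + f (insert (j, true) S)) ∅ := by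
  have hn : j ∉ K.erase j := Finset.notMem_erase j K
  rw [trs_split hj (tq_free K) f, trs_shift (a := (j, false)) hn, trs_shift (a := (j, true)) hn,
    trs_add]

/-- the sum over the perfect states -/
theorem tq_perf {i : ι} (w f : Finset (ι × Bool) → ℝ) (h : Finset (ι × Bool) → ℝ) :
    trs univ (fun B => w B * (f B - h ((B.erase (i, false)).erase (i, true)))) ∅ =
      trs (univ.erase i) (fun S => w (insert (i, false) S) * (f (insert (i, false) S) - h S) +
        w (insert (i, true) S) * (f (insert (i, true) S) - h S)) ∅ := by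
  rw [tq_split (mem_univ i)]
  apply trs_congr (tq_free _)
  intro S hS
  have h1 := tq_notMem hS (Finset.notMem_erase i univ) false
  have h2 := tq_notMem hS (Finset.notMem_erase i univ) true
  have e1 : ((insert (i, false) S).erase (i, false)).erase (i, true) = S := by
    rw [Finset.erase_insert h1, Finset.erase_eq_of_notMem h2]
  have e2 : ((insert (i, true) S).erase (i, false)).erase (i, true) = S := by
    have : (i, false) ∉ insert (i, true) S := by simp [h1]
    rw [Finset.erase_eq_of_notMem this, Finset.erase_insert h2]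
  rw [e1, e2]

theorem tq_perf2 {i : ι} (w f : Finset (ι × Bool) → ℝ) (h : Finset (ι × Bool) → ℝ) :
    trs univ (fun B => w B * (f B - h ((B.erase (i, false)).erase (i, true))) ^ 2) ∅ =
      trs (univ.erase i) (fun S => w (insert (i, false) S) * (f (insert (i, false) S) - h S) ^ 2 +
        w (insert (i, true) S) * (f (insert (i, true) S) - h S) ^ 2) ∅ := by
  rw [tq_split (mem_univ i)]
  apply trs_congr (tq_free _)
  intro S hS
  have h1 := tq_notMem hS (Finset.notMem_erase i univ) false
  have h2 := tq_notMem hS (Finset.notMem_erase i univ) true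
  have e1 : ((insert (i, false) S).erase (i, false)).erase (i, true) = S := by
    rw [Finset.erase_insert h1, Finset.erase_eq_of_notMem h2]
  have e2 : ((insert (i, true) S).erase (i, false)).erase (i, true) = S := by
    have : (i, false) ∉ insert (i, true) S := by simp [h1]
    rw [Finset.erase_eq_of_notMem this, Finset.erase_insert h2]
  rw [e1, e2]

/-- derivative in the direction of the empty pair -/
theorem tq_dd_empty {i : ι} (w h : Finset (ι × Bool) → ℝ) :
    trs (univ.erase i) (fun S => dd (ep i) w S * h S) ∅ =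
      trs (univ.erase i) (fun S => w (insert (i, false) S) * h S +
        w (insert (i, true) S) * h S) ∅ := by
  apply trs_congr (tq_free _)
  intro S hS
  have h1 := tq_notMem hS (Finset.notMem_erase i univ) false
  have h2 := tq_notMem hS (Finset.notMem_erase i univ) true
  rw [dd_ep, dd_ev, dd_ev, if_neg h1, if_neg h2]
  ring

/-- derivative in the direction of a pair of the transversal -/
theorem tq_dd_mem {K : Finset ι} {j : ι} (hj : j ∈ K) (w h : Finset (ι × Bool) → ℝ) :
    trs K (fun S => dd (ep j) w S * h S) ∅ =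
      trs (K.erase j) (fun S => w (insert (j, false) (insert (j, true) S)) *
        (h (insert (j, false) S) + h (insert (j, true) S))) ∅ := by
  rw [tq_split hj]
  apply trs_congr (tq_free _)
  intro S hS
  have h1 := tq_notMem hS (Finset.notMem_erase j K) false
  have h2 := tq_notMem hS (Finset.notMem_erase j K) true
  have h3 : (j, true) ∉ insert (j, false) S := by simp [h2]
  have h4 : (j, false) ∉ insert (j, true) S := by simp [h1]
  rw [dd_ep, dd_ev, dd_ev, dd_ep, dd_ev, dd_ev, if_pos (mem_insert_self _ _), if_neg h3,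
    if_neg h4, if_pos (mem_insert_self _ _), Finset.insert_comm (j, true) (j, false)]
  ring

/-- the part of the cost from the class `(j, i)` -/
theorem tq_near {w wt : Finset (ι × Bool) → ℝ} {ω : ι → ι → ℝ} (hwt : WtOK w wt ω)
    (g h : Finset (ι × Bool) → ℝ) {i j : ι} (hij : i ≠ j) :
    ω j i * trs ((univ.erase i).erase j) (fun S => w (insert (j, false) (insert (j, true) S)) *
      ((g (insert (j, false) (insert (j, true) S)) - h (insert (j, false) S)) ^ 2 +
        (g (insert (j, false) (insert (j, true) S)) - h (insert (j, true) S)) ^ 2)) ∅ ≤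
      Cost univ wt g h ∅ i := by
  have hj : j ∈ univ.erase i := Finset.mem_erase.mpr ⟨hij.symm, mem_univ j⟩
  rw [Cost, tq_split hj, ← trs_smul]
  apply trs_mono' (tq_free _)
  intro S hS
  have h1 := tq_notMem hS (Finset.notMem_erase j _) false
  have h2 := tq_notMem hS (Finset.notMem_erase j _) true
  have h3 : (j, true) ∉ insert (j, false) S := by simp [h2]
  have h4 : (j, false) ∉ insert (j, true) S := by simp [h1]
  have hn : ∀ (T : Finset (ι × Bool)) (c : ι × Bool), c ∉ T →
      wt (insert c T) * (g (insert c T) - h T) ^ 2 ≤ nodeCost wt g h T := by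
    intro T c hc
    unfold nodeCost
    have h0 : ∀ d ∈ (univ : Finset (ι × Bool)), 0 ≤ (if d ∈ T then 0 else
        wt (insert d T) * (g (insert d T) - h T) ^ 2 : ℝ) := by
      intro d _
      split_ifs
      · exact le_rfl
      · exact mul_nonneg (hwt.nonneg _) (sq_nonneg _)
    have := Finset.single_le_sum h0 (mem_univ c)
    simpa [hc] using this
  have n1 := hn _ _ h3
  have n2 := hn _ _ h4
  have e := hwt.near i j hij S hS
  rw [Finset.insert_comm (j, true) (j, false)] at n1
  rw [e] at n1 n2
  refine (le_of_eq ?_).trans (add_le_add n1 n2)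
  ring

theorem tq_num {N n x y z A B P C : ℝ} (hN : 0 < N)
    (hQ1 : N * x ^ 2 ≤ (n - 1) * (8 * A)) (hQ2 : N * y ^ 2 ≤ 2 * B) (hQ3 : N * z ^ 2 ≤ P)
    (hA : 0 ≤ A) (hP : 0 ≤ P) (hAP : A + P ≤ C) (hB : B ≤ C) (hn2 : 2 ≤ n) :
    N * (x + y - z) ^ 2 ≤ 33 * n * C := by
  have hC : 0 ≤ C := by linarith
  have h1 : (x + y - z) ^ 2 ≤ 3 * (x ^ 2 + y ^ 2 + z ^ 2) := by
    nlinarith [sq_nonneg (x - y), sq_nonneg (y + z), sq_nonneg (x + z)]
  have h2 : N * (x + y - z) ^ 2 ≤ 3 * (N * x ^ 2 + N * y ^ 2 + N * z ^ 2) := by
    have := mul_le_mul_of_nonneg_left h1 hN.le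
    linarith
  have h3 : (n - 1) * (8 * A) ≤ (n - 1) * (8 * C) := by
    apply mul_le_mul_of_nonneg_left _ (by linarith)
    linarith
  have h4 : P ≤ C := by linarith
  nlinarith [mul_nonneg (by linarith : (0 : ℝ) ≤ n) hC]

/-- Theorem Q. With `K = univ.erase i`, `N = trs univ w ∅`, `Z = Zc univ w ∅ j i`:
`N (E_D g - E_P g)² ≤ 3 N [(E_D h̄ - E_P h̄)² + (E_D (g - h̄))² + (E_P (g - h̄))²]`, where
`E_D h̄ = trs K (dd (ep j) w * h) / (2 Z)`, `E_P h̄ = trs K (dd (ep i) w * h) / N`;
the first term by `gf_class` and `Z(j,l) / Z(j,i) ≤ N / Z(l,i) ≤ 4 ω l i` (`cyc3`, hypothesis `hω`)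
and `cost_near`, the others by Cauchy-Schwarz (`trs_cs`) and `N / Z ≤ 4 ω j i`. -/
theorem theoremQ {w wt : Finset (ι × Bool) → ℝ} {ω : ι → ι → ℝ} (hw : ∀ S, 0 < w S)
    (hL : Lor w) (hwt : WtOK w wt ω)
    (hω : ∀ i j, i ≠ j → trs univ w ∅ ≤ 4 * (ω j i * Zc univ w ∅ j i))
    (g h : Finset (ι × Bool) → ℝ) {i j : ι} (hij : i ≠ j) :
    trs univ w ∅ * (Mc w g j i / Zc univ w ∅ j i - Mn univ w g ∅ / trs univ w ∅) ^ 2 ≤
      33 * Fintype.card ι * Cost univ wt g h ∅ i := by
  have hj : j ∈ univ.erase i := Finset.mem_erase.mpr ⟨hij.symm, mem_univ j⟩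
  have hLe : (univ.erase j).erase i = (univ.erase i).erase j := Finset.erase_right_comm
  set N := trs univ w ∅ with hNdef
  set Z := Zc univ w ∅ j i with hZdef
  have hN : 0 < N := trs_pos (tq_free _) hw
  have hZ' : Z = trs ((univ.erase i).erase j)
      (fun S => w (insert (j, false) (insert (j, true) S))) ∅ := by
    rw [hZdef, Zc, hLe]
  have hZ : 0 < Z := by
    rw [hZ']
    exact trs_pos (tq_free _) (fun S => hw _)
  have hNZ : N ≤ 4 * (ω j i * Z) := hω i j hij
  -- the two averages of `h`
  set HD := trs ((univ.erase i).erase j) (fun S => w (insert (j, false) (insert (j, true) S)) *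
        (h (insert (j, false) S) + h (insert (j, true) S))) ∅ with hHD
  set HP := trs (univ.erase i) (fun S => w (insert (i, false) S) * h S +
        w (insert (i, true) S) * h S) ∅ with hHP
  -- first term
  have t1 := gf_class hw hL (tq_free univ) (mem_univ i) (mem_univ j) hij h N Z rfl rfl
  rw [tq_dd_mem hj, tq_dd_empty, ← hHD, ← hHP] at t1
  set A := ∑ l ∈ univ.erase i, ω l i * En ((univ.erase i).erase l) w h ∅ l / 2 with hAdef
  have hEn : ∀ l, 0 ≤ En ((univ.erase i).erase l) w h ∅ l := fun l => En_nonneg _ hw h ∅ l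
  have hA : 0 ≤ A := Finset.sum_nonneg (fun l _ =>
    div_nonneg (mul_nonneg (hwt.omega_nonneg _ _) (hEn l)) (by norm_num))
  have hcard : ((univ.erase i).card : ℝ) = (Fintype.card ι : ℝ) - 1 := by
    rw [Finset.card_erase_of_mem (mem_univ i), Finset.card_univ, Nat.cast_sub, Nat.cast_one]
    exact Fintype.card_pos_iff.mpr ⟨i⟩
  have hn2 : (2 : ℝ) ≤ Fintype.card ι := by
    have : 1 < Fintype.card ι := Fintype.one_lt_card_iff.mpr ⟨i, j, hij⟩
    exact_mod_cast this
  have hQ1 : N * (HD / (2 * Z) - HP / N) ^ 2 ≤ ((Fintype.card ι : ℝ) - 1) * (8 * A) := by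
    have h1 := mul_le_mul_of_nonneg_left t1 hN.le
    refine h1.trans ?_
    rw [hcard]
    have h2 : N * (1 / (4 * Z) * En ((univ.erase i).erase j) w h ∅ j +
        ∑ l ∈ (univ.erase i).erase j, Zc univ w ∅ j l / (Z * N) *
          En ((univ.erase i).erase l) w h ∅ l) ≤ 8 * A := by
      have hA' : 8 * A = 4 * (ω j i * En ((univ.erase i).erase j) w h ∅ j) +
          ∑ l ∈ (univ.erase i).erase j, 4 * (ω l i * En ((univ.erase i).erase l) w h ∅ l) := by
        rw [hAdef, ← Finset.add_sum_erase _ _ hj, mul_add, Finset.mul_sum]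
        congr 1
        · ring
        · apply Finset.sum_congr rfl
          intro l _
          ring
      rw [hA', mul_add, Finset.mul_sum]
      apply add_le_add
      · have e : N * (1 / (4 * Z) * En ((univ.erase i).erase j) w h ∅ j) =
            (N / (4 * Z)) * En ((univ.erase i).erase j) w h ∅ j := by ring
        rw [e]
        have h3 : N / (4 * Z) ≤ ω j i := by
          rw [div_le_iff₀ (by positivity)]
          linarith
        have h4 := mul_le_mul_of_nonneg_right h3 (hEn j)
        have h5 := mul_nonneg (hwt.omega_nonneg j i) (hEn j)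
        linarith
      · apply Finset.sum_le_sum
        intro l hl
        have hlj : l ≠ j := Finset.ne_of_mem_erase hl
        have hli : l ≠ i := Finset.ne_of_mem_erase (Finset.mem_of_mem_erase hl)
        have hc := cyc3 hw hL (tq_free univ) (mem_univ l) (mem_univ i) (mem_univ j) hli hlj hij
        rw [← hNdef, ← hZdef] at hc
        have hZl : 0 < Zc univ w ∅ l i := trs_pos (tq_free _) (fun S => hw _)
        have hZjl : 0 < Zc univ w ∅ j l := trs_pos (tq_free _) (fun S => hw _)
        have hwl := hω i l hli.symm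
        have e : N * (Zc univ w ∅ j l / (Z * N) * En ((univ.erase i).erase l) w h ∅ l) =
            (Zc univ w ∅ j l / Z) * En ((univ.erase i).erase l) w h ∅ l := by
          field_simp
        rw [e]
        have h3 : Zc univ w ∅ j l / Z ≤ 4 * ω l i := by
          rw [div_le_iff₀ hZ]
          have h6 : Zc univ w ∅ j l * Zc univ w ∅ l i ≤
              (4 * ω l i * Z) * Zc univ w ∅ l i := by
            calc Zc univ w ∅ j l * Zc univ w ∅ l i ≤ N * Z := hc
              _ ≤ 4 * (ω l i * Zc univ w ∅ l i) * Z := mul_le_mul_of_nonneg_right hwl hZ.le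
              _ = (4 * ω l i * Z) * Zc univ w ∅ l i := by ring
          exact le_of_mul_le_mul_right h6 hZl
        have h4 := mul_le_mul_of_nonneg_right h3 (hEn l)
        linarith
    have h3 := mul_le_mul_of_nonneg_left h2 (by linarith : (0 : ℝ) ≤ (Fintype.card ι : ℝ) - 1)
    refine (le_of_eq ?_).trans h3
    ring
  -- second term
  set B := trs ((univ.erase i).erase j) (fun S => w (insert (j, false) (insert (j, true) S)) *
      ((g (insert (j, false) (insert (j, true) S)) - h (insert (j, false) S)) ^ 2 +
        (g (insert (j, false) (insert (j, true) S)) - h (insert (j, true) S)) ^ 2)) ∅ with hBdef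
  have hB0 : 0 ≤ B := trs_nonneg (fun S => mul_nonneg (hw _).le (by positivity)) _
  have hnear : ω j i * B ≤ Cost univ wt g h ∅ i := tq_near hwt g h hij
  have hMc : Mc w g j i - HD / 2 = trs ((univ.erase i).erase j)
      (fun S => w (insert (j, false) (insert (j, true) S)) *
        (g (insert (j, false) (insert (j, true) S)) -
          (h (insert (j, false) S) + h (insert (j, true) S)) / 2)) ∅ := by
    have e : HD / 2 = trs ((univ.erase i).erase j) (fun S => (1 / 2) *
        (w (insert (j, false) (insert (j, true) S)) *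
        (h (insert (j, false) S) + h (insert (j, true) S)))) ∅ := by
      rw [trs_smul, hHD]
      ring
    rw [Mc, hLe, e, ← trs_sub]
    congr 1
    funext S
    ring
  have hQ2 : N * (Mc w g j i / Z - HD / (2 * Z)) ^ 2 ≤ 2 * (ω j i * B) := by
    have hcs := trs_cs (J := (univ.erase i).erase j) (tq_free _)
      (w := fun S => w (insert (j, false) (insert (j, true) S))) (fun S => (hw _).le)
      (fun S => g (insert (j, false) (insert (j, true) S)) -
          (h (insert (j, false) S) + h (insert (j, true) S)) / 2)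
    rw [← hMc, ← hZ'] at hcs
    have h5 : trs ((univ.erase i).erase j) (fun S => w (insert (j, false) (insert (j, true) S)) *
        (g (insert (j, false) (insert (j, true) S)) -
          (h (insert (j, false) S) + h (insert (j, true) S)) / 2) ^ 2) ∅ ≤ B / 2 := by
      have e : B / 2 = trs ((univ.erase i).erase j) (fun S => (1 / 2) *
          (w (insert (j, false) (insert (j, true) S)) *
      ((g (insert (j, false) (insert (j, true) S)) - h (insert (j, false) S)) ^ 2 +
        (g (insert (j, false) (insert (j, true) S)) - h (insert (j, true) S)) ^ 2))) ∅ := by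
        rw [trs_smul, hBdef]
        ring
      rw [e]
      apply trs_mono
      intro S
      have hp := (hw (insert (j, false) (insert (j, true) S))).le
      have : (g (insert (j, false) (insert (j, true) S)) -
          (h (insert (j, false) S) + h (insert (j, true) S)) / 2) ^ 2 ≤ (1 / 2) *
          ((g (insert (j, false) (insert (j, true) S)) - h (insert (j, false) S)) ^ 2 +
        (g (insert (j, false) (insert (j, true) S)) - h (insert (j, true) S)) ^ 2) := by
        nlinarith [sq_nonneg (h (insert (j, false) S) - h (insert (j, true) S))]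
      have := mul_le_mul_of_nonneg_left this hp
      linarith
    have e1 : Mc w g j i / Z - HD / (2 * Z) = (Mc w g j i - HD / 2) / Z := by
      field_simp
    rw [e1, div_pow]
    have h6 : (Mc w g j i - HD / 2) ^ 2 ≤ Z * (B / 2) :=
      hcs.trans (mul_le_mul_of_nonneg_left h5 hZ.le)
    calc N * ((Mc w g j i - HD / 2) ^ 2 / Z ^ 2) ≤ N * (Z * (B / 2) / Z ^ 2) := by
          apply mul_le_mul_of_nonneg_left _ hN.le
          exact div_le_div_of_nonneg_right h6 (by positivity)
      _ = N * (B / 2) / Z := by
          field_simp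
      _ ≤ 4 * (ω j i * Z) * (B / 2) / Z := by
          apply div_le_div_of_nonneg_right _ hZ.le
          exact mul_le_mul_of_nonneg_right hNZ (by linarith)
      _ = 2 * (ω j i * B) := by
          field_simp
          ring
  -- third term
  set P := trs (univ.erase i) (fun S => w (insert (i, false) S) *
      (g (insert (i, false) S) - h S) ^ 2 +
        w (insert (i, true) S) * (g (insert (i, true) S) - h S) ^ 2) ∅ with hPdef
  have hP0 : 0 ≤ P := trs_nonneg (fun S => add_nonneg (mul_nonneg (hw _).le (sq_nonneg _))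
    (mul_nonneg (hw _).le (sq_nonneg _))) _
  have hMn : Mn univ w g ∅ - HP = trs univ (fun B => w B *
      (g B - h ((B.erase (i, false)).erase (i, true)))) ∅ := by
    rw [tq_perf, Mn, tq_split (mem_univ i), hHP, ← trs_sub]
    congr 1
    funext S
    ring
  have hQ3 : N * (Mn univ w g ∅ / N - HP / N) ^ 2 ≤ P := by
    have hcs := trs_cs (J := univ) (tq_free _) (fun S => (hw S).le)
      (fun B => g B - h ((B.erase (i, false)).erase (i, true)))
    rw [← hMn, tq_perf2, ← hPdef, ← hNdef] at hcs
    rw [← sub_div, div_pow]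
    calc N * ((Mn univ w g ∅ - HP) ^ 2 / N ^ 2) ≤ N * (N * P / N ^ 2) := by
          apply mul_le_mul_of_nonneg_left _ hN.le
          exact div_le_div_of_nonneg_right hcs (by positivity)
      _ = P := by
          field_simp
  have hpin : Pinned univ (∅ : Finset (ι × Bool)) := ⟨fun g _ => Iff.rfl, fun j hj => by simp at hj⟩
  have hcost := cost_near hwt g h hpin (mem_univ i)
  have hfin := tq_num hN hQ1 hQ2 hQ3 hA hP0 hcost hnear hn2
  refine (le_of_eq ?_).trans hfin
  congr 2
  ring

end Vale.Agent.P317R
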