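import Vale.Agent.P317R.FinRank
import Vale.Agent.P317R.FinTr
import Vale.Agent.P317R.PoinP
import Vale.Agent.P317R.PoinQ
import Vale.Agent.P317R.ExchCost

/-!
# P317R: Theorem P and Theorem Q for the weights of the algorithm

MODULE GL3.
-/

namespace Vale.Agent.P317R

open Finset

variable {n : ℕ}

/-- the sums of the weights at the level `k` -/
noncomputable def Nk (I : Inst n) (k : ℕ) : ℝ := ∑ B ∈ peS n, qn n ^ (k * null I B)

/-- the sums of the weights of the classes at the level `k` -/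
noncomputable def Zk (I : Inst n) (k : ℕ) (ij : Fin n × Fin n) : ℝ :=
  ∑ B ∈ clS n (some ij), qn n ^ (k * null I B)

/-- exchange energy with the weights `wR` -/
noncomputable def EE2 (I : Inst n) (k : ℕ) (t : Tb n) (g : St n → ℝ) : ℝ :=
  (1 / 2) * ∑ B ∈ stS n, ∑ B' ∈ stS n,
    if (B \ B').card = 1 ∧ (B' \ B).card = 1 then
      min (wR I k t B) (wR I k t B') * (g B - g B') ^ 2 else 0

/-- the weights of the general theory for the algorithm -/
noncomputable def wtF (I : Inst n) (k : ℕ) (t : Tb n) (B : St n) : ℝ :=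
  if IsSt B then thk n k ^ n * wR I k t B else 0

theorem thk_pos (hn : 0 < n) (k : ℕ) : 0 < thk n k := lt_of_lt_of_le one_pos (one_le_thk hn k)

theorem wtF_nonneg (hn : 0 < n) (I : Inst n) (k : ℕ) (t : Tb n) (B : St n) :
    0 ≤ wtF I k t B := by
  unfold wtF
  split_ifs
  · exact mul_nonneg (pow_nonneg (thk_pos hn k).le _) (wR_pos hn I k t B).le
  · exact le_refl 0

theorem wtF_perf {I : Inst n} (hI : I.Ok) (hn : 0 < n) (k : ℕ) (t : Tb n) {B : St n}
    (hB : Perf B) : wtF I k t B = wk I k B := by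
  unfold wtF
  rw [if_pos (show IsSt B from Or.inl hB), wR_perf I k t hB, wk_null hI hn k hB.card]

theorem wtF_cls {I : Inst n} (hI : I.Ok) (hn : 0 < n) (k : ℕ) (t : Tb n) {ij : Fin n × Fin n}
    {B : St n} (hB : Cls ij B) : wtF I k t B = (2 : ℝ) ^ t ij * wk I k B := by
  unfold wtF
  rw [if_pos (show IsSt B from Or.inr ⟨ij, hB⟩), wR_cls I k t hB, wk_null hI hn k hB.card]
  ring

theorem fin_cls_of_tr {i j : Fin n} (hij : i ≠ j) {S : St n}
    (hS : IsTr ((univ.erase i).erase j) ∅ S) :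
    Cls (j, i) (insert (j, false) (insert (j, true) S)) := by
  have hi : ∀ b, (i, b) ∉ S := fun b h => by
    have := (hS.1 (i, b) (by simp)).1 h
    simp at this
  have hj : ∀ b, (j, b) ∉ S := fun b h => by
    have := (hS.1 (j, b) (by simp)).1 h
    simp at this
  refine ⟨?_, ?_, ?_⟩
  · unfold npair; simp
  · unfold npair
    simp [hi, hij]
  · intro e h1 h2
    simp only at h1 h2
    have h3 := hS.2 e (by simp [h1, h2])
    have e1 : (e, false) ∈ insert (j, false) (insert (j, true) S) ↔ (e, false) ∈ S := by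
      simp [h1]
    have e2 : (e, true) ∈ insert (j, false) (insert (j, true) S) ↔ (e, true) ∈ S := by
      simp [h1]
    unfold npair
    rw [if_congr e1 rfl rfl, if_congr e2 rfl rfl]
    by_cases h : (e, true) ∈ S
    · simp [h, h3.1 h]
    · have : (e, false) ∈ S := by
        by_contra h'
        exact h (h3.2 h')
      simp [h, this]

theorem fin_wtOK {I : Inst n} (hI : I.Ok) (hn : 0 < n) (k : ℕ) (t : Tb n) :
    WtOK (wk I k) (wtF I k t) (fun i j => (2 : ℝ) ^ t (i, j)) where
  nonneg := wtF_nonneg hn I k t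
  omega_nonneg i j := by positivity
  perf S hS := wtF_perf hI hn k t ((isTr_perf S).1 hS)
  near i j hij S hS := wtF_cls hI hn k t (fin_cls_of_tr hij hS)

theorem fin_Nk {I : Inst n} (hI : I.Ok) (hn : 0 < n) (k : ℕ) (f : St n → ℝ) :
    trs univ (fun S => wk I k S * f S) ∅ =
      thk n k ^ n * ∑ B ∈ peS n, qn n ^ (k * null I B) * f B := by
  rw [trs_univ, mul_sum]
  refine sum_congr rfl fun B hB => ?_
  rw [wk_null hI hn k (mem_peS.1 hB).card]
  ring

theorem fin_Zk {I : Inst n} (hI : I.Ok) (hn : 0 < n) (k : ℕ) (f : St n → ℝ) {i j : Fin n}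
    (hij : i ≠ j) :
    trs ((univ.erase i).erase j) (fun S => wk I k (insert (i, false) (insert (i, true) S)) *
      f (insert (i, false) (insert (i, true) S))) ∅ =
      thk n k ^ n * ∑ B ∈ clS n (some (i, j)), qn n ^ (k * null I B) * f B := by
  have h := trs_cls (fun B => wk I k B * f B) hij
  rw [h, mul_sum]
  refine sum_congr rfl fun B hB => ?_
  have : Cls (i, j) B := by
    have := mem_clS.1 hB
    exact cl_eq_some.1 this.2
  rw [wk_null hI hn k this.card]
  ring

theorem fin_N {I : Inst n} (hI : I.Ok) (hn : 0 < n) (k : ℕ) :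
    trs univ (wk I k) ∅ = thk n k ^ n * Nk I k := by
  have h := fin_Nk hI hn k (fun _ => 1)
  simp only [mul_one] at h
  exact h

theorem fin_Z {I : Inst n} (hI : I.Ok) (hn : 0 < n) (k : ℕ) {i j : Fin n} (hij : i ≠ j) :
    Zc univ (wk I k) ∅ i j = thk n k ^ n * Zk I k (i, j) := by
  have h := fin_Zk hI hn k (fun _ => 1) hij
  simp only [mul_one] at h
  exact h

theorem fin_omega {I : Inst n} (hI : I.Ok) (hn : 0 < n) (k : ℕ) (t : Tb n)
    (hv : ∀ i j, i ≠ j → Nk I k ≤ 4 * ((2 : ℝ) ^ t (i, j) * Zk I k (i, j))) :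
    ∀ i j : Fin n, i ≠ j → trs univ (wk I k) ∅ ≤
      4 * ((fun i j => (2 : ℝ) ^ t (i, j)) j i * Zc univ (wk I k) ∅ j i) := by
  intro i j hij
  rw [fin_N hI hn, fin_Z hI hn k hij.symm]
  have h1 := mul_le_mul_of_nonneg_left (hv j i hij.symm) (pow_nonneg (thk_pos hn k).le n)
  simp only
  linarith

theorem fin_exch {I : Inst n} (hn : 0 < n) (k : ℕ) (t : Tb n) (g : St n → ℝ) :
    (1 / 2) * ∑ B : St n, ∑ B' : St n,
        (if (B \ B').card = 1 ∧ (B' \ B).card = 1 then
          min (wtF I k t B) (wtF I k t B') * (g B - g B') ^ 2 else 0) =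
      thk n k ^ n * EE2 I k t g := by
  have h0 : ∀ B : St n, B ∉ stS n → wtF I k t B = 0 := fun B hB =>
    if_neg (fun h : IsSt B => hB (mem_stS.2 h))
  have hc : (0 : ℝ) ≤ thk n k ^ n := pow_nonneg (thk_pos hn k).le n
  have key : ∑ B : St n, ∑ B' : St n,
        (if (B \ B').card = 1 ∧ (B' \ B).card = 1 then
          min (wtF I k t B) (wtF I k t B') * (g B - g B') ^ 2 else 0) =
      thk n k ^ n * ∑ B ∈ stS n, ∑ B' ∈ stS n,
        (if (B \ B').card = 1 ∧ (B' \ B).card = 1 then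
          min (wR I k t B) (wR I k t B') * (g B - g B') ^ 2 else 0) := by
    rw [mul_sum, ← sum_subset (subset_univ (stS n))]
    · refine sum_congr rfl fun B hB => ?_
      rw [mul_sum, ← sum_subset (subset_univ (stS n))]
      · refine sum_congr rfl fun B' hB' => ?_
        split_ifs with h
        · have e1 : wtF I k t B = thk n k ^ n * wR I k t B := if_pos (mem_stS.1 hB)
          have e2 : wtF I k t B' = thk n k ^ n * wR I k t B' := if_pos (mem_stS.1 hB')
          rw [e1, e2, ← mul_min_of_nonneg _ _ hc]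
          ring
        · rw [mul_zero]
      · intro B' _ hB'
        split_ifs with h
        · rw [h0 B' hB', min_eq_right (wtF_nonneg hn I k t B), zero_mul]
        · rfl
    · intro B _ hB
      refine sum_eq_zero fun B' _ => ?_
      split_ifs with h
      · rw [h0 B hB, min_eq_left (wtF_nonneg hn I k t B'), zero_mul]
      · rfl
  rw [key]
  unfold EE2
  ring

theorem Nk_pos (hn : 0 < n) (I : Inst n) (k : ℕ) : 0 < Nk I k :=
  sum_pos (fun _ _ => pow_pos (qn_pos hn) _) (peS_nonempty n)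

/-- Theorem P for the algorithm: only the lower validity of the table is used -/
theorem finalP {I : Inst n} (hI : I.Ok) (hn : 0 < n) (k : ℕ) (t : Tb n)
    (hv : ∀ i j, i ≠ j → Nk I k ≤ 4 * ((2 : ℝ) ^ t (i, j) * Zk I k (i, j))) (g : St n → ℝ) :
    ∑ B ∈ peS n, qn n ^ (k * null I B) *
        (g B - (∑ B' ∈ peS n, qn n ^ (k * null I B') * g B') / Nk I k) ^ 2 ≤
      24 * n * EE2 I k t g := by
  have hc : (0 : ℝ) < thk n k ^ n := pow_pos (thk_pos hn k) n
  have hN := Nk_pos hn I k
  have h1 := theoremP (wk_pos I hn k) (lor_wk hI hn k) (fin_wtOK hI hn k t)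
    (fin_omega hI hn k t hv) g (havg (wtF I k t) g)
  have h2 := cost_le_exchange (wtF I k t) g (wtF_nonneg hn I k t)
  rw [fin_exch hn] at h2
  have h3 : Vn univ (wk I k) g ∅ = thk n k ^ n * ∑ B ∈ peS n, qn n ^ (k * null I B) *
        (g B - (∑ B' ∈ peS n, qn n ^ (k * null I B') * g B') / Nk I k) ^ 2 := by
    unfold Vn Mn
    rw [fin_Nk hI hn k g, fin_N hI hn k]
    have h4 := fin_Nk hI hn k (fun B => g B ^ 2)
    rw [h4]
    set m := (∑ B' ∈ peS n, qn n ^ (k * null I B') * g B') with hm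
    have h5 : ∑ B ∈ peS n, qn n ^ (k * null I B) * (g B - m / Nk I k) ^ 2 =
        ∑ B ∈ peS n, qn n ^ (k * null I B) * g B ^ 2 - 2 * (m / Nk I k) * m +
          (m / Nk I k) ^ 2 * Nk I k := by
      have e : ∀ B ∈ peS n, qn n ^ (k * null I B) * (g B - m / Nk I k) ^ 2 =
          qn n ^ (k * null I B) * g B ^ 2 - 2 * (m / Nk I k) * (qn n ^ (k * null I B) * g B) +
            (m / Nk I k) ^ 2 * qn n ^ (k * null I B) := fun B _ => by ring
      rw [sum_congr rfl e, sum_add_distrib, sum_sub_distrib, ← mul_sum, ← mul_sum, ← hm]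
      rfl
    rw [h5]
    field_simp
    ring
  rw [h3, Fintype.card_fin] at h1
  have h6 : (0 : ℝ) ≤ 24 * n := by positivity
  have h7 := mul_le_mul_of_nonneg_left h2 h6
  have h8 : thk n k ^ n * ∑ B ∈ peS n, qn n ^ (k * null I B) *
        (g B - (∑ B' ∈ peS n, qn n ^ (k * null I B') * g B') / Nk I k) ^ 2 ≤
      thk n k ^ n * (24 * n * EE2 I k t g) := by
    refine h1.trans (h7.trans (le_of_eq ?_))
    ring
  exact le_of_mul_le_mul_left h8 hc

/-- Theorem Q for the algorithm -/
theorem finalQ {I : Inst n} (hI : I.Ok) (hn : 0 < n) (k : ℕ) (t : Tb n)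
    (hv : ∀ i j, i ≠ j → Nk I k ≤ 4 * ((2 : ℝ) ^ t (i, j) * Zk I k (i, j))) (g : St n → ℝ)
    {i j : Fin n} (hij : i ≠ j) :
    Nk I k * ((∑ B ∈ clS n (some (i, j)), qn n ^ (k * null I B) * g B) / Zk I k (i, j) -
        (∑ B ∈ peS n, qn n ^ (k * null I B) * g B) / Nk I k) ^ 2 ≤
      33 * n * EE2 I k t g := by
  have hc : (0 : ℝ) < thk n k ^ n := pow_pos (thk_pos hn k) n
  have h1 := theoremQ (wk_pos I hn k) (lor_wk hI hn k) (fin_wtOK hI hn k t)
    (fin_omega hI hn k t hv) g (havg (wtF I k t) g) hij.symm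
  have h2 := cost_le_exchange (wtF I k t) g (wtF_nonneg hn I k t)
  rw [fin_exch hn] at h2
  have h3 : Cost univ (wtF I k t) g (havg (wtF I k t) g) ∅ j ≤
      ∑ i, Cost univ (wtF I k t) g (havg (wtF I k t) g) ∅ i := by
    refine single_le_sum (f := fun i => Cost univ (wtF I k t) g (havg (wtF I k t) g) ∅ i)
      (fun i _ => ?_) (mem_univ j)
    refine trs_nonneg (fun S => ?_) _
    unfold nodeCost
    refine sum_nonneg fun c _ => ?_
    split_ifs
    · exact le_refl 0
    · exact mul_nonneg (wtF_nonneg hn I k t _) (sq_nonneg _)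
  unfold Mc Mn at h1
  rw [fin_Nk hI hn k g, fin_Zk hI hn k g hij, fin_N hI hn k, fin_Z hI hn k hij,
    mul_div_mul_left _ _ hc.ne', mul_div_mul_left _ _ hc.ne', Fintype.card_fin] at h1
  have h6 : (0 : ℝ) ≤ 33 * n := by positivity
  have h7 := mul_le_mul_of_nonneg_left (h3.trans h2) h6
  have h8 : thk n k ^ n * (Nk I k *
      ((∑ B ∈ clS n (some (i, j)), qn n ^ (k * null I B) * g B) / Zk I k (i, j) -
        (∑ B ∈ peS n, qn n ^ (k * null I B) * g B) / Nk I k) ^ 2) ≤
      thk n k ^ n * (33 * n * EE2 I k t g) := by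
    rw [← mul_assoc]
    refine h1.trans (h7.trans (le_of_eq ?_))
    ring
  exact le_of_mul_le_mul_left h8 hc

end Vale.Agent.P317R
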