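import Vale.Agent.P317R.JKer

/-!
# P317: class frequencies after `s` steps, and the class form of the hypotheses
-/

namespace Vale.Agent.P317R

open Finset Vale.Agent.P328R

open scoped ENNReal

open Vale.Agent.P328RAM (iterBind unif)

variable {σ ι : Type}

/-- the mean over the class `C` -/
noncomputable def cmean (π : PMF σ) (C : Finset σ) (g : σ → ℝ) : ℝ :=
  (∑ x ∈ C, (π x).toReal * g x) / mass π C

theorem mass_nonneg (π : PMF σ) (C : Finset σ) : 0 ≤ mass π C :=
  sum_nonneg fun _ _ => ENNReal.toReal_nonneg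

theorem mass_S {S : Finset σ} {π : PMF σ} (h : ∀ x, x ∉ S → π x = 0) : mass π S = 1 := by
  have := vec_sum h
  rw [← this]
  unfold mass vec
  exact (sum_coe_sort S fun x => (π x).toReal).symm

theorem mass_le_one {S F : Finset σ} {π : PMF σ} (h : ∀ x, x ∉ S → π x = 0) (hFS : F ⊆ S) :
    mass π F ≤ 1 := by
  rw [← mass_S h]
  exact sum_le_sum_of_subset_of_nonneg hFS fun _ _ _ => ENNReal.toReal_nonneg

/-- the class sum is the mass times the class mean -/
theorem sum_cmean (π : PMF σ) (C : Finset σ) (g : σ → ℝ) :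
    ∑ x ∈ C, (π x).toReal * g x = mass π C * cmean π C g := by
  unfold cmean
  rcases (mass_nonneg π C).eq_or_lt with h | h
  · have h0 : ∀ x ∈ C, (π x).toReal = 0 := by
      intro x hx
      have := sum_eq_zero_iff_of_nonneg (s := C) (f := fun x => (π x).toReal)
        (fun _ _ => ENNReal.toReal_nonneg)
      exact this.1 h.symm x hx
    rw [← h, zero_mul]
    exact sum_eq_zero fun x hx => by rw [h0 x hx, zero_mul]
  · field_simp

theorem dir_nonneg {S : Finset σ} {π : PMF σ} {κ : σ → PMF σ} (g : σ → ℝ) :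
    0 ≤ dir S π κ g := by
  unfold dir
  refine mul_nonneg (by norm_num) (sum_nonneg fun x _ => sum_nonneg fun y _ => ?_)
  exact mul_nonneg (mul_nonneg ENNReal.toReal_nonneg ENNReal.toReal_nonneg) (sq_nonneg _)

section Classes

variable {S F : Finset σ} {π : PMF σ} {κ : σ → PMF σ} {T : Finset ι} {C : ι → Finset σ}
  {K K' : ℝ}

/-- the global mean is close to the mean over `F` -/
theorem mean_cmean (hS : ∀ x, x ∉ S → π x = 0)
    (hpart : ∀ f : σ → ℝ, ∑ x ∈ S, f x = ∑ x ∈ F, f x + ∑ c ∈ T, ∑ x ∈ C c, f x)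
    (hQ : ∀ c ∈ T, ∀ g : σ → ℝ, (cmean π (C c) g - cmean π F g) ^ 2 ≤ K' * dir S π κ g)
    (hK' : 0 ≤ K') (g : σ → ℝ) : (mean S π g - cmean π F g) ^ 2 ≤ K' * dir S π κ g := by
  have hm : mass π F + ∑ c ∈ T, mass π (C c) = 1 := by
    rw [← mass_S hS]; exact (hpart _).symm
  have e1 : mean S π g - cmean π F g =
      ∑ c ∈ T, mass π (C c) * (cmean π (C c) g - cmean π F g) := by
    have h1 : mean S π g = mass π F * cmean π F g + ∑ c ∈ T, mass π (C c) * cmean π (C c) g := by
      unfold mean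
      rw [hpart, sum_cmean]
      congr 1
      exact sum_congr rfl fun c _ => sum_cmean π (C c) g
    rw [h1]
    simp only [mul_sub]
    rw [sum_sub_distrib, ← sum_mul]
    linear_combination (cmean π F g) * hm
  rw [e1]
  have hd : 0 ≤ K' * dir S π κ g := mul_nonneg hK' (dir_nonneg g)
  have hsum : ∑ c ∈ T, mass π (C c) ≤ 1 := by
    have := mass_nonneg π F; linarith
  have hs0 : 0 ≤ ∑ c ∈ T, mass π (C c) := sum_nonneg fun c _ => mass_nonneg π _
  calc (∑ c ∈ T, mass π (C c) * (cmean π (C c) g - cmean π F g)) ^ 2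
      = (∑ c ∈ T, mass π (C c) * (1 * (cmean π (C c) g - cmean π F g))) ^ 2 := by
        simp only [one_mul]
    _ ≤ (∑ c ∈ T, mass π (C c) * 1 ^ 2) *
          ∑ c ∈ T, mass π (C c) * (cmean π (C c) g - cmean π F g) ^ 2 :=
        wcs T (p := fun c => mass π (C c)) (fun c => mass_nonneg π _) (fun _ => 1)
          (fun c => cmean π (C c) g - cmean π F g)
    _ ≤ 1 * (K' * dir S π κ g) := by
        refine mul_le_mul (by simpa using hsum) ?_ (sum_nonneg fun c _ =>
          mul_nonneg (mass_nonneg π _) (sq_nonneg _)) zero_le_one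
        calc _ ≤ ∑ c ∈ T, mass π (C c) * (K' * dir S π κ g) :=
              sum_le_sum fun c hc => mul_le_mul_of_nonneg_left (hQ c hc g) (mass_nonneg π _)
          _ = (∑ c ∈ T, mass π (C c)) * (K' * dir S π κ g) := by rw [← sum_mul]
          _ ≤ 1 * (K' * dir S π κ g) := mul_le_mul_of_nonneg_right hsum hd
          _ = _ := one_mul _
    _ = _ := one_mul _

/-- the sum of squares on `F` around any point -/
theorem sum_sq_shift (π : PMF σ) (F : Finset σ) (g : σ → ℝ) (m : ℝ) :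
    ∑ x ∈ F, (π x).toReal * (g x - m) ^ 2 =
      ∑ x ∈ F, (π x).toReal * (g x - cmean π F g) ^ 2 + mass π F * (m - cmean π F g) ^ 2 := by
  have h1 : ∀ x, (π x).toReal * (g x - m) ^ 2 = (π x).toReal * (g x - cmean π F g) ^ 2 +
      2 * (cmean π F g - m) * ((π x).toReal * g x) +
      (m ^ 2 - (cmean π F g) ^ 2) * (π x).toReal := fun x => by ring
  have h2 : ∑ x ∈ F, (π x).toReal = mass π F := rfl
  simp only [h1]
  rw [sum_add_distrib, sum_add_distrib, ← mul_sum, ← mul_sum, sum_cmean π F g, h2]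
  ring

/-- **Hypothesis of the watched kernel from the class form.** -/
theorem hH_of_classes (hS : ∀ x, x ∉ S → π x = 0)
    (hpart : ∀ f : σ → ℝ, ∑ x ∈ S, f x = ∑ x ∈ F, f x + ∑ c ∈ T, ∑ x ∈ C c, f x)
    (hP : ∀ g : σ → ℝ, ∑ x ∈ F, (π x).toReal * (g x - cmean π F g) ^ 2 ≤ K * dir S π κ g)
    (hQ : ∀ c ∈ T, ∀ g : σ → ℝ, (cmean π (C c) g - cmean π F g) ^ 2 ≤ K' * dir S π κ g)
    (hK' : 0 ≤ K') (hFS : F ⊆ S) (g : σ → ℝ) :
    ∑ x ∈ F, (π x).toReal * (g x - mean S π g) ^ 2 ≤ (K + K') * dir S π κ g := by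
  rw [sum_sq_shift, add_mul]
  have h1 := mean_cmean hS hpart hQ hK' g
  have h2 := mass_le_one hS hFS
  have h3 : mass π F * (mean S π g - cmean π F g) ^ 2 ≤ 1 * (K' * dir S π κ g) :=
    mul_le_mul h2 h1 (sq_nonneg _) zero_le_one
  have := hP g
  linarith

/-- **Hypothesis for the class frequencies.** -/
theorem hC_of_classes (hS : ∀ x, x ∉ S → π x = 0)
    (hpart : ∀ f : σ → ℝ, ∑ x ∈ S, f x = ∑ x ∈ F, f x + ∑ c ∈ T, ∑ x ∈ C c, f x)
    (hQ : ∀ c ∈ T, ∀ g : σ → ℝ, (cmean π (C c) g - cmean π F g) ^ 2 ≤ K' * dir S π κ g)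
    (hK' : 0 ≤ K') {c : ι} (hc : c ∈ T) (hCS : C c ⊆ S) (g : σ → ℝ) :
    (∑ x ∈ C c, (π x).toReal * (g x - mean S π g)) ^ 2 ≤ 4 * K' * dir S π κ g := by
  have e : ∑ x ∈ C c, (π x).toReal * (g x - mean S π g) =
      mass π (C c) * ((cmean π (C c) g - cmean π F g) - (mean S π g - cmean π F g)) := by
    simp only [mul_sub]
    rw [sum_sub_distrib, sum_cmean, ← sum_mul]
    have h2 : ∑ x ∈ C c, (π x).toReal = mass π (C c) := rfl
    rw [h2]; ring
  rw [e, mul_pow]
  have h1 := mean_cmean hS hpart hQ hK' g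
  have h2 := hQ c hc g
  have h3 := mass_le_one hS hCS
  have h4 := mass_nonneg π (C c)
  set a := cmean π (C c) g - cmean π F g
  set b := mean S π g - cmean π F g
  have h5 : mass π (C c) ^ 2 ≤ 1 := pow_le_one₀ h4 h3
  have h6 : (a - b) ^ 2 ≤ 4 * (K' * dir S π κ g) := by nlinarith [sq_nonneg (a + b)]
  calc mass π (C c) ^ 2 * (a - b) ^ 2 ≤ 1 * (4 * (K' * dir S π κ g)) :=
        mul_le_mul h5 h6 (sq_nonneg _) zero_le_one
    _ = _ := by ring

theorem hF_of_classes (hS : ∀ x, x ∉ S → π x = 0)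
    (hpart : ∀ f : σ → ℝ, ∑ x ∈ S, f x = ∑ x ∈ F, f x + ∑ c ∈ T, ∑ x ∈ C c, f x)
    (hQ : ∀ c ∈ T, ∀ g : σ → ℝ, (cmean π (C c) g - cmean π F g) ^ 2 ≤ K' * dir S π κ g)
    (hK' : 0 ≤ K') (hFS : F ⊆ S) (g : σ → ℝ) :
    (∑ x ∈ F, (π x).toReal * (g x - mean S π g)) ^ 2 ≤ 4 * K' * dir S π κ g := by
  have e : ∑ x ∈ F, (π x).toReal * (g x - mean S π g) =
      mass π F * (- (mean S π g - cmean π F g)) := by
    simp only [mul_sub]
    rw [sum_sub_distrib, sum_cmean, ← sum_mul]
    have h2 : ∑ x ∈ F, (π x).toReal = mass π F := rfl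
    rw [h2]; ring
  rw [e, mul_pow, neg_sq]
  have h1 := mean_cmean hS hpart hQ hK' g
  have h3 := mass_le_one hS hFS
  have h4 := mass_nonneg π F
  have h5 : mass π F ^ 2 ≤ 1 := pow_le_one₀ h4 h3
  have hd : 0 ≤ K' * dir S π κ g := mul_nonneg hK' (dir_nonneg g)
  calc mass π F ^ 2 * (mean S π g - cmean π F g) ^ 2 ≤ 1 * (K' * dir S π κ g) :=
        mul_le_mul h5 h1 (sq_nonneg _) zero_le_one
    _ ≤ _ := by linarith

end Classes

/-- **Class frequencies, `PMF` form.** -/
theorem freq {S : Finset σ} {π : PMF σ} {κ : σ → PMF σ} (h : RevChain S π κ) {C : Finset σ}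
    (hCS : C ⊆ S) {K2 : ℝ} (hK2 : 0 ≤ K2)
    (hC : ∀ g : σ → ℝ, (∑ x ∈ C, (π x).toReal * (g x - mean S π g)) ^ 2 ≤ K2 * dir S π κ g)
    {μ : PMF σ} {M : ℝ} (hM : ∀ x, (μ x).toReal ≤ M * (π x).toReal) (s : ℕ) :
    |((μ.bind (iterBind κ s)).toOuterMeasure C).toReal - mass π C| ≤
      Real.sqrt (K2 * M / (s + 1)) := by
  classical
  have hμ : ∀ x, x ∉ S → μ x = 0 := fun x hx => by
    have h1 := hM x
    rw [h.supp x hx, ENNReal.toReal_zero, mul_zero] at h1
    have h2 : (μ x).toReal = 0 := le_antisymm h1 ENNReal.toReal_nonneg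
    exact (ENNReal.toReal_eq_zero_iff _).1 h2 |>.resolve_right (μ.apply_ne_top x)
  have hlr := h.lazyRev
  set p := vec S π with hp
  set P := fun x y : S => (κ x y).toReal with hP
  -- density
  set f : S → ℝ := fun x => vec S μ x / p x with hf
  have hMx : ∀ x : S, vec S μ x ≤ M * p x := fun x => hM x
  have hμf : vec S μ = fun x => p x * f x := by
    funext x
    rcases eq_or_ne (p x) 0 with hx | hx
    · have h1 := hMx x
      rw [hx, mul_zero] at h1
      have : vec S μ x = 0 := le_antisymm h1 (vec_nonneg S μ x)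
      simp [hx, this]
    · simp only [hf]; field_simp
  have hM0 : 0 ≤ M := by
    by_contra hneg
    push Not at hneg
    have : ∑ x, vec S μ x ≤ ∑ x, M * p x := sum_le_sum fun x _ => hMx x
    rw [vec_sum hμ, ← mul_sum, hlr.p_sum] at this
    linarith
  have hf0 : ∀ x, 0 ≤ f x := fun x => div_nonneg (vec_nonneg S μ x) (hlr.p_nonneg x)
  have hfM : ∀ x, f x ≤ M := by
    intro x
    rcases (hlr.p_nonneg x).eq_or_lt with hx | hx
    · simp only [hf, ← hx, div_zero]; exact hM0
    · simp only [hf]; rw [div_le_iff₀ hx]; exact hMx x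
  have hE : Ex p f = 1 := by
    unfold Ex
    rw [← vec_sum hμ]
    exact sum_congr rfl fun x _ => by rw [hμf]
  have hV : Vr p f ≤ M := by
    refine (Vr_le_sq hlr f).trans ?_
    calc ∑ x, p x * f x ^ 2 ≤ ∑ x, p x * f x * M := sum_le_sum fun x _ => by
          have := mul_le_mul_of_nonneg_left (hfM x) (mul_nonneg (hlr.p_nonneg x) (hf0 x))
          calc p x * f x ^ 2 = p x * f x * f x := by ring
            _ ≤ _ := this
      _ = M := by
          rw [← sum_mul]
          have : ∑ x, p x * f x = 1 := hE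
          rw [this, one_mul]
  -- the class as a set of the subtype
  have key := class_freq hlr ((univ : Finset S).filter fun x : S => (x : σ) ∈ C) hK2 ?_ f s
  · obtain ⟨h1, h2⟩ := vec_iter h.closed s μ hμ
    rw [hμf, pushP_iter_dens hlr] at h1
    have e1 : ∑ x ∈ (univ : Finset S).filter (fun x : S => (x : σ) ∈ C), p x * (opP P)^[s] f x =
        ((μ.bind (iterBind κ s)).toOuterMeasure C).toReal := by
      rw [PMF.toOuterMeasure_apply_finset, ENNReal.toReal_sum fun x _ => PMF.apply_ne_top _ _,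
        ← sum_subA hCS fun x => ((μ.bind (iterBind κ s)) x).toReal]
      exact sum_congr rfl fun x _ => (congrFun h1 x).symm
    have e2 : ∑ x ∈ (univ : Finset S).filter (fun x : S => (x : σ) ∈ C), p x = mass π C :=
      sum_subA hCS fun x => (π x).toReal
    rw [e1, e2, hE, mul_one] at key
    refine key.trans (Real.sqrt_le_sqrt ?_)
    exact div_le_div_of_nonneg_right (mul_le_mul_of_nonneg_left hV hK2) (by positivity)
  · intro g
    let g' : σ → ℝ := fun x => if hx : x ∈ S then g ⟨x, hx⟩ else 0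
    have hg' : ∀ x : S, g' x = g x := fun x => by simp [g']
    have h1 := hC g'
    have e0 : mean S π g' = Ex p g := by
      unfold mean Ex
      rw [← sum_coe_sort S]
      exact sum_congr rfl fun x _ => by rw [hg']; rfl
    have e1 : ∑ x ∈ (univ : Finset S).filter (fun x : S => (x : σ) ∈ C), p x * (g x - Ex p g) =
        ∑ x ∈ C, (π x).toReal * (g' x - Ex p g) := by
      rw [← sum_subA hCS fun x => (π x).toReal * (g' x - Ex p g)]
      exact sum_congr rfl fun x _ => by rw [hg']; rfl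
    have e2 : dir S π κ g' = Dir p P g := by
      unfold dir Dir
      rw [← sum_coe_sort S]
      congr 1
      refine sum_congr rfl fun x _ => ?_
      rw [← sum_coe_sort S]
      exact sum_congr rfl fun y _ => by rw [hg', hg']; rfl
    rw [e1, ← e2, ← e0]
    exact h1

/-- **Class frequencies after a pass**: the start law is close to the stationary law on `F`, the
implemented kernel is close to the ideal one. -/
theorem freq_pass {S F : Finset σ} {π πA : PMF σ} {κ κ' : σ → PMF σ} (h : RevChain S π κ)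
    (hFS : F ⊆ S) (hA : 0 < mass π F)
    (hπ0 : ∀ x, x ∉ F → πA x = 0) (hπ : ∀ x ∈ F, (πA x).toReal = (π x).toReal / mass π F)
    {C : Finset σ} (hCS : C ⊆ S) {K2 : ℝ} (hK2 : 0 ≤ K2)
    (hC : ∀ g : σ → ℝ, (∑ x ∈ C, (π x).toReal * (g x - mean S π g)) ^ 2 ≤ K2 * dir S π κ g)
    {ζ : ℝ} (hζ : 0 ≤ ζ) (hcl : ∀ x ∈ S, ∀ y ∈ (κ' x).support, y ∈ S)
    (hpert : ∀ x ∈ S, TVle (κ' x) (κ x) (ENNReal.ofReal ζ))
    {μ : PMF σ} {δ : ℝ} (hδ : 0 ≤ δ) (hμ : TVle μ πA (ENNReal.ofReal δ)) (s : ℕ) :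
    |((μ.bind (iterBind κ' s)).toOuterMeasure C).toReal - mass π C| ≤
      δ + s * ζ + Real.sqrt (K2 / (mass π F * (s + 1))) := by
  have hM : ∀ x, (πA x).toReal ≤ (1 / mass π F) * (π x).toReal := by
    intro x
    by_cases hx : x ∈ F
    · rw [hπ x hx]; exact le_of_eq (by ring)
    · rw [hπ0 x hx, ENNReal.toReal_zero]
      exact mul_nonneg (by positivity) ENNReal.toReal_nonneg
  have h1 := freq h hCS hK2 hC hM s
  have hsupp : ∀ x ∈ πA.support, x ∈ S := fun x hx => by
    by_contra hxS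
    exact hx (hπ0 x fun hxF => hxS (hFS hxF))
  have h2 : TVle (μ.bind (iterBind κ' s)) (πA.bind (iterBind κ s))
      (ENNReal.ofReal (δ + s * ζ)) := by
    have e1 : TVle (μ.bind (iterBind κ' s)) (πA.bind (iterBind κ' s)) (ENNReal.ofReal δ) :=
      hμ.bind _
    have e2 : TVle (πA.bind (iterBind κ' s)) (πA.bind (iterBind κ s))
        (s * ENNReal.ofReal ζ) :=
      TVle.bind_right fun x hx => TVle.iterBind (I := fun x => x ∈ S) hcl hpert s x (hsupp x hx)
    refine (e1.trans e2).mono (le_of_eq ?_)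
    rw [ENNReal.ofReal_add hδ (by positivity), ENNReal.ofReal_mul (by positivity),
      ENNReal.ofReal_natCast]
  have h3 := h2.abs_prob (by positivity) (C : Set σ)
  have e : K2 * (1 / mass π F) / (s + 1) = K2 / (mass π F * (s + 1)) := by
    field_simp
  rw [e] at h1
  calc _ ≤ |((μ.bind (iterBind κ' s)).toOuterMeasure C).toReal -
        ((πA.bind (iterBind κ s)).toOuterMeasure C).toReal| +
        |((πA.bind (iterBind κ s)).toOuterMeasure C).toReal - mass π C| := abs_sub_le _ _ _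
    _ ≤ _ := add_le_add h3 h1

end Vale.Agent.P317R
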