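import Vale.Agent.P317R.TrBase
import Vale.Agent.P317R.AFCons
import Vale.Agent.P317M.GF

/-!
# P317R: the energy Alexandrov-Fenchel inequality (GF)

MODULE GF1. Proof (induction on the number of pairs in `K`, for all `W`, `T`, `h`):
`K = ∅`: `trs ∅ f = f` and `dd T w W = 0`, so the left side is `0`.
Step: choose a pair `l ∈ K`, `K' = K.erase l`, `a = (l, false)`, `b = (l, true)`,
`ρ = dd (ev a) (dd T (trs K' w)) W` (`= trs K' (dd T w) (W + a)`), and
`dd (ev b) (dd T (trs K' w)) W = -ρ` as the total is zero (`trs_split`),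
`D = trs K' w (W + a + b) > 0`, `κ = ρ / D`. Links: base `W + a` with
`Ta = T - κ * ev b`, base `W + b` with `Tb = T + κ * ev a`; both have total zero.
`trs K (dd T w * h) W = trs K' (dd Ta w * h) (W + a) + trs K' (dd Tb w * h) (W + b)
  + κ * trs K' (fun S => w (S + a + b) * (h (S + a) - h (S + b))) W`
(`dd (ev b) w S = w (S + b)` for the transversals `S` of the link at `a`: `trs_congr`, and the
shift `trs_shift`). The last term is at most `|κ| * √(D * En K' w h W l)` (`trs_cs`) and
`ρ² ≤ D * Cn K' w T W` by `Lor.cs_orth` with `u = ep l`, `v = T`, `v' = ev a - ev b`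
(`QF (eps K') w W (ep l) T = 0`, `QF(v',v') = -2 D`, `QF(v',T) = 2ρ`). For `j ∈ K'`:
`Cn (K'.erase j) w Ta (W + a) + Cn (K'.erase j) w Tb (W + b) = Cn (K.erase j) w T W` exactly
(cross terms cancel, `QF(ev b, ev b) = 0`) and `En ... (W + a) + En ... (W + b) = En (K.erase j) ...
W`, and `√(x y) + √(x' y') ≤ √((x + x') (y + y'))`.
-/

namespace Vale.Agent.P317R

open Finset

variable {ι : Type*} [Fintype ι] [DecidableEq ι]

/-- the energy of `h` in the pair `j`; `K` is the set of the other pairs (`j ∉ K`) -/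
noncomputable def En (K : Finset ι) (w h : Finset (ι × Bool) → ℝ) (W : Finset (ι × Bool))
    (j : ι) : ℝ :=
  trs K (fun S => w (insert (j, false) (insert (j, true) S)) *
    (h (insert (j, false) S) - h (insert (j, true) S)) ^ 2) W

/-- the form `F_W(eps K, u, v)` -/
noncomputable def QK (K : Finset ι) (w : Finset (ι × Bool) → ℝ) (W : Finset (ι × Bool))
    (u v : ι × Bool → ℝ) : ℝ :=
  QF (eps K) w W u v

/-- minus one half of the form -/
noncomputable def Cn (K : Finset ι) (w : Finset (ι × Bool) → ℝ) (T : ι × Bool → ℝ)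
    (W : Finset (ι × Bool)) : ℝ :=
  -(1 / 2) * QK K w W T T

theorem En_nonneg (K : Finset ι) {w : Finset (ι × Bool) → ℝ} (hw : ∀ S, 0 < w S)
    (h : Finset (ι × Bool) → ℝ) (W : Finset (ι × Bool)) (j : ι) : 0 ≤ En K w h W j :=
  trs_nonneg (fun S => mul_nonneg (hw _).le (sq_nonneg _)) W

/-! ### the link with the sums `Tsum` along lists -/

theorem gfx_dd (c : ι × Bool → ℝ) (f : Finset (ι × Bool) → ℝ) (S : Finset (ι × Bool)) :
    P317M.D c f S = dd c f S := by
  unfold P317M.D dd
  have : ∀ g : ι × Bool, (if g ∈ S then 0 else c g * f (insert g S)) =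
      if g ∈ Sᶜ then c g * f (insert g S) else 0 := by
    intro g
    by_cases h : g ∈ S <;> simp [h]
  rw [sum_congr rfl fun g _ => this g, ← sum_filter, filter_mem_eq_inter, univ_inter]

theorem gfx_D (c : ι × Bool → ℝ) (f : Finset (ι × Bool) → ℝ) : P317M.D c f = dd c f := by
  funext S; exact gfx_dd c f S

theorem gfx_Tsum (l : List ι) (hl : l.Nodup) (f : Finset (ι × Bool) → ℝ)
    (W : Finset (ι × Bool)) (hW : P317M.Off l W) :
    trs l.toFinset f W = P317M.Tsum l f W := by
  induction l generalizing W with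
  | nil => simp [P317M.Tsum]
  | cons i l ih =>
    obtain ⟨hil, hl'⟩ := List.nodup_cons.1 hl
    have hfree : Free (i :: l).toFinset W := by
      intro j hj b hjb
      exact hW _ hjb (List.mem_toFinset.1 hj)
    have hi : i ∉ l.toFinset := fun h => hil (List.mem_toFinset.1 h)
    rw [trs_split (List.mem_toFinset.2 List.mem_cons_self) hfree, List.toFinset_cons,
      erase_insert hi, P317M.Tsum_cons, ih hl' _ (hW.cons.insert hil),
      ih hl' _ (hW.cons.insert hil)]

theorem gfx_off {K : Finset ι} {W : Finset (ι × Bool)} (hW : Free K W) :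
    P317M.Off K.toList W := by
  intro p hp hK
  exact hW p.1 (Finset.mem_toList.1 hK) p.2 hp

theorem gfx_trs (K : Finset ι) (f : Finset (ι × Bool) → ℝ) {W : Finset (ι × Bool)}
    (hW : Free K W) : trs K f W = P317M.Tsum K.toList f W := by
  rw [← gfx_Tsum K.toList K.nodup_toList f W (gfx_off hW), Finset.toList_toFinset]

theorem gfx_erase (K : Finset ι) (j : ι) (f : Finset (ι × Bool) → ℝ) {W : Finset (ι × Bool)}
    (hW : Free K W) : trs (K.erase j) f W = P317M.Tsum (K.toList.erase j) f W := by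
  have hnd : (K.toList.erase j).Nodup := K.nodup_toList.erase j
  rw [← gfx_Tsum _ hnd f W ((gfx_off hW).erase j)]
  congr 1
  ext i
  rw [List.mem_toFinset, List.Nodup.mem_erase_iff K.nodup_toList, Finset.mem_toList,
    Finset.mem_erase]

theorem gfx_QK (K : Finset ι) (w : Finset (ι × Bool) → ℝ) (W : Finset (ι × Bool))
    (u v : ι × Bool → ℝ) : QK K w W u v = trs K (dd u (dd v w)) W := by
  unfold QK QF trs
  rw [dd_dds, dd_dds]

theorem gfx_lorW {w : Finset (ι × Bool) → ℝ} (hw : ∀ S, 0 < w S) (hL : Lor w) :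
    P317M.LorW w where
  pos := hw
  orth l S u v hl hS hu h1 h2 := by
    have e : ∀ x y : ι × Bool → ℝ, P317M.Tsum l (P317M.D x (P317M.D y w)) S =
        QF (eps l.toFinset) w S x y := by
      intro x y
      rw [gfx_D, gfx_D, ← gfx_Tsum l hl _ S hS]
      exact (gfx_QK _ _ _ _ _).symm
    rw [e] at h1 h2 ⊢
    exact hL.neg_of_orth (eps_nonneg _) S hu h1 h2

theorem gfx_main {w : Finset (ι × Bool) → ℝ} (hw : ∀ S, 0 < w S) (hL : Lor w)
    (K : Finset ι) (W : Finset (ι × Bool)) (hW : Free K W) (T : ι × Bool → ℝ)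
    (hT : trs K (fun S => dd T w S) W = 0) (h : Finset (ι × Bool) → ℝ) :
    (∀ j ∈ K, trs (K.erase j) (dd T (dd T w)) W ≤ 0) ∧
    |trs K (fun S => dd T w S * h S) W| ≤
      ∑ j ∈ K, Real.sqrt (Cn (K.erase j) w T W * En (K.erase j) w h W j) := by
  have h0 : P317M.Tsum K.toList (P317M.D T w) W = 0 := by
    rw [gfx_D, ← gfx_trs K _ hW]; exact hT
  obtain ⟨h1, h2⟩ := P317M.GF (gfx_lorW hw hL) K.toList W K.nodup_toList (gfx_off hW) T h0 h
  refine ⟨fun j hj => ?_, ?_⟩
  · have := h1 j (Finset.mem_toList.2 hj)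
    rwa [gfx_D, gfx_D, ← gfx_erase K j _ hW] at this
  · rw [gfx_trs K _ hW]
    have e1 : (fun S => dd T w S * h S) = fun A => h A * P317M.D T w A := by
      funext S; rw [gfx_D, mul_comm]
    rw [e1]
    refine h2.trans (le_of_eq ?_)
    rw [← Finset.sum_map_toList]
    congr 1
    refine List.map_congr_left fun j _ => ?_
    congr 1
    unfold Cn En P317M.EJ
    rw [gfx_QK, gfx_erase K j _ hW, gfx_erase K j _ hW, gfx_D, gfx_D]

/-- `j ∈ K`; the total of `T` over the transversals of `K` is zero -/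
theorem Cn_nonneg {w : Finset (ι × Bool) → ℝ} (hw : ∀ S, 0 < w S) (hL : Lor w)
    {K : Finset ι} {W : Finset (ι × Bool)} (hW : Free K W) {j : ι} (hj : j ∈ K)
    {T : ι × Bool → ℝ} (hT : trs K (fun S => dd T w S) W = 0) :
    0 ≤ Cn (K.erase j) w T W := by
  have h1 := (gfx_main hw hL K W hW T hT (fun _ => 0)).1 j hj
  unfold Cn
  rw [gfx_QK]
  linarith

/-- (GF) -/
theorem GF {w : Finset (ι × Bool) → ℝ} (hw : ∀ S, 0 < w S) (hL : Lor w)
    (K : Finset ι) (W : Finset (ι × Bool)) (hW : Free K W) (T : ι × Bool → ℝ)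
    (hT : trs K (fun S => dd T w S) W = 0) (h : Finset (ι × Bool) → ℝ) :
    |trs K (fun S => dd T w S * h S) W| ≤
      ∑ j ∈ K, Real.sqrt (Cn (K.erase j) w T W * En (K.erase j) w h W j) :=
  (gfx_main hw hL K W hW T hT h).2

end Vale.Agent.P317R
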