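import Vale.Agent.P317R.GF
import Vale.Agent.P317R.Cyc

/-!
# P317R: corollary (V) of (GF)

MODULE GF3.
-/

namespace Vale.Agent.P317R

open Finset

variable {ι : Type*} [Fintype ι] [DecidableEq ι]

/-- value of `dd (ep j)` when the pair `j` does not meet `S` -/
theorem gfc_dd_ep (j : ι) (f : Finset (ι × Bool) → ℝ) {S : Finset (ι × Bool)}
    (h0 : (j, false) ∉ S) (h1 : (j, true) ∉ S) :
    dd (ep j) f S = f (insert (j, false) S) + f (insert (j, true) S) := by
  rw [dd_ep, dd_ev, dd_ev, if_neg h0, if_neg h1]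

/-- two derivatives along the pair `j` -/
theorem gfc_ep_ep (j : ι) (f : Finset (ι × Bool) → ℝ) {S : Finset (ι × Bool)}
    (h0 : (j, false) ∉ S) (h1 : (j, true) ∉ S) :
    dd (ep j) (dd (ep j) f) S = 2 * f (insert (j, false) (insert (j, true) S)) := by
  rw [gfc_dd_ep j _ h0 h1, dd_ep, dd_ep, dd_ev, dd_ev, dd_ev, dd_ev]
  have a1 : (j, false) ∈ insert (j, false) S := mem_insert_self _ _
  have a2 : (j, true) ∉ insert (j, false) S := by
    rw [mem_insert, not_or]; exact ⟨by simp, h1⟩
  have a3 : (j, false) ∉ insert (j, true) S := by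
    rw [mem_insert, not_or]; exact ⟨by simp, h0⟩
  have a4 : (j, true) ∈ insert (j, true) S := mem_insert_self _ _
  rw [if_pos a1, if_neg a2, if_neg a3, if_pos a4, Finset.insert_comm (j, true) (j, false) S]
  ring

/-- three derivatives along the pair `j` -/
theorem gfc_ep_ep_ep (j : ι) (f : Finset (ι × Bool) → ℝ) {S : Finset (ι × Bool)}
    (h0 : (j, false) ∉ S) (h1 : (j, true) ∉ S) :
    dd (ep j) (dd (ep j) (dd (ep j) f)) S = 0 := by
  rw [gfc_ep_ep j _ h0 h1, dd_ep, dd_ev, dd_ev, if_pos (mem_insert_self _ _),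
    if_pos (mem_insert_of_mem (mem_insert_self _ _))]
  ring

theorem gfc_trs_double (K : Finset ι) {j : ι} (hj : j ∉ K) (w : Finset (ι × Bool) → ℝ)
    (W : Finset (ι × Bool)) :
    trs K w (insert (j, false) (insert (j, true) W)) =
      trs K (fun S => w (insert (j, false) (insert (j, true) S))) W := by
  rw [trs_shift (by exact hj), trs_shift (by exact hj)]

theorem gfc_trs_dd (K : Finset ι) (c : ι × Bool → ℝ) (f : Finset (ι × Bool) → ℝ) :
    trs K (dd c f) = dd c (trs K f) := by
  unfold trs
  rw [dd_dds]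

/-- (V): comparison of the class `(j, i)` (pair `j` double, pair `i` empty) with the perfect
states, `i ≠ j` in `J`, `K = J.erase i`, `N = trs J w W`, `Z = Zc J w W j i`. GF with
`T = ep j / (2 Z) - ep i / N`. `dd (ep j) w S` is `w (S + partner)` on the transversals `S` of
`K`. For `l ≠ j` in `K`: `QF (eps (K.erase l)) (ep j) (ep j) = 0`,
`QF (eps (K.erase l)) (ep j) (ep i) = 2 Z(j,l)` (the pair `j` occurs twice). -/
theorem gf_class {w : Finset (ι × Bool) → ℝ} (hw : ∀ S, 0 < w S) (hL : Lor w)
    {J : Finset ι} {W : Finset (ι × Bool)} (hW : Free J W) {i j : ι} (hi : i ∈ J) (hj : j ∈ J)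
    (hij : i ≠ j) (h : Finset (ι × Bool) → ℝ) (N Z : ℝ) (hN : N = trs J w W)
    (hZ : Z = Zc J w W j i) :
    (trs (J.erase i) (fun S => dd (ep j) w S * h S) W / (2 * Z) -
      trs (J.erase i) (fun S => dd (ep i) w S * h S) W / N) ^ 2 ≤
      (J.erase i).card * (1 / (4 * Z) * En ((J.erase i).erase j) w h W j +
        ∑ l ∈ (J.erase i).erase j,
          Zc J w W j l / (Z * N) * En ((J.erase i).erase l) w h W l) := by
  have hjK : j ∈ J.erase i := mem_erase.2 ⟨hij.symm, hj⟩
  have hWK : Free (J.erase i) W := fun a ha b => hW a (mem_of_mem_erase ha) b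
  have hj0 : (j, false) ∉ W := hW j hj false
  have hj1 : (j, true) ∉ W := hW j hj true
  have hNpos : 0 < N := by rw [hN]; exact trs_pos hW hw
  have hFree' : Free ((J.erase j).erase i) W := fun a ha b =>
    hW a (mem_of_mem_erase (mem_of_mem_erase ha)) b
  have hZpos : 0 < Z := by
    rw [hZ]; unfold Zc; exact trs_pos hFree' (fun S => hw _)
  set a : ℝ := 1 / (2 * Z) with ha
  set b : ℝ := -(1 / N) with hb
  set T : ι × Bool → ℝ := fun g => a * ep j g + b * ep i g with hTdef
  -- linearity
  have hlin : ∀ (f : Finset (ι × Bool) → ℝ) (S : Finset (ι × Bool)),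
      dd T f S = a * dd (ep j) f S + b * dd (ep i) f S := by
    intro f S
    rw [hTdef, dd_add (fun g => a * ep j g) (fun g => b * ep i g), dd_smul, dd_smul]
  -- the values
  have hKe : (J.erase i).erase j = (J.erase j).erase i := erase_right_comm
  have vjj : dd (ep j) (trs (J.erase i) w) W = 2 * Z := by
    rw [trs_erase_dd hjK, gfc_ep_ep j _ hj0 hj1, gfc_trs_double _ (notMem_erase _ _), hZ]
    unfold Zc
    rw [hKe]
  have vii : dd (ep i) (trs (J.erase i) w) W = N := by
    rw [hN, trs_erase_dd hi]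
  have hT0 : trs (J.erase i) (fun S => dd T w S) W = 0 := by
    have e : (fun S => dd T w S) = dd T w := rfl
    rw [e, gfc_trs_dd, hlin, vjj, vii, ha, hb]
    field_simp
    ring
  have hGF := GF hw hL (J.erase i) W hWK T hT0 h
  -- left side
  have hleft : trs (J.erase i) (fun S => dd T w S * h S) W =
      trs (J.erase i) (fun S => dd (ep j) w S * h S) W / (2 * Z) -
        trs (J.erase i) (fun S => dd (ep i) w S * h S) W / N := by
    have e : (fun S => dd T w S * h S) = fun S =>
        a * (dd (ep j) w S * h S) + b * (dd (ep i) w S * h S) := by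
      funext S; rw [hlin]; ring
    rw [e, trs_add, trs_smul, trs_smul, ha, hb]
    ring
  rw [hleft] at hGF
  -- bounds for the constants
  have hCj : Cn ((J.erase i).erase j) w T W ≤ 1 / (4 * Z) := by
    have q1 : QF (eps ((J.erase i).erase j)) w W T T =
        a ^ 2 * (2 * Z) + 2 * (a * b) * N +
          b ^ 2 * QF (eps ((J.erase i).erase j)) w W (ep i) (ep i) := by
      have e1 : QF (eps ((J.erase i).erase j)) w W (ep j) (ep j) = 2 * Z := by
        show dd (ep j) (dd (ep j) (trs ((J.erase i).erase j) w)) W = _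
        rw [← trs_erase_dd hjK, vjj]
      have e2 : QF (eps ((J.erase i).erase j)) w W (ep i) (ep j) = N := by
        show dd (ep i) (dd (ep j) (trs ((J.erase i).erase j) w)) W = _
        rw [← trs_erase_dd hjK, vii]
      have e3 : QF (eps ((J.erase i).erase j)) w W (ep j) (ep i) = N := by
        rw [QF_symm, e2]
      rw [hTdef]
      rw [QF_add_left _ _ _ (fun g => a * ep j g) (fun g => b * ep i g),
        QF_add_right _ _ _ (fun g => a * ep j g) (fun g => b * ep i g),
        QF_add_right _ _ _ (fun g => a * ep j g) (fun g => b * ep i g),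
        QF_smul_left, QF_smul_left, QF_smul_left, QF_smul_left, QF_smul_right, QF_smul_right,
        QF_smul_right, QF_smul_right, e1, e2, e3]
      ring
    have q2 : 0 ≤ QF (eps ((J.erase i).erase j)) w W (ep i) (ep i) :=
      QF_nonneg (fun S => (hw S).le) (eps_nonneg _) W (ep_nonneg i) (ep_nonneg i)
    unfold Cn QK
    rw [q1, ha, hb]
    have q3 : 0 ≤ (-(1 / N)) ^ 2 * QF (eps ((J.erase i).erase j)) w W (ep i) (ep i) :=
      mul_nonneg (sq_nonneg _) q2
    have q4 : (1 / (2 * Z)) ^ 2 * (2 * Z) + 2 * (1 / (2 * Z) * -(1 / N)) * N =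
        -(1 / (2 * Z)) := by
      field_simp
      ring
    have q5 : 1 / (2 * Z) = 2 * (1 / (4 * Z)) := by
      field_simp
      ring
    rw [q4, q5]
    linarith
  have hCl : ∀ l ∈ (J.erase i).erase j,
      Cn ((J.erase i).erase l) w T W ≤ Zc J w W j l / (Z * N) := by
    intro l hl
    have hlj : l ≠ j := ne_of_mem_erase hl
    have hlK : l ∈ J.erase i := mem_of_mem_erase hl
    have hli : l ≠ i := ne_of_mem_erase hlK
    have hlJ : l ∈ J := mem_of_mem_erase hlK
    have hjKl : j ∈ (J.erase i).erase l := mem_erase.2 ⟨hlj.symm, hjK⟩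
    have e1 : QF (eps ((J.erase i).erase l)) w W (ep j) (ep j) = 0 := by
      show dd (ep j) (dd (ep j) (trs ((J.erase i).erase l) w)) W = _
      rw [trs_erase_dd hjKl, gfc_ep_ep_ep j _ hj0 hj1]
    have e2 : QF (eps ((J.erase i).erase l)) w W (ep i) (ep j) = 2 * Zc J w W j l := by
      show dd (ep i) (dd (ep j) (trs ((J.erase i).erase l) w)) W = _
      rw [dd_comm, trs_erase_dd hjKl, dd_comm (ep i) (ep j)]
      have hins : dd (ep i) (trs (((J.erase i).erase l).erase j) w) =
          trs ((J.erase j).erase l) w := by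
        rw [← trs_insert_dd]
        · congr 1
          ext x
          simp only [mem_insert, mem_erase]
          constructor
          · rintro (rfl | ⟨h1, h2, h3, h4⟩)
            · exact ⟨hli.symm, hij, hi⟩
            · exact ⟨h2, h1, h4⟩
          · rintro ⟨h1, h2, h3⟩
            by_cases hx : x = i
            · exact Or.inl hx
            · exact Or.inr ⟨h2, h1, hx, h3⟩
        · simp
      rw [hins, gfc_ep_ep j _ hj0 hj1, gfc_trs_double]
      · rfl
      · simp
    have e3 : QF (eps ((J.erase i).erase l)) w W (ep j) (ep i) = 2 * Zc J w W j l := by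
      rw [QF_symm, e2]
    have q1 : QF (eps ((J.erase i).erase l)) w W T T =
        2 * (a * b) * (2 * Zc J w W j l) +
          b ^ 2 * QF (eps ((J.erase i).erase l)) w W (ep i) (ep i) := by
      rw [hTdef]
      rw [QF_add_left _ _ _ (fun g => a * ep j g) (fun g => b * ep i g),
        QF_add_right _ _ _ (fun g => a * ep j g) (fun g => b * ep i g),
        QF_add_right _ _ _ (fun g => a * ep j g) (fun g => b * ep i g),
        QF_smul_left, QF_smul_left, QF_smul_left, QF_smul_left, QF_smul_right, QF_smul_right,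
        QF_smul_right, QF_smul_right, e1, e2, e3]
      ring
    have q2 : 0 ≤ QF (eps ((J.erase i).erase l)) w W (ep i) (ep i) :=
      QF_nonneg (fun S => (hw S).le) (eps_nonneg _) W (ep_nonneg i) (ep_nonneg i)
    have q3 : 0 ≤ b ^ 2 * QF (eps ((J.erase i).erase l)) w W (ep i) (ep i) :=
      mul_nonneg (sq_nonneg _) q2
    have q4 : 2 * (a * b) * (2 * Zc J w W j l) = -2 * (Zc J w W j l / (Z * N)) := by
      rw [ha, hb]
      field_simp
    unfold Cn QK
    rw [q1, q4]
    linarith
  -- Cauchy-Schwarz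
  have hEn : ∀ l ∈ J.erase i, 0 ≤ En ((J.erase i).erase l) w h W l := fun l _ =>
    En_nonneg _ hw h W l
  have hCn0 : ∀ l ∈ J.erase i, 0 ≤ Cn ((J.erase i).erase l) w T W := fun l hl =>
    Cn_nonneg hw hL hWK hl hT0
  have hsq : (∑ l ∈ J.erase i, Real.sqrt (Cn ((J.erase i).erase l) w T W *
      En ((J.erase i).erase l) w h W l)) ^ 2 ≤ (J.erase i).card *
        ∑ l ∈ J.erase i, Cn ((J.erase i).erase l) w T W * En ((J.erase i).erase l) w h W l := by
    refine (sq_sum_le_card_mul_sum_sq).trans (le_of_eq ?_)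
    congr 1
    refine sum_congr rfl fun l hl => ?_
    rw [Real.sq_sqrt (mul_nonneg (hCn0 l hl) (hEn l hl))]
  have habs : (trs (J.erase i) (fun S => dd (ep j) w S * h S) W / (2 * Z) -
      trs (J.erase i) (fun S => dd (ep i) w S * h S) W / N) ^ 2 ≤
      (∑ l ∈ J.erase i, Real.sqrt (Cn ((J.erase i).erase l) w T W *
        En ((J.erase i).erase l) w h W l)) ^ 2 := by
    rw [← sq_abs]
    exact pow_le_pow_left₀ (abs_nonneg _) hGF 2
  refine habs.trans (hsq.trans ?_)
  refine mul_le_mul_of_nonneg_left ?_ (Nat.cast_nonneg _)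
  rw [← add_sum_erase _ _ hjK]
  refine add_le_add (mul_le_mul_of_nonneg_right hCj (hEn j hjK)) ?_
  refine sum_le_sum fun l hl => mul_le_mul_of_nonneg_right (hCl l hl)
    (hEn l (mem_of_mem_erase hl))

end Vale.Agent.P317R
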