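import Vale.Agent.P317R.GF
import Vale.Agent.P317R.Cyc

/-!
# P317R: corollary (F) of (GF)

MODULE GF2.
-/

namespace Vale.Agent.P317R

open Finset

variable {ι : Type*} [Fintype ι] [DecidableEq ι]

theorem gfr_free {J : Finset ι} {W : Finset (ι × Bool)} (hW : Free J W) (i : ι) :
    Free (J.erase i) W := fun j hj b => hW j (mem_of_mem_erase hj) b

theorem gfr_notMem {J : Finset ι} {W S : Finset (ι × Bool)} (hW : Free J W) {i : ι}
    (hi : i ∈ J) (hS : IsTr (J.erase i) W S) (b : Bool) : (i, b) ∉ S := by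
  intro h
  exact hW i hi b ((hS.1 (i, b) (notMem_erase i J)).1 h)

theorem gfr_QK {K : Finset ι} {w : Finset (ι × Bool) → ℝ} {W : Finset (ι × Bool)}
    (i : ι) (hi : i ∉ K) (hx : (i, false) ∉ W) (hy : (i, true) ∉ W) :
    QK K w W (ev (i, false)) (ev (i, true)) =
      trs K (fun S => w (insert (i, false) (insert (i, true) S))) W := by
  have hyx : (i, true) ∉ insert (i, false) W := by
    rw [mem_insert, not_or]; exact ⟨by simp, hy⟩
  show dd (ev (i, false)) (dd (ev (i, true)) (trs K w)) W = _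
  rw [dd_ev, if_neg hx, dd_ev, if_neg hyx, trs_shift (a := (i, true)) hi,
    trs_shift (a := (i, false)) hi]
  congr 1
  funext S
  rw [insert_comm]

theorem gfr_QK_self {K : Finset ι} {w : Finset (ι × Bool) → ℝ} {W : Finset (ι × Bool)}
    (a : ι × Bool) : QK K w W (ev a) (ev a) = 0 := by
  show dd (ev a) (dd (ev a) (trs K w)) W = 0
  rw [dd_ev]
  split_ifs
  · rfl
  · rw [dd_ev, if_pos (mem_insert_self _ _)]

/-- (F'): root pair `i ∈ J`, `K = J.erase i`, `x = (i, false)`, `y = (i, true)`: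
`N_x N_y (E_x h - E_y h)² ≤ (∑_j √(Z_W(i,j) E_j(h)))² ≤ |K| ∑_j Z_W(i,j) E_j(h)`,
with `N_x = trs K w (W + x)`, `E_x h = trs K (w (S + x) h S) W / N_x`.
GF with `T = ev x / N_x - ev y / N_y`. -/
theorem gf_root {w : Finset (ι × Bool) → ℝ} (hw : ∀ S, 0 < w S) (hL : Lor w)
    {J : Finset ι} {W : Finset (ι × Bool)} (hW : Free J W) {i : ι} (hi : i ∈ J)
    (h : Finset (ι × Bool) → ℝ) (Nx Ny Ax Ay : ℝ)
    (hNx : Nx = trs (J.erase i) (fun S => w (insert (i, false) S)) W)
    (hNy : Ny = trs (J.erase i) (fun S => w (insert (i, true) S)) W)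
    (hAx : Ax = trs (J.erase i) (fun S => w (insert (i, false) S) * h S) W)
    (hAy : Ay = trs (J.erase i) (fun S => w (insert (i, true) S) * h S) W) :
    Nx * Ny * (Ax / Nx - Ay / Ny) ^ 2 ≤ (J.erase i).card *
      ∑ j ∈ J.erase i, Zc J w W i j * En ((J.erase i).erase j) w h W j := by
  have hF := gfr_free hW i
  have hNx0 : 0 < Nx := by rw [hNx]; exact trs_pos hF fun S => hw _
  have hNy0 : 0 < Ny := by rw [hNy]; exact trs_pos hF fun S => hw _
  set T : ι × Bool → ℝ := fun g => Ny * ev (i, false) g + (-Nx) * ev (i, true) g with hT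
  have hddT : ∀ S, IsTr (J.erase i) W S →
      dd T w S = Ny * w (insert (i, false) S) + (-Nx) * w (insert (i, true) S) := by
    intro S hS
    have e1 : dd T w S = dd (fun g => Ny * ev (i, false) g) w S +
        dd (fun g => (-Nx) * ev (i, true) g) w S := dd_add _ _ _ _
    rw [e1, dd_smul, dd_smul, dd_ev, dd_ev, if_neg (gfr_notMem hW hi hS _),
      if_neg (gfr_notMem hW hi hS _)]
  have hT0 : trs (J.erase i) (fun S => dd T w S) W = 0 := by
    rw [trs_congr hF hddT, trs_add, trs_smul, trs_smul, ← hNx, ← hNy]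
    ring
  have hgf := GF hw hL (J.erase i) W hF T hT0 h
  have hlhs : trs (J.erase i) (fun S => dd T w S * h S) W = Ny * Ax - Nx * Ay := by
    have e : trs (J.erase i) (fun S => dd T w S * h S) W = trs (J.erase i) (fun S =>
        Ny * (w (insert (i, false) S) * h S) + (-Nx) * (w (insert (i, true) S) * h S)) W :=
      trs_congr hF fun S hS => by rw [hddT S hS]; ring
    rw [e, trs_add, trs_smul, trs_smul, ← hAx, ← hAy]
    ring
  have hCn : ∀ j ∈ J.erase i, Cn ((J.erase i).erase j) w T W = Nx * Ny * Zc J w W i j := by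
    intro j _
    have hi' : i ∉ (J.erase i).erase j := fun h' => notMem_erase i J (mem_of_mem_erase h')
    have e1 := gfr_QK (w := w) (W := W) i hi' (hW i hi false) (hW i hi true)
    unfold Cn Zc
    rw [← e1]
    have e2 : QK ((J.erase i).erase j) w W T T =
        Ny * (Ny * QK ((J.erase i).erase j) w W (ev (i, false)) (ev (i, false)) +
          (-Nx) * QK ((J.erase i).erase j) w W (ev (i, false)) (ev (i, true))) +
        (-Nx) * (Ny * QK ((J.erase i).erase j) w W (ev (i, false)) (ev (i, true)) +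
          (-Nx) * QK ((J.erase i).erase j) w W (ev (i, true)) (ev (i, true))) := by
      unfold QK
      have a1 : QF (eps ((J.erase i).erase j)) w W T T =
          QF (eps ((J.erase i).erase j)) w W (fun g => Ny * ev (i, false) g) T +
          QF (eps ((J.erase i).erase j)) w W (fun g => (-Nx) * ev (i, true) g) T :=
        QF_add_left _ _ _ _ _ _
      have a2 : ∀ u, QF (eps ((J.erase i).erase j)) w W u T =
          QF (eps ((J.erase i).erase j)) w W u (fun g => Ny * ev (i, false) g) +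
          QF (eps ((J.erase i).erase j)) w W u (fun g => (-Nx) * ev (i, true) g) :=
        fun u => QF_add_right _ _ _ _ _ _
      rw [a1, QF_smul_left, QF_smul_left, a2, a2, QF_smul_right, QF_smul_right, QF_smul_right,
        QF_smul_right, QF_symm _ w W (ev (i, true)) (ev (i, false))]
    rw [e2, gfr_QK_self, gfr_QK_self]
    ring
  have hZ : ∀ j ∈ J.erase i, 0 ≤ Zc J w W i j := fun j _ => trs_nonneg (fun S => (hw _).le) W
  have hE : ∀ j ∈ J.erase i, 0 ≤ En ((J.erase i).erase j) w h W j :=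
    fun j _ => En_nonneg _ hw h W j
  rw [hlhs] at hgf
  have hsq : (Ny * Ax - Nx * Ay) ^ 2 ≤ (J.erase i).card *
      ∑ j ∈ J.erase i, Nx * Ny * (Zc J w W i j * En ((J.erase i).erase j) w h W j) := by
    have h1 : (Ny * Ax - Nx * Ay) ^ 2 ≤ (∑ j ∈ J.erase i, Real.sqrt
        (Cn ((J.erase i).erase j) w T W * En ((J.erase i).erase j) w h W j)) ^ 2 := by
      rw [← sq_abs]
      exact pow_le_pow_left₀ (abs_nonneg _) hgf 2
    refine h1.trans ((sq_sum_le_card_mul_sum_sq).trans (le_of_eq ?_))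
    congr 1
    refine sum_congr rfl fun j hj => ?_
    rw [Real.sq_sqrt, hCn j hj]
    · ring
    · rw [hCn j hj]
      exact mul_nonneg (mul_nonneg (mul_nonneg hNx0.le hNy0.le) (hZ j hj)) (hE j hj)
  rw [← mul_sum] at hsq
  have hNN : 0 < Nx * Ny := mul_pos hNx0 hNy0
  have e : Nx * Ny * (Ax / Nx - Ay / Ny) ^ 2 = (Ny * Ax - Nx * Ay) ^ 2 / (Nx * Ny) := by
    field_simp
  rw [e, div_le_iff₀ hNN]
  linarith

end Vale.Agent.P317R
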