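import Vale.Agent.P317R.Levels
import Vale.Agent.P317R.Freq
import Vale.Agent.P328R.Est

/-!
# P317: from the exchange energy to the chain

`exEn` is the exchange energy of Theorems P and Q.  If these theorems hold at the level `k` for a
valid table then the kernel on the perfect states is a good chain, and the class frequencies after
`s` steps are right.
-/

namespace Vale.Agent.P317R

open Vale.Agent.P328RAM
open Vale.Agent.P328R (TVle GoodChain EE)
open scoped ENNReal
open Finset

variable {n : ℕ} {I : Inst n} {p : Par} {k : ℕ} {t : Tb n}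

/-- exchange energy: ordered pairs of states which differ by an exchange -/
noncomputable def exEn (w g : St n → ℝ) : ℝ :=
  ∑ B ∈ stS n, ∑ B' ∈ stS n, if (B \ B').card = 1 ∧ (B' \ B).card = 1 then
    min (w B) (w B') * (g B - g B') ^ 2 else 0

/-- an exchange -/
theorem exch_of_card {B B' : St n} (h : (B \ B').card = 1 ∧ (B' \ B).card = 1) :
    ∃ e ∈ B, ∃ f, f ∉ B ∧ B' = insert f (B.erase e) := by
  obtain ⟨e, he⟩ := card_eq_one.1 h.1
  obtain ⟨f, hf⟩ := card_eq_one.1 h.2
  have he' : e ∈ B ∧ e ∉ B' := by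
    have : e ∈ B \ B' := by rw [he]; exact mem_singleton_self e
    exact mem_sdiff.1 this
  have hf' : f ∈ B' ∧ f ∉ B := by
    have : f ∈ B' \ B := by rw [hf]; exact mem_singleton_self f
    exact mem_sdiff.1 this
  refine ⟨e, he'.1, f, hf'.2, ?_⟩
  ext x
  rw [mem_insert, mem_erase]
  constructor
  · intro hx
    by_cases hxB : x ∈ B
    · right
      refine ⟨?_, hxB⟩
      rintro rfl
      exact he'.2 hx
    · left
      have : x ∈ B' \ B := mem_sdiff.2 ⟨hx, hxB⟩
      rw [hf] at this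
      exact mem_singleton.1 this
  · rintro (rfl | ⟨h1, h2⟩)
    · exact hf'.1
    · by_contra hx
      have : x ∈ B \ B' := mem_sdiff.2 ⟨h2, hx⟩
      rw [he] at this
      exact h1 (mem_singleton.1 this)

/-- the exchange energy is bounded by the Dirichlet form -/
theorem exEn_le_dir (hI : I.Ok) (hn : 0 < n) (ht : TbOk p t) (hBn : n ≤ 2 ^ p.Bn)
    (g : St n → ℝ) :
    exEn (wR I k t) g ≤
      16 * (2 ^ p.Bn) ^ 2 * ZA I k t * dir (stS n) (piS I p k t) (stepI I p k t) g := by
  have hZ := ZA_pos (I := I) (k := k) (t := t) hn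
  have hsc := scW_pos hn p k
  have key : ∀ B ∈ stS n, ∀ B' ∈ stS n,
      (if (B \ B').card = 1 ∧ (B' \ B).card = 1 then
        min (wR I k t B) (wR I k t B') * (g B - g B') ^ 2 else 0) ≤
      8 * (2 ^ p.Bn) ^ 2 * ZA I k t * ((piS I p k t B).toReal * (stepI I p k t B B').toReal *
        (g B - g B') ^ 2) := by
    intro B hB B' hB'
    split_ifs with h
    · obtain ⟨e, he, f, hf, hBB⟩ := exch_of_card h
      have h1 := cond_ge (I := I) (k := k) (t := t) hn hBn he hf (mem_stS.1 hB)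
      rw [← hBB, Wt_eq hI hn ht k (mem_stS.1 hB), Wt_eq hI hn ht k (mem_stS.1 hB'),
        Zs_eq hI hn ht, ← mul_min_of_nonneg _ _ hsc.le, mul_div_mul_left _ _ hsc.ne'] at h1
      have h2 : min (wR I k t B) (wR I k t B') ≤ 8 * (2 ^ p.Bn) ^ 2 * ZA I k t *
          ((piS I p k t B).toReal * (stepI I p k t B B').toReal) := by
        have h3 := mul_le_mul_of_nonneg_left h1
          (by positivity : (0 : ℝ) ≤ 8 * (2 ^ p.Bn) ^ 2 * ZA I k t)
        refine le_trans (le_of_eq ?_) h3
        field_simp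
      calc _ ≤ 8 * (2 ^ p.Bn) ^ 2 * ZA I k t *
            ((piS I p k t B).toReal * (stepI I p k t B B').toReal) * (g B - g B') ^ 2 :=
            mul_le_mul_of_nonneg_right h2 (sq_nonneg _)
        _ = _ := by ring
    · have : 0 ≤ (piS I p k t B).toReal * (stepI I p k t B B').toReal * (g B - g B') ^ 2 := by
        positivity
      positivity
  unfold exEn dir
  calc _ ≤ ∑ B ∈ stS n, ∑ B' ∈ stS n, 8 * (2 ^ p.Bn) ^ 2 * ZA I k t *
        ((piS I p k t B).toReal * (stepI I p k t B B').toReal * (g B - g B') ^ 2) :=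
        sum_le_sum fun B hB => sum_le_sum fun B' hB' => key B hB B' hB'
    _ = _ := by
        simp only [← mul_sum]
        ring

theorem revChain (hn : 0 < n) : RevChain (stS n) (piS I p k t) (stepI I p k t) where
  supp := piS_supp hn
  closed := stepI_closed hn
  rev := stepI_rev hn
  lazy := fun B _ => stepI_lazy_real B

theorem piS_real (hI : I.Ok) (hn : 0 < n) (ht : TbOk p t) {B : St n} (hB : B ∈ stS n) :
    (piS I p k t B).toReal = wR I k t B / ZA I k t := by
  rw [piS_apply_real hn, Wt_eq hI hn ht k (mem_stS.1 hB), Zs_eq hI hn ht,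
    mul_div_mul_left _ _ (scW_pos hn p k).ne']

/-- class means in terms of the real weights -/
theorem cmean_piS (hI : I.Ok) (hn : 0 < n) (ht : TbOk p t) (c : Option (Fin n × Fin n))
    (g : St n → ℝ) : cmean (piS I p k t) (clS n c) g =
      (∑ B ∈ clS n c, wR I k t B * g B) / ZT I k t c := by
  unfold cmean
  rw [mass_piS hI hn ht]
  have h1 : ∑ B ∈ clS n c, (piS I p k t B).toReal * g B =
      (∑ B ∈ clS n c, wR I k t B * g B) / ZA I k t := by
    rw [sum_div]
    refine sum_congr rfl fun B hB => ?_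
    rw [piS_real hI hn ht (clS_subset c hB)]
    ring
  rw [h1, div_div_div_cancel_right₀ (ZA_pos hn).ne']

/-- Theorem P at the level `k` with constant `C` -/
def ThmP (I : Inst n) (k : ℕ) (t : Tb n) (C : ℝ) : Prop :=
  ∀ g : St n → ℝ, ∑ B ∈ peS n, wR I k t B *
    (g B - (∑ B ∈ peS n, wR I k t B * g B) / ZR I k none) ^ 2 ≤ C * exEn (wR I k t) g

/-- Theorem Q at the level `k` with constant `C` -/
def ThmQ (I : Inst n) (k : ℕ) (t : Tb n) (C : ℝ) : Prop :=
  ∀ ij : Fin n × Fin n, ij.1 ≠ ij.2 → ∀ g : St n → ℝ,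
    ZR I k none * ((∑ B ∈ clS n (some ij), wR I k t B * g B) / ZT I k t (some ij) -
      (∑ B ∈ peS n, wR I k t B * g B) / ZR I k none) ^ 2 ≤ C * exEn (wR I k t) g

theorem hP_of (hI : I.Ok) (hn : 0 < n) (ht : TbOk p t) (hBn : n ≤ 2 ^ p.Bn) {C : ℝ} (hC : 0 ≤ C)
    (hP : ThmP I k t C) (g : St n → ℝ) :
    ∑ x ∈ peS n, (piS I p k t x).toReal * (g x - cmean (piS I p k t) (peS n) g) ^ 2 ≤
      16 * (2 ^ p.Bn) ^ 2 * C * dir (stS n) (piS I p k t) (stepI I p k t) g := by
  have hZ := ZA_pos (I := I) (k := k) (t := t) hn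
  have e1 : cmean (piS I p k t) (peS n) g =
      (∑ B ∈ peS n, wR I k t B * g B) / ZR I k none := by
    have := cmean_piS (k := k) hI hn ht none g
    rw [ZT_none] at this
    exact this
  rw [e1]
  have e2 : ∀ m : ℝ, ∑ x ∈ peS n, (piS I p k t x).toReal * (g x - m) ^ 2 =
      (∑ x ∈ peS n, wR I k t x * (g x - m) ^ 2) / ZA I k t := by
    intro m
    rw [sum_div]
    refine sum_congr rfl fun B hB => ?_
    rw [piS_real hI hn ht (peS_subset hB)]
    ring
  rw [e2, div_le_iff₀ hZ]
  refine (hP g).trans ?_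
  calc C * exEn (wR I k t) g ≤ C * (16 * (2 ^ p.Bn) ^ 2 * ZA I k t *
        dir (stS n) (piS I p k t) (stepI I p k t) g) :=
        mul_le_mul_of_nonneg_left (exEn_le_dir hI hn ht hBn g) hC
    _ = _ := by ring

theorem hQ_of (hI : I.Ok) (hn : 0 < n) (ht : TbOk p t) (hv : Valid I k t)
    (hBn : n ≤ 2 ^ p.Bn) {C : ℝ} (hC : 0 ≤ C) (hQ : ThmQ I k t C)
    {ij : Fin n × Fin n} (hij : ij.1 ≠ ij.2) (g : St n → ℝ) :
    (cmean (piS I p k t) (clS n (some ij)) g - cmean (piS I p k t) (peS n) g) ^ 2 ≤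
      64 * n ^ 2 * (2 ^ p.Bn) ^ 2 * C * dir (stS n) (piS I p k t) (stepI I p k t) g := by
  have hN := ZR_none_pos (I := I) (k := k) hn
  have e1 : cmean (piS I p k t) (peS n) g =
      (∑ B ∈ peS n, wR I k t B * g B) / ZR I k none := by
    have := cmean_piS (k := k) hI hn ht none g
    rw [ZT_none] at this
    exact this
  rw [e1, cmean_piS hI hn ht]
  refine le_of_mul_le_mul_left ?_ hN
  refine (hQ ij hij g).trans ?_
  have hd := dir_nonneg (S := stS n) (π := piS I p k t) (κ := stepI I p k t) g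
  have hZ := ZA_le (I := I) (k := k) (t := t) hn hv
  calc C * exEn (wR I k t) g ≤ C * (16 * (2 ^ p.Bn) ^ 2 * ZA I k t *
        dir (stS n) (piS I p k t) (stepI I p k t) g) :=
        mul_le_mul_of_nonneg_left (exEn_le_dir hI hn ht hBn g) hC
    _ ≤ C * (16 * (2 ^ p.Bn) ^ 2 * (4 * n ^ 2 * ZR I k none) *
        dir (stS n) (piS I p k t) (stepI I p k t) g) := by gcongr
    _ = _ := by ring

/-- the nondiagonal classes -/
def offD (n : ℕ) : Finset (Fin n × Fin n) := univ.filter fun ij => ij.1 ≠ ij.2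

theorem hpart_of (f : St n → ℝ) : ∑ B ∈ stS n, f B =
    ∑ B ∈ peS n, f B + ∑ c ∈ offD n, ∑ B ∈ clS n (some c), f B := by
  rw [sum_stS']
  congr 1
  unfold offD
  rw [sum_filter]
  refine sum_congr rfl fun ij _ => ?_
  split_ifs with h
  · rfl
  · have : ij = (ij.1, ij.1) := Prod.ext rfl (by push Not at h; exact h.symm)
    rw [this, clS_diag, sum_empty]

/-- the constant of the level -/
noncomputable def Klev (n : ℕ) (p : Par) (CP CQ : ℝ) : ℝ :=
  16 * (2 ^ p.Bn) ^ 2 * CP + 64 * n ^ 2 * (2 ^ p.Bn) ^ 2 * CQ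

/-- **The watched kernel at a level with a valid table is good.** -/
theorem level_good (hI : I.Ok) (hn : 0 < n) (ht : TbOk p t) (hv : Valid I k t)
    (hBn : n ≤ 2 ^ p.Bn) {CP CQ : ℝ} (hCP : 0 ≤ CP) (hCQ : 0 ≤ CQ) (hP : ThmP I k t CP)
    (hQ : ThmQ I k t CQ) {θ : ℝ} (hθ : 0 ≤ θ) (hθn : 8 * n ^ 2 * θ ≤ 1)
    (hs : Klev n p CP CQ ≤ θ ^ 2 * (p.s + 1)) :
    GoodChain (peS n) (piP I p k t) (jker (stepI I p k t) p.s Perf) (16 * n ^ 2)
      (32 * n ^ 2 * θ) := by
  have hn1 : (1 : ℝ) ≤ n := by exact_mod_cast hn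
  have hmass := mass_perf_ge (k := k) hI hn ht hv
  have hm0 : 0 < mass (piS I p k t) (peS n) :=
    lt_of_lt_of_le (by positivity) hmass
  have hH := hH_of_classes (S := stS n) (F := peS n) (π := piS I p k t) (κ := stepI I p k t)
    (T := offD n) (C := fun c => clS n (some c)) (piS_supp hn) hpart_of
    (fun g => hP_of hI hn ht hBn hCP hP g)
    (fun c hc g => hQ_of hI hn ht hv hBn hCQ hQ (mem_filter.1 hc).2 g)
    (by positivity) peS_subset
  have hg := good_jker (revChain (I := I) (p := p) (k := k) (t := t) hn) Perf (F := peS n)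
    (πA := piP I p k t)
    (fun x => by
      rw [mem_peS, mem_stS]
      exact ⟨fun h => ⟨Or.inl h, h⟩, fun h => h.2⟩)
    hθ p.s hH hs hm0 (by
      refine le_trans ?_ hmass
      rw [le_div_iff₀ (by positivity)]
      linarith)
    (fun x hx => piP_apply_not hn fun h => hx (mem_peS.2 h))
    (fun x hx => by
      have e1 : mass (piS I p k t) (peS n) = ZR I k none / ZA I k t := by
        have := mass_piS (k := k) hI hn ht none
        rw [ZT_none] at this
        exact this
      rw [e1, piS_real hI hn ht (peS_subset hx), wR_perf I k t (mem_peS.1 hx),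
        piP_apply_real' hI hn ht (mem_peS.1 hx),
        div_div_div_cancel_right₀ (ZA_pos hn).ne'])
  -- weaken the constants
  have hinv : 1 / mass (piS I p k t) (peS n) ≤ 4 * n ^ 2 := by
    rw [div_le_iff₀ hm0]
    have := mul_le_mul_of_nonneg_left hmass (by positivity : (0 : ℝ) ≤ 4 * n ^ 2)
    have e : (4 * (n : ℝ) ^ 2) * (1 / (4 * n ^ 2)) = 1 := by field_simp
    linarith
  refine ⟨hg.supp, hg.closed, hg.rev, hg.lazy, by nlinarith, fun g B hB => ?_⟩
  refine (hg.wp g B hB).trans (add_le_add ?_ ?_)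
  · refine mul_le_mul_of_nonneg_right ?_ ?_
    · have : 4 / mass (piS I p k t) (peS n) = 4 * (1 / mass (piS I p k t) (peS n)) := by ring
      rw [this]; linarith
    · refine mul_nonneg (by norm_num) (sum_nonneg fun x _ => sum_nonneg fun y _ => ?_)
      exact mul_nonneg (mul_nonneg ENNReal.toReal_nonneg ENNReal.toReal_nonneg) (sq_nonneg _)
  · refine mul_le_mul_of_nonneg_right ?_ (sq_nonneg _)
    have : 8 * θ / mass (piS I p k t) (peS n) = 8 * θ * (1 / mass (piS I p k t) (peS n)) := by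
      ring
    rw [this]
    have := mul_le_mul_of_nonneg_left hinv (by positivity : 0 ≤ 8 * θ)
    linarith

/-- **Class frequencies at a level with a valid table.** -/
theorem level_freq (hI : I.Ok) (hn : 0 < n) (ht : TbOk p t) (hv : Valid I k t)
    (hBn : n ≤ 2 ^ p.Bn) {CP CQ : ℝ} (hCP : 0 ≤ CP) (hCQ : 0 ≤ CQ)
    (hQ : ThmQ I k t CQ) {θ : ℝ} (hθ : 0 ≤ θ)
    (hs : Klev n p CP CQ ≤ θ ^ 2 * (p.s + 1))
    {μ : PMF (St n)} {δ : ℝ} (hδ : 0 ≤ δ) (hμ : TVle μ (piP I p k t) (ENNReal.ofReal δ))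
    (hμS : ∀ x ∈ μ.support, x ∈ stS n) (c : Option (Fin n × Fin n)) :
    |((μ.bind fun B => (iterBind (stepK I p k t) p.s B).map cl) c).toReal -
      ZT I k t c / ZA I k t| ≤ δ + p.s * ((2 : ℝ) ^ p.K)⁻¹ + 4 * n * θ := by
  classical
  have hn1 : (1 : ℝ) ≤ n := by exact_mod_cast hn
  have hmass := mass_perf_ge (k := k) hI hn ht hv
  have hm0 : 0 < mass (piS I p k t) (peS n) :=
    lt_of_lt_of_le (by positivity) hmass
  set K' : ℝ := 64 * n ^ 2 * (2 ^ p.Bn) ^ 2 * CQ with hK'
  have hK'0 : 0 ≤ K' := by positivity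
  have hC : ∀ g : St n → ℝ, (∑ x ∈ clS n c, (piS I p k t x).toReal *
      (g x - mean (stS n) (piS I p k t) g)) ^ 2 ≤
      4 * K' * dir (stS n) (piS I p k t) (stepI I p k t) g := by
    intro g
    cases c with
    | none =>
      exact hF_of_classes (S := stS n) (F := peS n) (π := piS I p k t) (κ := stepI I p k t)
        (T := offD n) (C := fun c => clS n (some c)) (piS_supp hn) hpart_of
        (fun c hc g => hQ_of hI hn ht hv hBn hCQ hQ (mem_filter.1 hc).2 g) hK'0 peS_subset g
    | some ij =>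
      by_cases hij : ij.1 ≠ ij.2
      · exact hC_of_classes (S := stS n) (F := peS n) (π := piS I p k t) (κ := stepI I p k t)
          (T := offD n) (C := fun c => clS n (some c)) (piS_supp hn) hpart_of
          (fun c hc g => hQ_of hI hn ht hv hBn hCQ hQ (mem_filter.1 hc).2 g) hK'0
          (mem_filter.2 ⟨mem_univ _, hij⟩) (clS_subset _) g
      · have : ij = (ij.1, ij.1) := Prod.ext rfl (by push Not at hij; exact hij.symm)
        rw [this, clS_diag, sum_empty, zero_pow two_ne_zero]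
        exact mul_nonneg (by positivity) (dir_nonneg g)
  have hζ : ENNReal.ofReal ((2 : ℝ) ^ p.K)⁻¹ = ((2 : ℝ≥0∞) ^ p.K)⁻¹ := by
    rw [ENNReal.ofReal_inv_of_pos (by positivity), ENNReal.ofReal_pow (by norm_num)]
    norm_num
  have hf := freq_pass (revChain (I := I) (p := p) (k := k) (t := t) hn) peS_subset hm0
    (πA := piP I p k t)
    (fun x hx => piP_apply_not hn fun h => hx (mem_peS.2 h))
    (fun x hx => by
      have e1 : mass (piS I p k t) (peS n) = ZR I k none / ZA I k t := by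
        have := mass_piS (k := k) hI hn ht none
        rw [ZT_none] at this
        exact this
      rw [e1, piS_real hI hn ht (peS_subset hx), wR_perf I k t (mem_peS.1 hx),
        piP_apply_real' hI hn ht (mem_peS.1 hx),
        div_div_div_cancel_right₀ (ZA_pos hn).ne'])
    (clS_subset c) (by positivity) hC (κ' := stepK I p k t) (ζ := ((2 : ℝ) ^ p.K)⁻¹)
    (by positivity) (stepK_closed hn)
    (fun x hx => by rw [hζ]; exact stepK_stepI hn (mem_stS.1 hx)) hδ hμ p.s
  rw [mass_piS hI hn ht] at hf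
  -- the law of the class
  have e0 : ((μ.bind fun B => (iterBind (stepK I p k t) p.s B).map cl) c) =
      (μ.bind (iterBind (stepK I p k t) p.s)).toOuterMeasure (clS n c) := by
    have e1 : (μ.bind fun B => (iterBind (stepK I p k t) p.s B).map cl) =
        (μ.bind (iterBind (stepK I p k t) p.s)).map cl := by
      rw [PMF.map_bind]
    have e2 : ((μ.bind (iterBind (stepK I p k t) p.s)).map cl) c =
        ((μ.bind (iterBind (stepK I p k t) p.s)).map cl).toOuterMeasure {c} :=
      (PMF.toOuterMeasure_apply_singleton _ _).symm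
    rw [e1, e2, PMF.toOuterMeasure_map_apply]
    refine PMF.toOuterMeasure_apply_eq_of_inter_support_eq _ ?_
    ext B
    simp only [Set.mem_inter_iff, Set.mem_preimage, Set.mem_singleton_iff, mem_coe]
    constructor
    · rintro ⟨h1, h2⟩
      refine ⟨mem_clS.2 ⟨?_, h1⟩, h2⟩
      obtain ⟨B0, hB0, hB⟩ := (PMF.mem_support_bind_iff _ _ _).1 h2
      exact mem_stS.1 (P328R.iterBind_inv (I := fun x => x ∈ stS n)
        (fun x hx => stepK_closed hn x hx) p.s B0 (hμS B0 hB0) B hB)
    · rintro ⟨h1, h2⟩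
      exact ⟨(mem_clS.1 h1).2, h2⟩
  rw [e0]
  refine hf.trans ?_
  have hsq : Real.sqrt (4 * K' / (mass (piS I p k t) (peS n) * (p.s + 1))) ≤ 4 * n * θ := by
    apply Real.sqrt_le_iff.2
    refine ⟨by positivity, ?_⟩
    rw [div_le_iff₀ (by positivity)]
    have h1 : K' ≤ θ ^ 2 * (p.s + 1) := by
      refine le_trans ?_ hs
      unfold Klev
      rw [hK']
      have : 0 ≤ 16 * ((2 : ℝ) ^ p.Bn) ^ 2 * CP := by positivity
      linarith
    have h2 : 1 ≤ 4 * n ^ 2 * mass (piS I p k t) (peS n) := by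
      have := mul_le_mul_of_nonneg_left hmass (by positivity : (0 : ℝ) ≤ 4 * n ^ 2)
      have e : (4 * (n : ℝ) ^ 2) * (1 / (4 * n ^ 2)) = 1 := by field_simp
      linarith
    have h3 : 0 ≤ θ ^ 2 * (p.s + 1) := by positivity
    calc 4 * K' ≤ 4 * (θ ^ 2 * (p.s + 1)) * 1 := by linarith
      _ ≤ 4 * (θ ^ 2 * (p.s + 1)) * (4 * n ^ 2 * mass (piS I p k t) (peS n)) := by gcongr
      _ = _ := by ring
  linarith

end Vale.Agent.P317R
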