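import Vale.Agent.P317R.Glue
import Vale.Agent.P317R.Final

/-!
# P317: the levels with valid tables, with the final constants
-/

namespace Vale.Agent.P317R

open Vale.Agent.P328RAM
open Vale.Agent.P328R (TVle GoodChain EE)
open scoped ENNReal
open Finset

variable {n : ℕ} {I : Inst n} {p : Par} {k : ℕ} {t : Tb n}

theorem Nk_eq : Nk I k = ZR I k none := rfl

theorem Zk_eq (ij : Fin n × Fin n) : Zk I k ij = ZR I k (some ij) := rfl

theorem EE2_eq (g : St n → ℝ) : EE2 I k t g = (1 / 2) * exEn (wR I k t) g := rfl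

theorem hv_of (hv : Valid I k t) (i j : Fin n) (hij : i ≠ j) :
    Nk I k ≤ 4 * ((2 : ℝ) ^ t (i, j) * Zk I k (i, j)) :=
  (hv (i, j) hij).1

theorem sum_peS_wR (f : St n → ℝ) :
    ∑ B ∈ peS n, wR I k t B * f B = ∑ B ∈ peS n, qn n ^ (k * null I B) * f B :=
  sum_congr rfl fun B hB => by rw [wR_perf I k t (mem_peS.1 hB)]

/-- Theorem P -/
theorem thmP (hI : I.Ok) (hn : 0 < n) (hv : Valid I k t) : ThmP I k t (12 * n) := by
  intro g
  have h := finalP hI hn k t (hv_of hv) g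
  rw [sum_peS_wR g, sum_peS_wR fun B =>
    (g B - (∑ B ∈ peS n, qn n ^ (k * null I B) * g B) / ZR I k none) ^ 2]
  refine h.trans (le_of_eq ?_)
  rw [EE2_eq]; ring

/-- Theorem Q -/
theorem thmQ (hI : I.Ok) (hn : 0 < n) (hv : Valid I k t) : ThmQ I k t (17 * n) := by
  rintro ⟨i, j⟩ hij g
  have h := finalQ hI hn k t (hv_of hv) g hij
  have hen : 0 ≤ exEn (wR I k t) g := by
    unfold exEn
    refine sum_nonneg fun B _ => sum_nonneg fun B' _ => ?_
    split_ifs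
    · exact mul_nonneg (le_min (wR_pos hn I k t B).le (wR_pos hn I k t B').le) (sq_nonneg _)
    · exact le_rfl
  have e : (∑ B ∈ clS n (some (i, j)), wR I k t B * g B) / ZT I k t (some (i, j)) =
      (∑ B ∈ clS n (some (i, j)), qn n ^ (k * null I B) * g B) / Zk I k (i, j) := by
    have h1 : ∑ B ∈ clS n (some (i, j)), wR I k t B * g B =
        (2 : ℝ) ^ exq t (some (i, j)) *
          ∑ B ∈ clS n (some (i, j)), qn n ^ (k * null I B) * g B := by
      rw [mul_sum]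
      refine sum_congr rfl fun B hB => ?_
      rw [wR_of_cl hB]; ring
    rw [h1]
    unfold ZT
    exact mul_div_mul_left _ _ (by positivity)
  rw [e, sum_peS_wR g]
  refine h.trans ?_
  rw [EE2_eq]
  have : (0 : ℝ) ≤ n := Nat.cast_nonneg n
  nlinarith [mul_nonneg this hen]

/-- the constant `Klev n p (12 n) (17 n)` is at most `1280 n³ 4 ^ Bn` -/
theorem Klev_le (hn : 0 < n) (p : Par) :
    Klev n p (12 * n) (17 * n) ≤ 1280 * n ^ 3 * (2 ^ p.Bn) ^ 2 := by
  unfold Klev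
  have h1 : (1 : ℝ) ≤ n := by exact_mod_cast hn
  have h2 : (n : ℝ) ≤ n ^ 3 := by nlinarith [sq_nonneg ((n : ℝ) - 1)]
  have h3 : (0 : ℝ) ≤ (2 ^ p.Bn) ^ 2 := by positivity
  nlinarith [mul_le_mul_of_nonneg_left h2 h3]

/-- **The watched kernel at a level with a valid table is good (final constants).** -/
theorem good_level (hI : I.Ok) (hn : 0 < n) (ht : TbOk p t) (hv : Valid I k t)
    (hBn : n ≤ 2 ^ p.Bn) {θ : ℝ} (hθ : 0 ≤ θ) (hθn : 8 * n ^ 2 * θ ≤ 1)
    (hs : 1280 * n ^ 3 * (2 ^ p.Bn) ^ 2 ≤ θ ^ 2 * (p.s + 1)) :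
    GoodChain (peS n) (piP I p k t) (jker (stepI I p k t) p.s Perf) (16 * n ^ 2)
      (32 * n ^ 2 * θ) :=
  level_good hI hn ht hv hBn (by positivity) (by positivity) (thmP hI hn hv) (thmQ hI hn hv)
    hθ hθn ((Klev_le hn p).trans hs)

/-- **Class frequencies at a level with a valid table (final constants).** -/
theorem freq_level (hI : I.Ok) (hn : 0 < n) (ht : TbOk p t) (hv : Valid I k t)
    (hBn : n ≤ 2 ^ p.Bn) {θ : ℝ} (hθ : 0 ≤ θ)
    (hs : 1280 * n ^ 3 * (2 ^ p.Bn) ^ 2 ≤ θ ^ 2 * (p.s + 1))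
    {μ : PMF (St n)} {δ : ℝ} (hδ : 0 ≤ δ) (hμ : TVle μ (piP I p k t) (ENNReal.ofReal δ))
    (hμS : ∀ x ∈ μ.support, x ∈ stS n) (c : Option (Fin n × Fin n)) :
    |((μ.bind fun B => (iterBind (stepK I p k t) p.s B).map cl) c).toReal -
      mass (piS I p k t) (clS n c)| ≤ δ + p.s * ((2 : ℝ) ^ p.K)⁻¹ + 4 * n * θ := by
  rw [mass_piS hI hn ht]
  exact level_freq (CP := 12 * n) (CQ := 17 * n) hI hn ht hv hBn (by positivity) (by positivity)
    (thmQ hI hn hv) hθ ((Klev_le hn p).trans hs) hδ hμ hμS c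

end Vale.Agent.P317R
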