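import Vale.Agent.P317R.Decay
import Vale.Agent.P328R.MixPMF
import Vale.Agent.P328R.Pert

/-!
# P317: the watched kernel `J` satisfies a weak Poincaré inequality

Let `P` be a lazy reversible kernel on a finite set with stationary law `p`, `A` a set of states.
From a state of `A` run `P` for `s` steps and stay if the end point is not in `A`.  If functions
are controlled on `A` by the Dirichlet form of `P` then this kernel satisfies a weak Poincaré
inequality on `A`.
-/

namespace Vale.Agent.P317R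

open Finset Vale.Agent.P328R

section Real

variable {Ω : Type*} [Fintype Ω] {p : Ω → ℝ} {P : Ω → Ω → ℝ}

omit [Fintype Ω] in
/-- weighted Cauchy–Schwarz -/
theorem wcs (A : Finset Ω) {p : Ω → ℝ} (hp : ∀ x, 0 ≤ p x) (a b : Ω → ℝ) :
    (∑ x ∈ A, p x * (a x * b x)) ^ 2 ≤ (∑ x ∈ A, p x * a x ^ 2) * ∑ x ∈ A, p x * b x ^ 2 := by
  have h := sum_mul_sq_le_sq_mul_sq A (fun x => Real.sqrt (p x) * a x)
    (fun x => Real.sqrt (p x) * b x)
  have e1 : ∀ x, Real.sqrt (p x) * a x * (Real.sqrt (p x) * b x) = p x * (a x * b x) := fun x => by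
    calc _ = Real.sqrt (p x) * Real.sqrt (p x) * (a x * b x) := by ring
      _ = _ := by rw [Real.mul_self_sqrt (hp x)]
  have e2 : ∀ (c : Ω → ℝ) x, (Real.sqrt (p x) * c x) ^ 2 = p x * c x ^ 2 := fun c x => by
    rw [mul_pow, Real.sq_sqrt (hp x)]
  simp only [e1, e2] at h
  exact h

theorem ip_iter (h : LazyRev p P) (f g : Ω → ℝ) (s : ℕ) :
    ip p ((opP P)^[s] f) g = ip p f ((opP P)^[s] g) := by
  induction s generalizing f with
  | zero => rfl
  | succ s ih => rw [Function.iterate_succ_apply, ih, ip_opP h, ← Function.iterate_succ_apply' (opP P)]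

/-- the matrix of `P ^ s` is reversible -/
theorem iter_rev (h : LazyRev p P) {s : ℕ} {Q : Ω → Ω → ℝ}
    (hQ : ∀ (g : Ω → ℝ) x, ∑ y, Q x y * g y = (opP P)^[s] g x) (x y : Ω) :
    p x * Q x y = p y * Q y x := by
  classical
  have key : ∀ a b : Ω, ip p (Pi.single a (1 : ℝ)) ((opP P)^[s] (Pi.single b 1)) = p a * Q a b := by
    intro a b
    unfold ip
    rw [sum_eq_single a]
    · rw [← hQ, sum_eq_single b]
      · simp
      · intro c _ hc; simp [hc]
      · simp
    · intro c _ hc; simp [hc]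
    · simp
  rw [← key x y, ← ip_iter h, ip_comm, key y x]

/-- `L²` deviation of `P^s f` from its mean on `A` -/
theorem dev_le (h : LazyRev p P) (A : Finset Ω) {K θ : ℝ} (s : ℕ)
    (hH : ∀ g : Ω → ℝ, ∑ x ∈ A, p x * (g x - Ex p g) ^ 2 ≤ K * Dir p P g)
    (hs : K ≤ θ ^ 2 * (s + 1)) (f : Ω → ℝ) :
    ∑ x ∈ A, p x * ((opP P)^[s] f x - Ex p f) ^ 2 ≤ θ ^ 2 * Vr p f := by
  have h1 := hH ((opP P)^[s] f)
  rw [Ex_iter h f s] at h1
  have h2 := Dir_iter_le h f s
  have h3 := Dir_nonneg h ((opP P)^[s] f)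
  calc _ ≤ K * Dir p P ((opP P)^[s] f) := h1
    _ ≤ θ ^ 2 * (s + 1) * Dir p P ((opP P)^[s] f) := mul_le_mul_of_nonneg_right hs h3
    _ = θ ^ 2 * ((s + 1) * Dir p P ((opP P)^[s] f)) := by ring
    _ ≤ _ := mul_le_mul_of_nonneg_left h2 (sq_nonneg _)

/-- **Weak Poincaré inequality for the watched kernel.** -/
theorem watched (h : LazyRev p P) (A : Finset Ω) {K θ : ℝ} (hθ : 0 ≤ θ) (s : ℕ)
    (hH : ∀ g : Ω → ℝ, ∑ x ∈ A, p x * (g x - Ex p g) ^ 2 ≤ K * Dir p P g)
    (hs : K ≤ θ ^ 2 * (s + 1)) (hA : 0 < ∑ x ∈ A, p x) (hθA : 2 * θ ≤ ∑ x ∈ A, p x)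
    {Q : Ω → Ω → ℝ} (hQ : ∀ (g : Ω → ℝ) x, ∑ y, Q x y * g y = (opP P)^[s] g x)
    (g : Ω → ℝ) {B : ℝ} (hg : ∀ x ∈ A, |g x| ≤ B) :
    ∑ x ∈ A, p x * (g x - (∑ z ∈ A, p z * g z) / (∑ z ∈ A, p z)) ^ 2 ≤
      (2 / (∑ z ∈ A, p z)) *
        ((1 / 2) * ∑ x ∈ A, ∑ y ∈ A, p x * Q x y * (g x - g y) ^ 2) + 8 * θ * B ^ 2 := by
  classical
  set pA := ∑ z ∈ A, p z with hpA
  set m := (∑ z ∈ A, p z * g z) / pA with hm
  have hp := h.p_nonneg
  -- `B ≥ 0`
  have hB : 0 ≤ B := by
    rcases A.eq_empty_or_nonempty with h0 | ⟨x, hx⟩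
    · rw [hpA, h0] at hA; simp at hA
    · exact (abs_nonneg _).trans (hg x hx)
  have hmB : |m| ≤ B := by
    rw [hm, abs_div, abs_of_pos hA, div_le_iff₀ hA]
    calc |∑ z ∈ A, p z * g z| ≤ ∑ z ∈ A, |p z * g z| := abs_sum_le_sum_abs _ _
      _ ≤ ∑ z ∈ A, p z * B := sum_le_sum fun z hz => by
        rw [abs_mul, abs_of_nonneg (hp z)]
        exact mul_le_mul_of_nonneg_left (hg z hz) (hp z)
      _ = B * pA := by rw [← sum_mul, mul_comm]
  have hhB : ∀ x ∈ A, (g x - m) ^ 2 ≤ 4 * B ^ 2 := by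
    intro x hx
    have h1 : |g x - m| ≤ 2 * B := by
      have := abs_sub (g x) m
      linarith [hg x hx]
    have := pow_le_pow_left₀ (abs_nonneg _) h1 2
    rw [sq_abs] at this
    linarith
  set V := ∑ x ∈ A, p x * (g x - m) ^ 2 with hV
  have hV0 : 0 ≤ V := sum_nonneg fun x _ => mul_nonneg (hp x) (sq_nonneg _)
  -- the extended function
  set G : Ω → ℝ := fun x => if x ∈ A then g x - m else 0 with hG
  set I : Ω → ℝ := fun x => if x ∈ A then 1 else 0 with hI
  have sumA : ∀ c d : Ω → ℝ, ∑ x, c x * (if x ∈ A then d x else 0) = ∑ x ∈ A, c x * d x := by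
    intro c d
    rw [← sum_filter_add_sum_filter_not univ (fun x => x ∈ A)]
    have e1 : (univ.filter fun x => x ∈ A) = A := by ext; simp
    rw [e1]
    have e2 : ∑ x ∈ univ.filter (fun x => ¬ x ∈ A), c x * (if x ∈ A then d x else 0) = 0 :=
      sum_eq_zero fun x hx => by rw [if_neg (mem_filter.1 hx).2, mul_zero]
    rw [e2, add_zero]
    exact sum_congr rfl fun x hx => by rw [if_pos hx]
  have EG : Ex p G = 0 := by
    unfold Ex
    rw [hG, sumA p (fun x => g x - m)]
    have : ∑ x ∈ A, p x * (g x - m) = ∑ x ∈ A, p x * g x - pA * m := by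
      rw [hpA, sum_mul, ← sum_sub_distrib]
      exact sum_congr rfl fun x _ => by ring
    rw [this, hm]; field_simp; ring
  have VG : Vr p G ≤ V := by
    refine (Vr_le_sq h G).trans (le_of_eq ?_)
    have : ∀ x, p x * G x ^ 2 = p x * (if x ∈ A then (g x - m) ^ 2 else 0) := fun x => by
      simp only [hG]; split_ifs <;> ring
    simp only [this]
    exact sumA p fun x => (g x - m) ^ 2
  have EI : Ex p I = pA := by
    unfold Ex
    rw [hI, sumA p (fun _ => (1 : ℝ))]
    simp [hpA]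
  have VI : Vr p I ≤ pA := by
    refine (Vr_le_sq h I).trans (le_of_eq ?_)
    have : ∀ x, p x * I x ^ 2 = p x * (if x ∈ A then (1 : ℝ) else 0) := fun x => by
      simp only [hI]; split_ifs <;> ring
    simp only [this]
    rw [sumA p fun _ => (1 : ℝ)]
    simp [hpA]
  -- the two deviations
  have dG := dev_le h A s hH hs G
  have dI := dev_le h A s hH hs I
  rw [EG] at dG
  rw [EI] at dI
  simp only [sub_zero] at dG
  -- first term
  have t1 : |∑ x ∈ A, p x * ((g x - m) * (opP P)^[s] G x)| ≤ θ * V := by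
    apply abs_le_of_sq_le_sq _ (mul_nonneg hθ hV0)
    refine (wcs A hp _ _).trans ?_
    calc V * ∑ x ∈ A, p x * (opP P)^[s] G x ^ 2 ≤ V * (θ ^ 2 * V) := by
          refine mul_le_mul_of_nonneg_left (dG.trans ?_) hV0
          exact mul_le_mul_of_nonneg_left VG (sq_nonneg _)
      _ = (θ * V) ^ 2 := by ring
  -- second term
  have t2 : ∑ x ∈ A, p x * |(opP P)^[s] I x - pA| ≤ θ * pA := by
    have h1 : (∑ x ∈ A, p x * (1 * |(opP P)^[s] I x - pA|)) ^ 2 ≤ (θ * pA) ^ 2 := by
      refine (wcs A hp (fun _ => 1) (fun x => |(opP P)^[s] I x - pA|)).trans ?_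
      simp only [one_pow, mul_one, sq_abs]
      calc pA * ∑ x ∈ A, p x * ((opP P)^[s] I x - pA) ^ 2 ≤ pA * (θ ^ 2 * pA) := by
            refine mul_le_mul_of_nonneg_left (dI.trans ?_) hA.le
            exact mul_le_mul_of_nonneg_left VI (sq_nonneg _)
        _ = (θ * pA) ^ 2 := by ring
    have h2 := abs_le_of_sq_le_sq h1 (mul_nonneg hθ hA.le)
    simp only [one_mul] at h2
    exact (le_abs_self _).trans h2
  have t3 : pA * V - 4 * B ^ 2 * (θ * pA) ≤ ∑ x ∈ A, p x * (g x - m) ^ 2 * (opP P)^[s] I x := by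
    have h1 : ∀ x ∈ A, p x * (g x - m) ^ 2 * pA - 4 * B ^ 2 * (p x * |(opP P)^[s] I x - pA|) ≤
        p x * (g x - m) ^ 2 * (opP P)^[s] I x := by
      intro x hx
      have e1 := neg_abs_le ((opP P)^[s] I x - pA)
      have e2 := hhB x hx
      have e3 : 0 ≤ p x * (g x - m) ^ 2 := mul_nonneg (hp x) (sq_nonneg _)
      have e4 : p x * (g x - m) ^ 2 * |(opP P)^[s] I x - pA| ≤
          4 * B ^ 2 * (p x * |(opP P)^[s] I x - pA|) := by
        have := mul_le_mul_of_nonneg_right e2
          (mul_nonneg (hp x) (abs_nonneg ((opP P)^[s] I x - pA)))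
        calc _ = (g x - m) ^ 2 * (p x * |(opP P)^[s] I x - pA|) := by ring
          _ ≤ _ := this
      nlinarith
    have h2 := sum_le_sum h1
    rw [sum_sub_distrib, ← sum_mul, ← mul_sum] at h2
    have h3 := mul_le_mul_of_nonneg_left t2 (by positivity : 0 ≤ 4 * B ^ 2)
    have h4 : (∑ x ∈ A, p x * (g x - m) ^ 2) = V := rfl
    rw [h4] at h2
    linarith
  -- the expansion
  have rev := iter_rev h hQ
  have qI : ∀ x, ∑ y ∈ A, Q x y = (opP P)^[s] I x := fun x => by
    rw [← hQ I x, hI, sumA (Q x) (fun _ => (1 : ℝ))]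
    simp
  have qG : ∀ x, ∑ y ∈ A, Q x y * (g y - m) = (opP P)^[s] G x := fun x => by
    rw [← hQ G x, hG, sumA (Q x) (fun y => g y - m)]
  have ex : (1 / 2) * ∑ x ∈ A, ∑ y ∈ A, p x * Q x y * (g x - g y) ^ 2 =
      ∑ x ∈ A, p x * (g x - m) ^ 2 * (opP P)^[s] I x -
        ∑ x ∈ A, p x * ((g x - m) * (opP P)^[s] G x) := by
    have e1 : ∑ x ∈ A, ∑ y ∈ A, p x * Q x y * (g x - g y) ^ 2 =
        ∑ x ∈ A, ∑ y ∈ A, p x * Q x y * (g x - m) ^ 2 +
        ∑ x ∈ A, ∑ y ∈ A, p x * Q x y * (g y - m) ^ 2 -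
        2 * ∑ x ∈ A, ∑ y ∈ A, p x * Q x y * ((g x - m) * (g y - m)) := by
      rw [mul_sum, ← sum_add_distrib, ← sum_sub_distrib]
      refine sum_congr rfl fun x _ => ?_
      rw [mul_sum, ← sum_add_distrib, ← sum_sub_distrib]
      exact sum_congr rfl fun y _ => by ring
    have e2 : ∑ x ∈ A, ∑ y ∈ A, p x * Q x y * (g y - m) ^ 2 =
        ∑ x ∈ A, ∑ y ∈ A, p x * Q x y * (g x - m) ^ 2 := by
      rw [sum_comm]
      refine sum_congr rfl fun y _ => sum_congr rfl fun x _ => ?_
      rw [rev x y]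
    have e3 : ∑ x ∈ A, ∑ y ∈ A, p x * Q x y * (g x - m) ^ 2 =
        ∑ x ∈ A, p x * (g x - m) ^ 2 * (opP P)^[s] I x := by
      refine sum_congr rfl fun x _ => ?_
      rw [← qI x, mul_sum]
      exact sum_congr rfl fun y _ => by ring
    have e4 : ∑ x ∈ A, ∑ y ∈ A, p x * Q x y * ((g x - m) * (g y - m)) =
        ∑ x ∈ A, p x * ((g x - m) * (opP P)^[s] G x) := by
      refine sum_congr rfl fun x _ => ?_
      rw [← qG x, mul_sum, mul_sum]
      exact sum_congr rfl fun y _ => by ring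
    rw [e1, e2, e3, e4]; ring
  rw [ex]
  have t1' := (le_abs_self _).trans t1
  -- conclusion
  have fin : pA * V ≤ 2 * (∑ x ∈ A, p x * (g x - m) ^ 2 * (opP P)^[s] I x -
        ∑ x ∈ A, p x * ((g x - m) * (opP P)^[s] G x)) + 8 * θ * B ^ 2 * pA := by
    have : θ * V ≤ pA / 2 * V := mul_le_mul_of_nonneg_right (by linarith) hV0
    nlinarith
  have fin2 : V ≤ (2 * (∑ x ∈ A, p x * (g x - m) ^ 2 * (opP P)^[s] I x -
        ∑ x ∈ A, p x * ((g x - m) * (opP P)^[s] G x)) + 8 * θ * B ^ 2 * pA) / pA := by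
    rw [le_div_iff₀ hA]; linarith
  refine fin2.trans (le_of_eq ?_)
  field_simp

end Real

section Pmf

open scoped ENNReal

open Vale.Agent.P328RAM (iterBind unif)

variable {σ : Type}

/-- A lazy reversible chain given by a `PMF` kernel `κ` on the finite set `S` with stationary law
`π`. -/
structure RevChain (S : Finset σ) (π : PMF σ) (κ : σ → PMF σ) : Prop where
  supp : ∀ x, x ∉ S → π x = 0
  closed : ∀ x ∈ S, ∀ y, y ∉ S → κ x y = 0
  rev : ∀ x ∈ S, ∀ y ∈ S, π x * κ x y = π y * κ y x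
  lazy : ∀ x ∈ S, 1 / 2 ≤ (κ x x).toReal

/-- the mean of `g` -/
noncomputable def mean (S : Finset σ) (π : PMF σ) (g : σ → ℝ) : ℝ :=
  ∑ z ∈ S, (π z).toReal * g z

/-- the Dirichlet form -/
noncomputable def dir (S : Finset σ) (π : PMF σ) (κ : σ → PMF σ) (g : σ → ℝ) : ℝ :=
  (1 / 2) * ∑ x ∈ S, ∑ y ∈ S, (π x).toReal * (κ x y).toReal * (g x - g y) ^ 2

/-- the mass of the class `C` -/
noncomputable def mass (π : PMF σ) (C : Finset σ) : ℝ := ∑ x ∈ C, (π x).toReal

theorem RevChain.lazyRev {S : Finset σ} {π : PMF σ} {κ : σ → PMF σ} (h : RevChain S π κ) :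
    LazyRev (vec S π) (fun x y : S => (κ x y).toReal) where
  p_nonneg := vec_nonneg S π
  p_sum := vec_sum h.supp
  nonneg := fun _ _ => ENNReal.toReal_nonneg
  row := fun x => vec_sum (μ := κ x) (fun y hy => h.closed x x.2 y hy)
  rev := fun x y => by
    have := congrArg ENNReal.toReal (h.rev x x.2 y y.2)
    rw [ENNReal.toReal_mul, ENNReal.toReal_mul] at this
    exact this
  lazy := fun x => h.lazy x x.2

/-- sums over a subset of the subtype -/
theorem sum_subA [DecidableEq σ] {S A : Finset σ} (hAS : A ⊆ S) (F : σ → ℝ) :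
    ∑ x ∈ (univ : Finset S).filter (fun x : S => (x : σ) ∈ A), F x = ∑ x ∈ A, F x := by
  rw [sum_filter, sum_coe_sort S fun x => if x ∈ A then F x else 0, ← sum_filter]
  congr 1
  ext x
  simp only [mem_filter, and_iff_right_iff_imp]
  exact fun hx => hAS hx

theorem iterBind_closed {S : Finset σ} {κ : σ → PMF σ}
    (hκ : ∀ x ∈ S, ∀ y, y ∉ S → κ x y = 0) (s : ℕ) :
    ∀ x ∈ S, ∀ y, y ∉ S → iterBind κ s x y = 0 := by
  induction s with
  | zero =>
    intro x hx y hy
    classical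
    have : y ≠ x := fun h => hy (h ▸ hx)
    simp [iterBind, PMF.pure_apply, this]
  | succ s ih =>
    intro x hx y hy
    show ((κ x).bind (iterBind κ s)) y = 0
    exact bind_off (μ := κ x) (fun y hy => hκ x hx y hy) ih y hy

theorem iterBind_op {S : Finset σ} {κ : σ → PMF σ}
    (hκ : ∀ x ∈ S, ∀ y, y ∉ S → κ x y = 0) (s : ℕ) (g : S → ℝ) :
    ∀ x : S, ∑ y : S, (iterBind κ s x y).toReal * g y =
      (opP (fun x y : S => (κ x y).toReal))^[s] g x := by
  classical
  induction s with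
  | zero =>
    intro x
    rw [sum_eq_single x]
    · simp [iterBind]
    · intro y _ hy
      have : (y : σ) ≠ x := fun h => hy (Subtype.ext h)
      simp [iterBind, PMF.pure_apply, this]
    · simp
  | succ s ih =>
    intro x
    rw [Function.iterate_succ_apply']
    have e1 : ∀ y : S, (iterBind κ (s + 1) x y).toReal =
        ∑ z : S, (κ x z).toReal * (iterBind κ s z y).toReal := by
      intro y
      have := congrFun (vec_bind (S := S) (μ := κ x) (κ := iterBind κ s)
        (fun y hy => hκ x x.2 y hy)) y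
      exact this
    simp only [e1]
    show _ = ∑ z : S, (κ x z).toReal * _
    simp only [sum_mul]
    rw [sum_comm]
    refine sum_congr rfl fun z _ => ?_
    rw [← ih z, mul_sum]
    exact sum_congr rfl fun y _ => by ring

/-- the matrix of `κ ^ s` is reversible -/
theorem iterBind_rev {S : Finset σ} {π : PMF σ} {κ : σ → PMF σ} (h : RevChain S π κ) (s : ℕ)
    {x y : σ} (hx : x ∈ S) (hy : y ∈ S) :
    (π x).toReal * (iterBind κ s x y).toReal = (π y).toReal * (iterBind κ s y x).toReal :=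
  iter_rev h.lazyRev (fun g x => iterBind_op h.closed s g x) ⟨x, hx⟩ ⟨y, hy⟩

theorem unif1_bind_applyJ {τ : Type} (f : ℕ → PMF τ) (y : τ) :
    ((unif 1).bind f) y = 2⁻¹ * f 0 y + 2⁻¹ * f 1 y := by
  have : Nonempty (Fin (2 ^ 1)) := ⟨⟨0, by positivity⟩⟩
  rw [unif_eq, PMF.bind_map, PMF.bind_apply, tsum_fintype]
  simp only [PMF.uniformOfFintype_apply, Fintype.card_fin, Function.comp]
  rw [Fin.sum_univ_eq_sum_range (fun i => ((2 ^ 1 : ℕ) : ℝ≥0∞)⁻¹ * (f i) y)]
  rw [pow_one, sum_range_succ, sum_range_one]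
  simp

/-- The watched kernel: with probability `1/2` stay; else make `s` steps and go back if the end
point is not in `A`. -/
noncomputable def jker (κ : σ → PMF σ) (s : ℕ) (A : σ → Prop) [DecidablePred A] (x : σ) :
    PMF σ :=
  (unif 1).bind fun v => (iterBind κ s x).map fun y => if v = 1 ∧ A y then y else x

theorem jker_apply (κ : σ → PMF σ) (s : ℕ) (A : σ → Prop) [DecidablePred A] (x y : σ) :
    jker κ s A x y = 2⁻¹ * (PMF.pure x : PMF σ) y +
      2⁻¹ * ((iterBind κ s x).map fun z => if A z then z else x) y := by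
  unfold jker
  rw [unif1_bind_applyJ]
  simp only [zero_ne_one, false_and, if_false, true_and]
  rw [show PMF.map (fun _ => x) (iterBind κ s x) = PMF.pure x from PMF.map_const _ _]

/-- off the diagonal -/
theorem jker_ne (κ : σ → PMF σ) (s : ℕ) (A : σ → Prop) [DecidablePred A] {x y : σ}
    (hxy : y ≠ x) : jker κ s A x y = if A y then 2⁻¹ * iterBind κ s x y else 0 := by
  classical
  rw [jker_apply, PMF.pure_apply, if_neg hxy, mul_zero, zero_add, PMF.map_apply]
  split_ifs with hy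
  · rw [tsum_eq_single y]
    · rw [if_pos hy, if_pos rfl]
    · intro z hz
      rw [if_neg]
      intro h
      split_ifs at h with hz2
      · exact hz h.symm
      · exact hxy h
  · have : ∀ z, (if y = (if A z then z else x) then iterBind κ s x z else 0) = 0 := by
      intro z
      rw [if_neg]
      intro h
      split_ifs at h with hz2
      · exact hy (h ▸ hz2)
      · exact hxy h
    simp only [this, tsum_zero, mul_zero]

theorem jker_self (κ : σ → PMF σ) (s : ℕ) (A : σ → Prop) [DecidablePred A] (x : σ) :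
    1 / 2 ≤ (jker κ s A x x).toReal := by
  rw [jker_apply, PMF.pure_apply, if_pos rfl, mul_one]
  have h1 : ((2 : ℝ≥0∞)⁻¹).toReal = 1 / 2 := by simp
  rw [← h1]
  refine ENNReal.toReal_mono ?_ le_self_add
  refine ENNReal.add_ne_top.2 ⟨by simp, ENNReal.mul_ne_top (by simp) (PMF.apply_ne_top _ _)⟩

/-- **The watched kernel is good.** -/
theorem good_jker {S : Finset σ} {π πA : PMF σ} {κ : σ → PMF σ} (h : RevChain S π κ)
    (A : σ → Prop) [DecidablePred A] {F : Finset σ} (hF : ∀ x, x ∈ F ↔ x ∈ S ∧ A x)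
    {K θ : ℝ} (hθ : 0 ≤ θ) (s : ℕ)
    (hH : ∀ g : σ → ℝ, ∑ x ∈ F, (π x).toReal * (g x - mean S π g) ^ 2 ≤ K * dir S π κ g)
    (hs : K ≤ θ ^ 2 * (s + 1)) (hA : 0 < mass π F) (hθA : 2 * θ ≤ mass π F)
    (hπ0 : ∀ x, x ∉ F → πA x = 0) (hπ : ∀ x ∈ F, (πA x).toReal = (π x).toReal / mass π F) :
    GoodChain F πA (jker κ s A) (4 / mass π F) (8 * θ / mass π F) := by
  classical
  have hFS : F ⊆ S := fun x hx => ((hF x).1 hx).1
  have hmass1 : mass π F ≤ 1 := by
    have h1 : ∑ x : S, (π x).toReal = 1 := h.lazyRev.p_sum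
    rw [sum_coe_sort S fun x => (π x).toReal] at h1
    rw [← h1]
    exact sum_le_sum_of_subset_of_nonneg hFS fun _ _ _ => ENNReal.toReal_nonneg
  refine ⟨hπ0, ?_, ?_, fun x _ => jker_self κ s A x, ?_, ?_⟩
  · -- closed
    intro x hx y hy
    have hyx : y ≠ x := fun h => hy (h ▸ hx)
    rw [jker_ne κ s A hyx]
    split_ifs with hAy
    · have : y ∉ S := fun hyS => hy ((hF y).2 ⟨hyS, hAy⟩)
      rw [iterBind_closed h.closed s x (hFS hx) y this, mul_zero]
    · rfl
  · -- reversible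
    intro x hx y hy
    rcases eq_or_ne y x with rfl | hyx
    · rfl
    have h1 := iterBind_rev h s (hFS hx) (hFS hy)
    rw [jker_ne κ s A hyx, jker_ne κ s A hyx.symm, if_pos ((hF y).1 hy).2, if_pos ((hF x).1 hx).2]
    have e : ∀ a b : σ, πA a * (2⁻¹ * iterBind κ s a b) ≠ ∞ := fun a b =>
      ENNReal.mul_ne_top (PMF.apply_ne_top _ _) (ENNReal.mul_ne_top (by simp)
        (PMF.apply_ne_top _ _))
    rw [← ENNReal.toReal_eq_toReal_iff' (e x y) (e y x)]
    simp only [ENNReal.toReal_mul]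
    rw [hπ x hx, hπ y hy]
    linear_combination ((2⁻¹ : ℝ≥0∞).toReal / mass π F) * h1
  · rw [le_div_iff₀ hA]; linarith
  · intro g B hg
    have hw := watched h.lazyRev ((univ : Finset S).filter fun x : S => (x : σ) ∈ F) hθ s
      (K := K) ?_ hs (by
        have : ∑ x ∈ (univ : Finset S).filter (fun x : S => (x : σ) ∈ F), vec S π x = mass π F :=
          sum_subA hFS fun x => (π x).toReal
        rw [this]; exact hA) (by
        have : ∑ x ∈ (univ : Finset S).filter (fun x : S => (x : σ) ∈ F), vec S π x = mass π F :=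
          sum_subA hFS fun x => (π x).toReal
        rw [this]; exact hθA) (Q := fun x y : S => (iterBind κ s x y).toReal)
      (fun g x => iterBind_op h.closed s g x) (fun x : S => g x) (B := B)
      (fun x hx => hg x (mem_filter.1 hx).2)
    · have e0 : ∑ x ∈ (univ : Finset S).filter (fun x : S => (x : σ) ∈ F), vec S π x = mass π F :=
        sum_subA hFS fun x => (π x).toReal
      have e1 : ∑ x ∈ (univ : Finset S).filter (fun x : S => (x : σ) ∈ F), vec S π x * g x =
          ∑ x ∈ F, (π x).toReal * g x := sum_subA hFS fun x => (π x).toReal * g x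
      rw [e0, e1] at hw
      have e2 : ∑ x ∈ (univ : Finset S).filter (fun x : S => (x : σ) ∈ F),
          vec S π x * (g x - (∑ x ∈ F, (π x).toReal * g x) / mass π F) ^ 2 =
          ∑ x ∈ F, (π x).toReal * (g x - (∑ x ∈ F, (π x).toReal * g x) / mass π F) ^ 2 :=
        sum_subA hFS fun x => (π x).toReal * (g x - (∑ x ∈ F, (π x).toReal * g x) / mass π F) ^ 2
      have e3 : ∑ x ∈ (univ : Finset S).filter (fun x : S => (x : σ) ∈ F),
          ∑ y ∈ (univ : Finset S).filter (fun x : S => (x : σ) ∈ F),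
          vec S π x * (iterBind κ s x y).toReal * (g x - g y) ^ 2 =
          ∑ x ∈ F, ∑ y ∈ F, (π x).toReal * (iterBind κ s x y).toReal * (g x - g y) ^ 2 := by
        rw [← sum_subA hFS fun x => ∑ y ∈ F,
          (π x).toReal * (iterBind κ s x y).toReal * (g x - g y) ^ 2]
        refine sum_congr rfl fun x _ => ?_
        exact sum_subA hFS fun y => (π x).toReal * (iterBind κ s x y).toReal * (g x - g y) ^ 2
      rw [e2, e3] at hw
      -- normalise
      have m1 : ∑ z ∈ F, (πA z).toReal * g z = (∑ x ∈ F, (π x).toReal * g x) / mass π F := by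
        rw [sum_div]
        exact sum_congr rfl fun x hx => by rw [hπ x hx]; ring
      have m2 : ∑ x ∈ F, (πA x).toReal * (g x - ∑ z ∈ F, (πA z).toReal * g z) ^ 2 =
          (∑ x ∈ F, (π x).toReal * (g x - (∑ x ∈ F, (π x).toReal * g x) / mass π F) ^ 2) /
            mass π F := by
        rw [m1]
        generalize (∑ x ∈ F, (π x).toReal * g x) / mass π F = c
        rw [sum_div]
        exact sum_congr rfl fun x hx => by rw [hπ x hx]; ring
      have m3 : ∑ x ∈ F, ∑ y ∈ F, (πA x).toReal * (jker κ s A x y).toReal * (g x - g y) ^ 2 =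
          (∑ x ∈ F, ∑ y ∈ F, (π x).toReal * (iterBind κ s x y).toReal * (g x - g y) ^ 2) /
            (2 * mass π F) := by
        rw [sum_div]
        refine sum_congr rfl fun x hx => ?_
        rw [sum_div]
        refine sum_congr rfl fun y hy => ?_
        rcases eq_or_ne y x with rfl | hyx
        · simp
        · rw [jker_ne κ s A hyx, if_pos ((hF y).1 hy).2, hπ x hx, ENNReal.toReal_mul]
          have : ((2 : ℝ≥0∞)⁻¹).toReal = 1 / 2 := by simp
          rw [this]
          field_simp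
      rw [m2, m3, div_le_iff₀ hA]
      refine hw.trans (le_of_eq ?_)
      field_simp
      ring
    · -- the hypothesis on the subtype
      intro f
      let f' : σ → ℝ := fun x => if hx : x ∈ S then f ⟨x, hx⟩ else 0
      have hf' : ∀ x : S, f' x = f x := fun x => by simp [f']
      have h1 := hH f'
      have e0 : mean S π f' = Ex (vec S π) f := by
        unfold mean Ex vec
        rw [← sum_coe_sort S]
        exact sum_congr rfl fun x _ => by rw [hf']
      have e1 : ∑ x ∈ (univ : Finset S).filter (fun x : S => (x : σ) ∈ F),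
          vec S π x * (f x - Ex (vec S π) f) ^ 2 =
          ∑ x ∈ F, (π x).toReal * (f' x - Ex (vec S π) f) ^ 2 := by
        rw [← sum_subA hFS fun x => (π x).toReal * (f' x - Ex (vec S π) f) ^ 2]
        exact sum_congr rfl fun x _ => by rw [hf']; rfl
      have e2 : dir S π κ f' = Dir (vec S π) (fun x y : S => (κ x y).toReal) f := by
        unfold dir Dir
        rw [← sum_coe_sort S]
        congr 1
        refine sum_congr rfl fun x _ => ?_
        rw [← sum_coe_sort S]
        exact sum_congr rfl fun y _ => by rw [hf', hf']; rfl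
      rw [e1, ← e2, ← e0]
      exact h1

/-- perturbation of the base kernel -/
theorem jker_pert {κ κ' : σ → PMF σ} {δ : ℝ≥0∞} {I : σ → Prop}
    (hI : ∀ x, I x → ∀ y ∈ (κ x).support, I y) (h : ∀ x, I x → TVle (κ x) (κ' x) δ) (s : ℕ)
    (A : σ → Prop) [DecidablePred A] (x : σ) (hx : I x) :
    TVle (jker κ s A x) (jker κ' s A x) (s * δ) :=
  TVle.bind_right fun _ _ => (TVle.iterBind hI h s x hx).map _

/-- invariant sets of the base kernel and the watched kernel -/
theorem jker_support {κ : σ → PMF σ} {I : σ → Prop}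
    (hI : ∀ x, I x → ∀ y ∈ (κ x).support, I y) (s : ℕ)
    (A : σ → Prop) [DecidablePred A] (x : σ) (hx : I x ∧ A x) :
    ∀ y ∈ (jker κ s A x).support, I y ∧ A y := by
  have hit : ∀ (s : ℕ) (x : σ), I x → ∀ y ∈ (iterBind κ s x).support, I y := by
    intro s
    induction s with
    | zero =>
      intro x hx y hy
      have : y = x := by simpa [iterBind] using hy
      exact this ▸ hx
    | succ s ih =>
      intro x hx y hy
      obtain ⟨z, hz, hy⟩ := (PMF.mem_support_bind_iff _ _ _).1 hy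
      exact ih z (hI x hx z hz) y hy
  intro y hy
  obtain ⟨v, _, hy⟩ := (PMF.mem_support_bind_iff _ _ _).1 hy
  rw [PMF.mem_support_map_iff] at hy
  obtain ⟨z, hz, rfl⟩ := hy
  split_ifs with h1
  · exact ⟨hit s x hx.1 z hz, h1.2⟩
  · exact hx

end Pmf

end Vale.Agent.P317R
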