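import Vale.Agent.P317R.Levels
import Vale.Agent.P328R.Est

/-! # P317: the learning of the tables -/

namespace Vale.Agent.P317R

open Vale.Agent.P328RAM
open Vale.Agent.P328R (TVle Sym EE bern lawOf)
open scoped ENNReal
open Finset

variable {n : ℕ} {I : Inst n} {p : Par}

/-! ### arithmetic of the update -/

theorem pos_left_of {a b : ℝ} (h : 0 < a * b) (hb : 0 ≤ b) : 0 < a := by
  by_contra h'
  have := mul_nonpos_of_nonpos_of_nonneg (not_lt.1 h') hb
  linarith

theorem pow_size_gt (x : ℕ) : (x : ℝ) ≤ 2 ^ Nat.size x := by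
  exact_mod_cast (Nat.lt_size_self x).le

theorem pow_size_le {x : ℕ} (hx : 0 < x) : (2 : ℝ) ^ Nat.size x ≤ 2 * x := by
  have h1 : 0 < Nat.size x := Nat.size_pos.2 hx
  have h2 : 2 ^ (Nat.size x - 1) ≤ x := by
    by_contra h
    have h3 := Nat.size_le.2 (not_le.1 h)
    omega
  have h4 : 2 ^ Nat.size x ≤ 2 * x := by
    calc 2 ^ Nat.size x = 2 * 2 ^ (Nat.size x - 1) := by
          rw [← pow_succ']
          congr 1
          omega
      _ ≤ 2 * x := Nat.mul_le_mul_left _ h2
  exact_mod_cast h4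

/-- the update keeps tables valid -/
theorem valid_succ (hI : I.Ok) (hn : 0 < n) {l : ℕ} {t t' : Tb n} (ht : TbOk p t)
    (hv : Valid I l t) {S : ℕ} (hS : 0 < S) {c : Option (Fin n × Fin n) → ℕ}
    (hc : ∀ o, |(c o : ℝ) / S - mass (piS I p l t) (clS n o)| ≤ 1 / (80 * n ^ 2))
    (ht' : ∀ ij, t' ij = t ij + Nat.size (c none) - Nat.size (c (some ij))) :
    Valid I (l + 1) t' := by
  intro ij hij
  have hn' : (1 : ℝ) ≤ n := by exact_mod_cast hn
  have hS' : (0 : ℝ) < S := by exact_mod_cast hS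
  have m0 := mass_perf_ge (k := l) hI hn ht hv
  have m1 := mass_cls_ge (k := l) hI hn ht hv hij
  have e0 := mass_piS (k := l) hI hn ht none
  have e1 := mass_piS (k := l) hI hn ht (some ij)
  have e0' : mass (piS I p l t) (peS n) = ZT I l t none / ZA I l t := e0
  rw [e0'] at m0
  rw [e1] at m1
  have h0 := hc none
  have h1 := hc (some ij)
  rw [e0] at h0
  rw [e1] at h1
  set A := ZA I l t with hA
  have hA0 : 0 < A := ZA_pos hn
  rw [ZT_none] at m0 h0
  set N := ZR I l none with hN
  have hN0 : 0 < N := ZR_none_pos hn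
  set Z := ZT I l t (some ij) with hZ
  set x := c none with hx
  set y := c (some ij) with hy
  have hnn : (0 : ℝ) < 80 * n ^ 2 := by positivity
  have hu : 1 / (80 * (n : ℝ) ^ 2) = (1 / 5) * (1 / (16 * n ^ 2)) := by
    field_simp
    norm_num
  have hw : 1 / (16 * (n : ℝ) ^ 2) ≤ 1 / (4 * n ^ 2) := by
    apply one_div_le_one_div_of_le (by positivity)
    have : (0 : ℝ) ≤ n ^ 2 := by positivity
    linarith
  have hpos : (0 : ℝ) < 1 / (16 * n ^ 2) := by positivity
  -- relative bounds
  have a0 := abs_le.1 h0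
  have a1 := abs_le.1 h1
  have x1 : 4 / 5 * (N / A) ≤ x / S := by linarith [a0.1]
  have x2 : (x : ℝ) / S ≤ 6 / 5 * (N / A) := by linarith [a0.2]
  have y1 : 4 / 5 * (Z / A) ≤ y / S := by linarith [a1.1]
  have y2 : (y : ℝ) / S ≤ 6 / 5 * (Z / A) := by linarith [a1.2]
  have hZA : 0 < Z / A := by linarith
  have hNA : 0 < N / A := by linarith
  have hZ0 : 0 < Z := by
    have := mul_pos hZA hA0
    rwa [div_mul_cancel₀ _ hA0.ne'] at this
  have x1' : 4 / 5 * N * S ≤ x * A := by
    have h : 4 / 5 * N / A ≤ x / S := by rw [mul_div_assoc]; exact x1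
    rwa [div_le_div_iff₀ hA0 hS'] at h
  have x2' : (x : ℝ) * A ≤ 6 / 5 * N * S := by
    have h : (x : ℝ) / S ≤ 6 / 5 * N / A := by rw [mul_div_assoc]; exact x2
    rwa [div_le_div_iff₀ hS' hA0] at h
  have y1' : 4 / 5 * Z * S ≤ y * A := by
    have h : 4 / 5 * Z / A ≤ y / S := by rw [mul_div_assoc]; exact y1
    rwa [div_le_div_iff₀ hA0 hS'] at h
  have y2' : (y : ℝ) * A ≤ 6 / 5 * Z * S := by
    have h : (y : ℝ) / S ≤ 6 / 5 * Z / A := by rw [mul_div_assoc]; exact y2
    rwa [div_le_div_iff₀ hS' hA0] at h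
  have hx0 : (0 : ℝ) < x := by
    have h : 0 < (x : ℝ) * A := lt_of_lt_of_le (by positivity) x1'
    exact pos_left_of h hA0.le
  have hy0 : (0 : ℝ) < y := by
    have h : 0 < (y : ℝ) * A := lt_of_lt_of_le (by positivity) y1'
    exact pos_left_of h hA0.le
  have hx0' : 0 < x := by exact_mod_cast hx0
  have hy0' : 0 < y := by exact_mod_cast hy0
  have p1 := pow_size_gt x
  have p2 := pow_size_le hx0'
  have p3 := pow_size_gt y
  have p4 := pow_size_le hy0'
  set X := (2 : ℝ) ^ Nat.size x with hX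
  set Y := (2 : ℝ) ^ Nat.size y with hY
  have hX0 : 0 < X := by positivity
  have hY0 : 0 < Y := by positivity
  -- the new weight
  have hR := ZR_succ_le (I := I) (k := l) hn (some ij)
  have hR' := ZR_succ_ge (I := I) (k := l) hI hn (some ij)
  have hN1 := ZR_succ_le (I := I) (k := l) hn none
  have hN2 := ZR_succ_ge (I := I) (k := l) hI hn none
  rw [← hN] at hN1 hN2
  have hZT' : ZT I (l + 1) t' (some ij) * Y = X * ((2 : ℝ) ^ t ij * ZR I (l + 1) (some ij)) := by
    unfold ZT
    simp only [exq, Option.elim_some]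
    rw [ht' ij, zpow_sub₀ (by norm_num), zpow_add₀ (by norm_num), zpow_natCast, zpow_natCast]
    rw [← hX, ← hY]
    field_simp
  have hZe : Z = (2 : ℝ) ^ t ij * ZR I l (some ij) := by
    rw [hZ]
    unfold ZT
    simp only [exq, Option.elim_some]
  have h2t : (0 : ℝ) < (2 : ℝ) ^ t ij := by positivity
  have u1 : (2 : ℝ) ^ t ij * ZR I (l + 1) (some ij) ≤ Z := by
    rw [hZe]
    exact mul_le_mul_of_nonneg_left hR h2t.le
  have u2 : 3 / 4 * Z ≤ (2 : ℝ) ^ t ij * ZR I (l + 1) (some ij) := by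
    rw [hZe]
    have := mul_le_mul_of_nonneg_left hR' h2t.le
    linarith
  set W := (2 : ℝ) ^ t ij * ZR I (l + 1) (some ij) with hW
  set V := ZT I (l + 1) t' (some ij) with hV
  have hW0 : 0 < W := lt_of_lt_of_le (by positivity) u2
  have hAS : 0 < A * S := by positivity
  constructor
  · -- `N' ≤ N ≤ 4 V`
    refine hN1.trans ?_
    -- `V * Y = X * W ≥ x * (3/4) Z`
    have v1 : (x : ℝ) * (3 / 4 * Z) ≤ V * Y := by
      rw [hZT']
      exact mul_le_mul p1 u2 (by positivity) hX0.le
    have hV0 : 0 < V := by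
      have : 0 < V * Y := lt_of_lt_of_le (by positivity) v1
      exact pos_left_of this hY0.le
    have v2 : V * Y ≤ V * (2 * y) := mul_le_mul_of_nonneg_left p4 hV0.le
    -- multiply by `A S`
    have v3 : (x : ℝ) * (3 / 4 * Z) * A ≤ V * (2 * y) * A :=
      mul_le_mul_of_nonneg_right (v1.trans v2) hA0.le
    have v4 : 4 / 5 * N * S * (3 / 4 * Z) ≤ (x : ℝ) * (3 / 4 * Z) * A := by
      have := mul_le_mul_of_nonneg_right x1' (by positivity : (0 : ℝ) ≤ 3 / 4 * Z)
      linarith
    have v5 : V * (2 * y) * A ≤ V * 2 * (6 / 5 * Z * S) := by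
      have := mul_le_mul_of_nonneg_left y2' (by positivity : (0 : ℝ) ≤ V * 2)
      linarith
    have v6 : 4 / 5 * N * S * (3 / 4 * Z) ≤ V * 2 * (6 / 5 * Z * S) := v4.trans (v3.trans v5)
    have v7 : (3 / 5 * N) * (S * Z) ≤ (12 / 5 * V) * (S * Z) := by linarith
    have v8 := le_of_mul_le_mul_right v7 (by positivity : (0 : ℝ) < S * Z)
    linarith
  · -- `V ≤ 3 N ≤ 4 N'`
    have hV0 : 0 < V := by
      have : 0 < V * Y := by rw [hZT']; positivity
      exact pos_left_of this hY0.le
    have v1 : V * Y ≤ 2 * x * Z := by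
      rw [hZT']
      exact mul_le_mul p2 u1 hW0.le (by positivity)
    have v2 : V * y ≤ V * Y := mul_le_mul_of_nonneg_left p3 hV0.le
    have v3 : V * y * A ≤ 2 * x * Z * A := mul_le_mul_of_nonneg_right (v2.trans v1) hA0.le
    have v4 : V * (4 / 5 * Z * S) ≤ V * y * A := by
      have := mul_le_mul_of_nonneg_left y1' hV0.le
      linarith
    have v5 : 2 * x * Z * A ≤ 2 * Z * (6 / 5 * N * S) := by
      have := mul_le_mul_of_nonneg_left x2' (by positivity : (0 : ℝ) ≤ 2 * Z)
      linarith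
    have v6 : (4 / 5 * V) * (S * Z) ≤ (12 / 5 * N) * (S * Z) := by
      have := v4.trans (v3.trans v5)
      linarith
    have v7 := le_of_mul_le_mul_right v6 (by positivity : (0 : ℝ) < S * Z)
    linarith

/-! ### the counters -/

/-- one observation -/
noncomputable def obsStep (I : Inst n) (p : Par) (t : ℕ → Tb n) (l : ℕ)
    (c : Option (Fin n × Fin n) → ℕ) : PMF (Option (Fin n × Fin n) → ℕ) :=
  (obsK I p t l).map fun o => Function.update c o (c o + 1)

theorem cntK_eq (t : ℕ → Tb n) (l : ℕ) :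
    cntK I p t l = iterBind (obsStep I p t l) p.S fun _ => 0 := rfl

theorem iter_obs_le (t : ℕ → Tb n) (l k : ℕ) (c0 : Option (Fin n × Fin n) → ℕ) :
    ∀ c ∈ (iterBind (obsStep I p t l) k c0).support, ∀ o, c o ≤ c0 o + k := by
  induction k generalizing c0 with
  | zero =>
    intro c hc o
    simp only [iterBind, PMF.mem_support_pure_iff] at hc
    rw [hc]
    omega
  | succ k ih =>
    intro c hc o
    simp only [iterBind, PMF.mem_support_bind_iff] at hc
    obtain ⟨c1, hc1, hc⟩ := hc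
    have h1 := ih c1 c hc o
    unfold obsStep at hc1
    rw [PMF.mem_support_map_iff] at hc1
    obtain ⟨o', _, rfl⟩ := hc1
    rcases eq_or_ne o o' with h | h
    · subst h
      rw [Function.update_self] at h1
      omega
    · rw [Function.update_of_ne h] at h1
      omega

theorem cntK_le {t : ℕ → Tb n} {l : ℕ} {c : Option (Fin n × Fin n) → ℕ}
    (hc : c ∈ (cntK I p t l).support) (o : Option (Fin n × Fin n)) : c o ≤ p.S := by
  have := iter_obs_le t l p.S (fun _ => 0) c hc o
  simpa using this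

/-- the counters are accurate -/
theorem cnt_good {t : ℕ → Tb n} {l : ℕ} {m : Option (Fin n × Fin n) → ℝ} {η τ : ℝ}
    (hobs : ∀ o, |((obsK I p t l).toOuterMeasure {o}).toReal - m o| ≤ η)
    (hτ0 : 0 ≤ τ) (hτ : τ ≤ 2) (hS : 0 < p.S) :
    (cntK I p t l).toOuterMeasure {c | ∃ o, η + τ < |(c o : ℝ) / p.S - m o|} ≤
      ENNReal.ofReal (2 * (n ^ 2 + 1) * Real.exp (-(p.S * τ ^ 2 / 4))) := by
  have h := P328R.counters_good (K := obsStep I p t l) (I := fun _ => True)
    (c := fun (o : Option (Fin n × Fin n)) (c : Option (Fin n × Fin n) → ℕ) => (c o : ℝ))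
    (p := m) (η := η) (τ := τ) (fun _ _ _ _ => trivial) ?_ ?_ hτ0 hτ p.S (fun _ => 0) trivial
    (fun _ => by simp) hS
  · have h2 : (Fintype.card (Option (Fin n × Fin n)) : ℝ) = n ^ 2 + 1 := by
      rw [Fintype.card_option, Fintype.card_prod, Fintype.card_fin]
      push_cast
      ring
    rw [h2] at h
    exact h
  · intro o c _ c' hc'
    unfold obsStep at hc'
    rw [PMF.mem_support_map_iff] at hc'
    obtain ⟨o', _, rfl⟩ := hc'
    rcases eq_or_ne o o' with h | h
    · right
      subst h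
      rw [Function.update_self]
      push_cast
      rfl
    · left
      rw [Function.update_of_ne h]
  · intro o c _
    have h1 : (obsStep I p t l c).toOuterMeasure {y | (y o : ℝ) = (c o : ℝ) + 1} =
        (obsK I p t l).toOuterMeasure {o} := by
      unfold obsStep
      rw [PMF.toOuterMeasure_map_apply]
      congr 1
      ext o'
      simp only [Set.mem_preimage, Set.mem_ofPred_eq, Set.mem_singleton_iff]
      constructor
      · intro h
        by_contra h'
        rw [Function.update_of_ne (Ne.symm h')] at h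
        linarith
      · rintro rfl
        rw [Function.update_self]
        push_cast
        rfl
    rw [h1]
    exact hobs o

/-! ### induction over the levels -/

theorem seqBind_bad {α : Type} {κ : ℕ → α → PMF α} {G : ℕ → α → Prop} {δ : ℝ≥0∞} {x0 : α}
    (h0 : G 0 x0) (L : ℕ)
    (h : ∀ l < L, ∀ x, G l x → (κ l x).toOuterMeasure {y | ¬ G (l + 1) y} ≤ δ) :
    (seqBind κ L x0).toOuterMeasure {y | ¬ G L y} ≤ L * δ := by
  classical
  induction L with
  | zero =>
    simp only [seqBind]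
    rw [← P328R.EE_indicator, P328R.EE_pure]
    simp [h0]
  | succ L ih =>
    have ih' := ih fun l hl => h l (by omega)
    simp only [seqBind]
    rw [← P328R.EE_indicator, P328R.EE_bind]
    have h1 : P328R.EE (seqBind κ L x0) (fun x => P328R.EE (κ L x)
        ({y | ¬ G (L + 1) y}.indicator fun _ => 1)) ≤
        P328R.EE (seqBind κ L x0) (fun x => ({y | ¬ G L y}.indicator (fun _ => 1) x) + δ) := by
      refine P328R.EE_mono fun x => ?_
      by_cases hx : G L x
      · refine le_trans ?_ le_add_self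
        rw [P328R.EE_indicator]
        exact h L (by omega) x hx
      · refine le_trans (P328R.EE_le_one ?_) ?_
        · intro y
          exact Set.indicator_le (fun _ _ => le_refl _) y
        · rw [Set.indicator_of_mem (by exact hx)]
          exact le_self_add
    refine h1.trans ?_
    rw [P328R.EE_add, P328R.EE_indicator, P328R.EE_const]
    refine (add_le_add ih' le_rfl).trans (le_of_eq ?_)
    push_cast
    ring

/-- good tables up to the level `l` -/
def GoodT (I : Inst n) (p : Par) (l : ℕ) (t : ℕ → Tb n) : Prop :=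
  ∀ j ≤ l, Valid I j (t j) ∧ ∀ ij, (2 : ℤ) - j * Nat.size p.S ≤ t j ij

theorem GoodT.tbOk {l : ℕ} {t : ℕ → Tb n} (h : GoodT I p l t) {j : ℕ} (hj : j ≤ l)
    (hE : j * Nat.size p.S ≤ p.E0) : TbOk p (t j) := by
  intro ij
  have h1 := (h j hj).2 ij
  have h2 : ((j * Nat.size p.S : ℕ) : ℤ) ≤ (p.E0 : ℤ) := by exact_mod_cast hE
  push_cast at h2
  linarith

theorem goodT_zero : GoodT I p 0 (fun _ _ => 2) := by
  intro j hj
  have : j = 0 := by omega
  subst this
  refine ⟨valid_zero, ?_⟩
  intro ij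
  simp

theorem goodT_succ (hI : I.Ok) (hn : 0 < n) {l : ℕ} {t : ℕ → Tb n} (h : GoodT I p l t)
    (hE : l * Nat.size p.S ≤ p.E0) (hS : 0 < p.S) {c : Option (Fin n × Fin n) → ℕ}
    (hcS : ∀ o, c o ≤ p.S)
    (hc : ∀ o, |(c o : ℝ) / p.S - mass (piS I p l (t l)) (clS n o)| ≤ 1 / (80 * n ^ 2)) :
    GoodT I p (l + 1) (updT t l c) := by
  intro j hj
  rcases Nat.lt_or_eq_of_le hj with h1 | h1
  · unfold updT
    rw [Function.update_of_ne (by omega)]
    exact h j (by omega)
  · subst h1
    have h2 : updT t l c (l + 1) = fun ij => t l ij + Nat.size (c none) - Nat.size (c (some ij)) := by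
      unfold updT
      rw [Function.update_self]
    rw [h2]
    refine ⟨valid_succ hI hn (h.tbOk le_rfl hE) (h l le_rfl).1 hS hc fun ij => rfl, ?_⟩
    intro ij
    have h3 := (h l le_rfl).2 ij
    have h4 : Nat.size (c (some ij)) ≤ Nat.size p.S := Nat.size_le_size (hcS _)
    have h5 : ((Nat.size (c (some ij)) : ℕ) : ℤ) ≤ (Nat.size p.S : ℤ) := by exact_mod_cast h4
    have h6 : (0 : ℤ) ≤ (Nat.size (c none) : ℤ) := by positivity
    push_cast
    show (2 : ℤ) - ((l : ℤ) + 1) * (Nat.size p.S : ℤ) ≤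
      t l ij + (Nat.size (c none) : ℤ) - (Nat.size (c (some ij)) : ℤ)
    linarith

/-- **The learning of the tables.** -/
theorem learn_good (hI : I.Ok) (hn : 0 < n) {η τ : ℝ}
    (hobs : ∀ l < p.L, ∀ t, GoodT I p l t → ∀ o,
      |((obsK I p t l).toOuterMeasure {o}).toReal - mass (piS I p l (t l)) (clS n o)| ≤ η)
    (hητ : η + τ ≤ 1 / (80 * n ^ 2)) (hτ0 : 0 ≤ τ) (hτ : τ ≤ 2) (hS : 0 < p.S)
    (hE : p.L * Nat.size p.S ≤ p.E0) :
    (learnK I p).toOuterMeasure {t | ¬ GoodT I p p.L t} ≤
      p.L * ENNReal.ofReal (2 * (n ^ 2 + 1) * Real.exp (-(p.S * τ ^ 2 / 4))) := by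
  unfold learnK
  refine seqBind_bad (G := fun l t => GoodT I p l t) goodT_zero p.L ?_
  intro l hl t ht
  have hE' : l * Nat.size p.S ≤ p.E0 := (Nat.mul_le_mul_right _ hl.le).trans hE
  refine le_trans ?_ (cnt_good (m := fun o => mass (piS I p l (t l)) (clS n o))
    (hobs l hl t ht) hτ0 hτ hS)
  rw [PMF.toOuterMeasure_map_apply]
  rw [← PMF.toOuterMeasure_apply_inter_support]
  refine MeasureTheory.OuterMeasure.mono _ ?_
  rintro c ⟨hc1, hc2⟩
  simp only [Set.mem_preimage, Set.mem_ofPred_eq] at hc1 ⊢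
  by_contra hcon
  push Not at hcon
  apply hc1
  exact goodT_succ hI hn ht hE' hS (fun o => cntK_le hc2 o) fun o => (hcon o).trans hητ

end Vale.Agent.P317R
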