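import Vale.Agent.P317R.MainProb
import Vale.Agent.P317R.EstP
import Vale.Agent.P317R.GlueFinal

/-! # P317: the whole algorithm -/

namespace Vale.Agent.P317R

open Vale.Agent.P328RAM
open Vale.Agent.P328R (TVle GoodChain EE)
open scoped ENNReal
open Finset

variable {n : ℕ} {I : Inst n} {p : Par}

/-- the numerical conditions on the parameters -/
structure Num (n : ℕ) (p : Par) (ε δ θ η τ : ℝ) : Prop where
  hBn : n ≤ 2 ^ p.Bn
  hθ : 0 ≤ θ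
  hθn : 8 * n ^ 2 * θ ≤ 1
  hs : 1280 * n ^ 3 * (2 ^ p.Bn) ^ 2 ≤ θ ^ 2 * (p.s + 1)
  hη : 0 < η
  hε' : 32 * n ^ 2 * θ * (4 / 3) ^ 2 ≤ η ^ 2
  hT : 2 * (16 * n ^ 2) * Real.log ((4 / 3) / η) ≤ p.T
  hτ0 : 0 ≤ τ
  hτ2 : τ ≤ 2
  hest : 16 * p.L * (p.L * (η + p.T * (p.s * (2 ^ p.K)⁻¹)) + (2 ^ p.K)⁻¹ + τ) ≤
    ε / 4 * (3 / 4)
  hlearn : p.L * (η + p.T * (p.s * (2 ^ p.K)⁻¹)) + p.s * (2 ^ p.K)⁻¹ + 4 * n * θ + τ ≤
    1 / (80 * n ^ 2)
  hS : 0 < p.S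
  hE : p.L * Nat.size p.S ≤ p.E0
  hν : 2 ^ n * qn n ^ p.L ≤ ε / 4
  hδ1 : p.L * (2 * (n ^ 2 + 1) * Real.exp (-(p.S * τ ^ 2 / 4))) ≤ δ / 2
  hδ2 : 2 * p.L * Real.exp (-(p.S * τ ^ 2 / 4)) ≤ δ / 2

theorem seqBind_support {α : Type} {κ : ℕ → α → PMF α} {J : α → Prop}
    (h : ∀ k x, J x → ∀ y ∈ (κ k x).support, J y) (l : ℕ) {x : α} (hx : J x) :
    ∀ y ∈ (seqBind κ l x).support, J y := by
  induction l with
  | zero =>
    intro y hy
    simp only [seqBind, PMF.mem_support_pure_iff] at hy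
    exact hy ▸ hx
  | succ l ih =>
    intro y hy
    simp only [seqBind, PMF.mem_support_bind_iff] at hy
    obtain ⟨z, hz, hy⟩ := hy
    exact h l z (ih z hz) y hy

theorem passK_perf (hn : 0 < n) (t : ℕ → Tb n) (l : ℕ) :
    ∀ B ∈ (passK I p t l).support, Perf B := by
  intro B hB
  unfold passK at hB
  rw [PMF.mem_support_bind_iff] at hB
  obtain ⟨B0, hB0, hB⟩ := hB
  have h0 : Perf B0 := by
    unfold randT at hB0
    rw [PMF.mem_support_map_iff] at hB0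
    obtain ⟨f, _, rfl⟩ := hB0
    exact perf_exists f
  refine seqBind_support (J := Perf) ?_ l h0 B hB
  intro k x hx
  exact P328R.iterBind_inv (K := stepJ I p (k + 1) (t (k + 1))) (I := Perf)
    (fun x hx y hy => stepJ_support hn hx y hy) p.T x hx

variable {ε δ θ η τ : ℝ}

theorem good_lev (hI : I.Ok) (hn : 0 < n) (h : Num n p ε δ θ η τ) {l : ℕ} (hl : l ≤ p.L)
    {t : ℕ → Tb n} (ht : GoodT I p l t) {j : ℕ} (hj : j ≤ l) :
    GoodChain (peS n) (piP I p j (t j)) (jker (stepI I p j (t j)) p.s Perf) (16 * n ^ 2)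
      (32 * n ^ 2 * θ) :=
  good_level hI hn (ht.tbOk hj ((Nat.mul_le_mul_right _ (hj.trans hl)).trans h.hE)) (ht j hj).1
    h.hBn h.hθ h.hθn h.hs

theorem obs_good (hI : I.Ok) (hn : 0 < n) (h : Num n p ε δ θ η τ) {l : ℕ} (hl : l < p.L)
    {t : ℕ → Tb n} (ht : GoodT I p l t) (o : Option (Fin n × Fin n)) :
    |((obsK I p t l).toOuterMeasure {o}).toReal - mass (piS I p l (t l)) (clS n o)| ≤
      p.L * (η + p.T * (p.s * (2 ^ p.K)⁻¹)) + p.s * (2 ^ p.K)⁻¹ + 4 * n * θ := by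
  have h1 := passK_TV (I := I) (p := p) hI hn t (m := l) (A := 16 * n ^ 2)
    (ε' := 32 * n ^ 2 * θ) (η := η) (fun j hj => good_lev hI hn h hl.le ht hj) h.hη h.hε' h.hT l
    le_rfl
  have hpos : 0 ≤ η + p.T * (p.s * (2 ^ p.K : ℝ)⁻¹) := by
    have := h.hη.le
    positivity
  have h2 := freq_level (I := I) (p := p) (k := l) (t := t l) hI hn
    (ht.tbOk le_rfl ((Nat.mul_le_mul_right _ hl.le).trans h.hE)) (ht l le_rfl).1 h.hBn h.hθ h.hs
    (μ := passK I p t l) (δ := l * (η + p.T * (p.s * (2 ^ p.K)⁻¹)))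
    (mul_nonneg (Nat.cast_nonneg _) hpos) h1
    (fun x hx => mem_stS.2 (Or.inl (passK_perf hn t l x hx))) o
  rw [PMF.toOuterMeasure_apply_singleton]
  refine h2.trans ?_
  have h3 : (l : ℝ) * (η + p.T * (p.s * (2 ^ p.K)⁻¹)) ≤ p.L * (η + p.T * (p.s * (2 ^ p.K)⁻¹)) :=
    mul_le_mul_of_nonneg_right (by exact_mod_cast hl.le) hpos
  linarith

/-- **The whole algorithm is accurate.** -/
theorem main_acc (hI : I.Ok) (hn : 0 < n) (hε0 : 0 < ε) (hε1 : ε ≤ 1)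
    (h : Num n p ε δ θ η τ) :
    (mainK I p).toOuterMeasure {z | ¬ Acc ((cbs I).card : ℝ) ε z} ≤ ENNReal.ofReal δ := by
  have hlearn := learn_good (I := I) (p := p) hI hn (τ := τ)
    (η := p.L * (η + p.T * (p.s * (2 ^ p.K)⁻¹)) + p.s * (2 ^ p.K)⁻¹ + 4 * n * θ)
    (fun l hl t ht o => obs_good hI hn h hl ht o) h.hlearn h.hτ0 h.hτ2 h.hS h.hE
  have hest : ∀ t, GoodT I p p.L t →
      (estK I p t).toOuterMeasure {c | ¬ AccC I p (ε / 4) c} ≤ ENNReal.ofReal (δ / 2) := by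
    intro t ht
    exact estK_good hI hn t (fun l _ hl => good_lev hI hn h le_rfl ht hl.le) h.hη h.hε' h.hT
      (by linarith) (by linarith) h.hτ0 h.hτ2 h.hest h.hS h.hδ2
  have hδ0 : 0 ≤ δ / 2 := by
    refine le_trans ?_ h.hδ2
    positivity
  refine (mainK_prob hI hn hε0 hε1 h.hS h.hν hlearn hest).trans ?_
  have h1 : (p.L : ℝ≥0∞) * ENNReal.ofReal (2 * (n ^ 2 + 1) * Real.exp (-(p.S * τ ^ 2 / 4))) ≤
      ENNReal.ofReal (δ / 2) := by
    rw [← ENNReal.ofReal_natCast, ← ENNReal.ofReal_mul (Nat.cast_nonneg _)]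
    exact ENNReal.ofReal_le_ofReal h.hδ1
  calc _ ≤ ENNReal.ofReal (δ / 2) + ENNReal.ofReal (δ / 2) := add_le_add h1 le_rfl
    _ = ENNReal.ofReal δ := by
      rw [← ENNReal.ofReal_add hδ0 hδ0]
      congr 1
      ring

end Vale.Agent.P317R
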