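import Vale.Agent.P317R.Learn

/-! # P317: from the learning and the estimation to the output -/

namespace Vale.Agent.P317R

open Vale.Agent.P328RAM
open Vale.Agent.P328R (TVle Sym EE bern lawOf)
open scoped ENNReal
open Finset

variable {n : ℕ} {I : Inst n} {p : Par}

/-- the output is accurate -/
def Acc (N ε : ℝ) (z : ℤ × ℤ) : Prop :=
  0 < z.2 ∧ (1 - ε) * N ≤ (z.1 : ℝ) / z.2 ∧ (z.1 : ℝ) / z.2 ≤ (1 + ε) * N

/-- the counters are accurate -/
def AccC (I : Inst n) (p : Par) (ε : ℝ) (h : ℕ → ℕ) : Prop :=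
  (1 - ε) * ZR I p.L none ≤ 2 ^ n * (∏ l ∈ Finset.range p.L, (h l : ℝ)) / (p.S : ℝ) ^ p.L ∧
    2 ^ n * (∏ l ∈ Finset.range p.L, (h l : ℝ)) / (p.S : ℝ) ^ p.L ≤ (1 + ε) * ZR I p.L none

theorem outV_acc (hI : I.Ok) (hn : 0 < n) {ε : ℝ} (hε0 : 0 < ε) (hε1 : ε ≤ 1) (hS : 0 < p.S)
    (hν : 2 ^ n * qn n ^ p.L ≤ ε / 4) {h : ℕ → ℕ} (hh : AccC I p (ε / 4) h) :
    Acc ((cbs I).card : ℝ) ε (outV p n h) := by
  obtain ⟨h1, h2⟩ := hh
  set V : ℝ := 2 ^ n * (∏ l ∈ Finset.range p.L, (h l : ℝ)) / (p.S : ℝ) ^ p.L with hV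
  set NL := ZR I p.L none with hNL
  set N : ℝ := ((cbs I).card : ℝ) with hN
  have a1 : N ≤ NL := cbs_le_ZR hI hn
  have a2 : NL ≤ N + 2 ^ n * qn n ^ p.L := ZR_le_cbs hI hn
  have hSp : (0 : ℝ) < (p.S : ℝ) ^ p.L := by
    have : (0 : ℝ) < p.S := by exact_mod_cast hS
    positivity
  have hN0 : 0 ≤ N := by positivity
  have hcast : ((2 ^ n * ∏ l ∈ Finset.range p.L, h l : ℕ) : ℝ) =
      2 ^ n * ∏ l ∈ Finset.range p.L, (h l : ℝ) := by push_cast; rfl
  have htest : 2 * (2 ^ n * ∏ l ∈ Finset.range p.L, h l) < p.S ^ p.L ↔ V < 1 / 2 := by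
    rw [hV, div_lt_iff₀ hSp, ← hcast]
    rw [← Nat.cast_lt (α := ℝ)]
    push_cast
    constructor <;> intro h <;> linarith
  unfold outV
  rcases Nat.eq_zero_or_pos (cbs I).card with h0 | h0
  · have hN' : N = 0 := by rw [hN, h0]; simp
    have b1 : V < 1 / 2 := by
      have : NL ≤ 1 / 4 := by linarith
      have hNL0 : 0 ≤ NL := by linarith
      have : (1 + ε / 4) * NL ≤ (5 / 4) * (1 / 4) := by
        apply mul_le_mul <;> linarith
      linarith
    rw [if_pos (htest.2 b1)]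
    unfold Acc
    rw [hN']
    norm_num
  · have hN1 : 1 ≤ N := by rw [hN]; exact_mod_cast h0
    have b1 : NL ≤ (1 + ε / 4) * N := by nlinarith
    have b2 : (1 - ε / 4) * N ≤ V := le_trans (by nlinarith) h1
    have b3 : 1 / 2 ≤ V := by nlinarith
    rw [if_neg (fun hc => absurd (htest.1 hc) (not_lt.2 b3))]
    unfold Acc
    have e1 : (((((2 ^ n * ∏ l ∈ Finset.range p.L, h l : ℕ) : ℤ), ((p.S ^ p.L : ℕ) : ℤ)) :
        ℤ × ℤ).1 : ℝ) = 2 ^ n * ∏ l ∈ Finset.range p.L, (h l : ℝ) := by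
      rw [← hcast]
      norm_cast
    have e2 : (((((2 ^ n * ∏ l ∈ Finset.range p.L, h l : ℕ) : ℤ), ((p.S ^ p.L : ℕ) : ℤ)) :
        ℤ × ℤ).2 : ℝ) = (p.S : ℝ) ^ p.L := by
      norm_cast
    rw [e1, e2, ← hV]
    refine ⟨?_, ?_, ?_⟩
    · have h3 : 0 < p.S ^ p.L := by positivity
      show (0 : ℤ) < ((p.S ^ p.L : ℕ) : ℤ)
      exact_mod_cast h3
    · nlinarith
    · have : V ≤ (1 + ε / 4) * ((1 + ε / 4) * N) :=
        h2.trans (mul_le_mul_of_nonneg_left b1 (by linarith))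
      nlinarith

/-- **The output of the algorithm.** -/
theorem mainK_prob (hI : I.Ok) (hn : 0 < n) {ε : ℝ} (hε0 : 0 < ε) (hε1 : ε ≤ 1) (hS : 0 < p.S)
    (hν : 2 ^ n * qn n ^ p.L ≤ ε / 4) {δ1 δ2 : ℝ≥0∞}
    (hlearn : (learnK I p).toOuterMeasure {t | ¬ GoodT I p p.L t} ≤ δ1)
    (hest : ∀ t, GoodT I p p.L t → (estK I p t).toOuterMeasure {h | ¬ AccC I p (ε / 4) h} ≤ δ2) :
    (mainK I p).toOuterMeasure {z | ¬ Acc ((cbs I).card : ℝ) ε z} ≤ δ1 + δ2 := by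
  classical
  unfold mainK
  rw [← P328R.EE_indicator, P328R.EE_bind]
  have h1 : P328R.EE (learnK I p) (fun t => P328R.EE ((estK I p t).map (outV p n))
      ({z | ¬ Acc ((cbs I).card : ℝ) ε z}.indicator fun _ => 1)) ≤
      P328R.EE (learnK I p) (fun t => ({t | ¬ GoodT I p p.L t}.indicator (fun _ => 1) t) + δ2) := by
    refine P328R.EE_mono fun t => ?_
    by_cases ht : GoodT I p p.L t
    · refine le_trans ?_ le_add_self
      rw [P328R.EE_indicator, PMF.toOuterMeasure_map_apply]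
      refine le_trans (MeasureTheory.OuterMeasure.mono _ ?_) (hest t ht)
      intro h hh hc
      exact hh (outV_acc hI hn hε0 hε1 hS hν hc)
    · refine le_trans (P328R.EE_le_one ?_) ?_
      · intro y
        exact Set.indicator_le (fun _ _ => le_refl _) y
      · rw [Set.indicator_of_mem (by exact ht)]
        exact le_self_add
  refine h1.trans ?_
  rw [P328R.EE_add, P328R.EE_indicator, P328R.EE_const]
  exact add_le_add hlearn le_rfl

end Vale.Agent.P317R
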