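import Vale.Agent.P317R.Levels

/-! # P317: the rank functions of two matroids on `Fin n` -/

namespace Vale.Agent.P317R

open Finset

variable {n : ℕ}

/-- the rank function of a matroid on `Fin n` -/
noncomputable def rkM (M : Matroid (Fin n)) (A : Finset (Fin n)) : ℕ :=
  (M.eRk (A : Set (Fin n))).toNat

/-- the number of common bases -/
noncomputable def nCB (M₁ M₂ : Matroid (Fin n)) : ℕ :=
  {B : Finset (Fin n) | M₁.IsBase (B : Set (Fin n)) ∧ M₂.IsBase (B : Set (Fin n))}.ncard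

theorem eRk_ne_top (M : Matroid (Fin n)) (X : Set (Fin n)) : M.eRk X ≠ ⊤ := by
  have h1 : M.eRk X ≤ X.encard := M.eRk_le_encard X
  have h2 : X.encard ≠ ⊤ := Set.encard_ne_top_iff.2 (Set.toFinite X)
  exact ne_top_of_le_ne_top h2 h1

theorem coe_rkM (M : Matroid (Fin n)) (A : Finset (Fin n)) :
    (rkM M A : ℕ∞) = M.eRk (A : Set (Fin n)) :=
  ENat.natCast_toNat (eRk_ne_top M _)

theorem isRk_rkM (M : Matroid (Fin n)) : IsRk (rkM M) where
  emp := by
    unfold rkM
    simp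
  mono := fun A B h => by
    rw [← Nat.cast_le (α := ℕ∞), coe_rkM, coe_rkM]
    exact M.eRk_mono (Finset.coe_subset.2 h)
  ins := fun A x => by
    rw [← Nat.cast_le (α := ℕ∞)]
    push_cast
    rw [coe_rkM, coe_rkM, Finset.coe_insert]
    have h := M.eRk_union_le_encard_add_eRk {x} (A : Set (Fin n))
    rw [Set.singleton_union, Set.encard_singleton, add_comm] at h
    exact h
  sub := fun A B => by
    rw [← Nat.cast_le (α := ℕ∞)]
    push_cast
    rw [coe_rkM, coe_rkM, coe_rkM, coe_rkM, Finset.coe_union, Finset.coe_inter, add_comm]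
    exact M.eRk_inter_add_eRk_union_le _ _

/-- the instance of two matroids -/
noncomputable def instM (M₁ M₂ : Matroid (Fin n)) : Inst n where
  rk1 := rkM M₁
  rk2 := rkM M₂
  r := rkM M₂ univ

theorem instM_ok {M₁ M₂ : Matroid (Fin n)} (h : M₁.eRank = M₂.eRank) : (instM M₁ M₂).Ok where
  h1 := isRk_rkM M₁
  h2 := isRk_rkM M₂
  t1 := by
    show rkM M₁ univ = rkM M₂ univ
    unfold rkM
    rw [Finset.coe_univ, M₁.eRk_univ_eq, M₂.eRk_univ_eq, h]
  t2 := rfl

theorem isBase_iff_rkM (M : Matroid (Fin n)) (A : Finset (Fin n)) :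
    M.IsBase (A : Set (Fin n)) ↔ A.card = rkM M univ ∧ rkM M A = rkM M univ := by
  have hu : (rkM M univ : ℕ∞) = M.eRank := by
    rw [coe_rkM, Finset.coe_univ, M.eRk_univ_eq]
  constructor
  · intro h
    have h1 := h.encard_eq_eRank
    have h2 := h.eRk_eq_eRank
    rw [Set.encard_coe_eq_coe_finsetCard] at h1
    rw [← coe_rkM] at h2
    rw [← hu] at h1 h2
    exact ⟨by exact_mod_cast h1, by exact_mod_cast h2⟩
  · rintro ⟨h1, h2⟩
    obtain ⟨J, hJ⟩ := M.exists_isBasis' (A : Set (Fin n))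
    have h3 := hJ.encard_eq_eRk
    rw [← coe_rkM, h2, ← h1, ← Set.encard_coe_eq_coe_finsetCard] at h3
    have h4 : J = (A : Set (Fin n)) :=
      Set.Finite.eq_of_subset_of_encard_le (Set.toFinite _) hJ.subset h3.ge
    have h5 : M.Indep (A : Set (Fin n)) := h4 ▸ hJ.indep
    obtain ⟨B, hB, hAB⟩ := h5.exists_isBase_superset
    have h6 := hB.encard_eq_eRank
    rw [← hu, ← h1, ← Set.encard_coe_eq_coe_finsetCard] at h6
    have h7 : (A : Set (Fin n)) = B :=
      Set.Finite.eq_of_subset_of_encard_le (Set.toFinite _) hAB h6.le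
    exact h7 ▸ hB

theorem card_cbs {M₁ M₂ : Matroid (Fin n)} (h : M₁.eRank = M₂.eRank) :
    (cbs (instM M₁ M₂)).card = nCB M₁ M₂ := by
  unfold nCB
  rw [← Set.ncard_coe_finset]
  congr 1
  ext A
  have hr : rkM M₁ univ = rkM M₂ univ := (instM_ok h).t1
  rw [Finset.mem_coe]
  unfold cbs
  rw [Finset.mem_filter]
  show (A ∈ univ ∧ (A.card = rkM M₂ univ ∧ rkM M₁ A = rkM M₂ univ) ∧ rkM M₂ A = rkM M₂ univ) ↔
    M₁.IsBase (A : Set (Fin n)) ∧ M₂.IsBase (A : Set (Fin n))
  rw [isBase_iff_rkM, isBase_iff_rkM, hr]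
  have := Finset.mem_univ A
  tauto

end Vale.Agent.P317R
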