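import Vale.Agent.P317R.Algo

/-!
# P317: the parameters of the algorithm
-/

namespace Vale.Agent.P317R

/-- the base of the parameters (`a` bounds `1 / ε`, and `b` bounds `1 / δ`) -/
def baseX (n a b : ℕ) : ℕ := 8 + n + a + Nat.size b

/-- the parameters for the base `X`; `k1, k2, k3, k4` are constants -/
def parX (k1 k2 k3 k4 n X : ℕ) : Par where
  s := X ^ k1
  T := X ^ k2
  S := X ^ k3
  K := k4 * X
  L := X ^ 3
  E0 := 2 + X ^ 3 * (Nat.size (X ^ k3) + 1)
  Bn := Nat.size n

end Vale.Agent.P317R
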