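import Vale.Agent.P317R.Learn
import Vale.Agent.P317R.ParDef

/-!
# P317: the parameters

All numeric side conditions for the parameters `parX 70 6 20 100 n X`, where
`X ≥ 8 + n + a + size b`, `1 / ε ≤ a`, `1 / δ ≤ b`.
-/

namespace Vale.Agent.P317R

/-- the parameters of the algorithm -/
abbrev parY (n X : ℕ) : Par := parX 70 6 20 100 n X

/-- the accuracy of a pass -/
noncomputable def etaX (X : ℕ) : ℝ := ((X : ℝ)⁻¹) ^ 12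

/-- the parameter `θ` of the good chain -/
noncomputable def thX (X : ℕ) : ℝ := ((X : ℝ)⁻¹) ^ 29

/-- the accuracy of the frequencies -/
noncomputable def tauX (X : ℕ) : ℝ := ((X : ℝ)⁻¹) ^ 8

theorem ccX {x y : ℝ} (h : x * y = 1) (a b : ℕ) : x ^ a * y ^ (a + b) = y ^ b := by
  rw [pow_add, ← mul_assoc, ← mul_pow, h, one_pow, one_mul]

section

variable {n X : ℕ}

theorem X_le_pow (X : ℕ) : (X : ℝ) ≤ 2 ^ X := by
  exact_mod_cast (Nat.lt_two_pow_self (n := X)).le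

theorem invK_le (hX : 0 < X) : ((2 : ℝ) ^ (100 * X))⁻¹ ≤ ((X : ℝ)⁻¹) ^ 100 := by
  have hX' : (0 : ℝ) < X := by exact_mod_cast hX
  rw [inv_pow]
  refine inv_anti₀ (by positivity) ?_
  calc (X : ℝ) ^ 100 ≤ (2 ^ X) ^ 100 := pow_le_pow_left₀ hX'.le (X_le_pow X) 100
    _ = 2 ^ (100 * X) := by rw [← pow_mul, mul_comm]

theorem bn_ge (n : ℕ) : n ≤ 2 ^ (Nat.size n) := (Nat.lt_size_self n).le

theorem S_pos (hX : 0 < X) : 0 < (parY n X).S := Nat.pow_pos hX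

theorem etaX_pos (hX : 0 < X) : 0 < etaX X := by
  unfold etaX
  have hX' : (0 : ℝ) < X := by exact_mod_cast hX
  positivity

theorem thX_nonneg (X : ℕ) : 0 ≤ thX X := by
  unfold thX
  positivity

theorem tauX_nonneg (X : ℕ) : 0 ≤ tauX X := by
  unfold tauX
  positivity

theorem inv_le_eighth (hX : 8 ≤ X) : ((X : ℝ)⁻¹) ≤ 1 / 8 := by
  have hX' : (8 : ℝ) ≤ X := by exact_mod_cast hX
  rw [one_div]
  exact inv_anti₀ (by norm_num) hX'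

theorem inv_le_one' (hX : 8 ≤ X) : ((X : ℝ)⁻¹) ≤ 1 := (inv_le_eighth hX).trans (by norm_num)

theorem tauX_le (hX : 8 ≤ X) : tauX X ≤ 2 := by
  unfold tauX
  have h1 : (0 : ℝ) ≤ (X : ℝ)⁻¹ := by positivity
  have := pow_le_one₀ h1 (inv_le_one' hX) (n := 8)
  linarith

/-- the exponents are large enough -/
theorem E0_ge (n : ℕ) (X : ℕ) : (parY n X).L * Nat.size (parY n X).S ≤ (parY n X).E0 := by
  show X ^ 3 * Nat.size (X ^ 20) ≤ 2 + X ^ 3 * (Nat.size (X ^ 20) + 1)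
  rw [Nat.mul_add]
  omega

/-- (A) the conditions of `good_level` -/
theorem condA1 (hX : 8 ≤ X) (hnX : n ≤ X) : 8 * (n : ℝ) ^ 2 * thX X ≤ 1 := by
  have hX' : (8 : ℝ) ≤ X := by exact_mod_cast hX
  have hn' : (n : ℝ) ≤ X := by exact_mod_cast hnX
  have hxy : (X : ℝ) * (X : ℝ)⁻¹ = 1 := mul_inv_cancel₀ (by linarith)
  have hy0 : (0 : ℝ) ≤ (X : ℝ)⁻¹ := by positivity
  unfold thX
  have h1 : (n : ℝ) ^ 2 ≤ (X : ℝ) ^ 2 := pow_le_pow_left₀ (Nat.cast_nonneg n) hn' 2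
  have h2 : (X : ℝ) ^ 2 * ((X : ℝ)⁻¹) ^ 29 = ((X : ℝ)⁻¹) ^ 27 := ccX hxy 2 27
  have h3 : ((X : ℝ)⁻¹) ^ 27 ≤ (X : ℝ)⁻¹ := by
    have := pow_le_pow_of_le_one hy0 (inv_le_one' hX) (show 1 ≤ 27 by norm_num)
    simpa using this
  have h4 := inv_le_eighth hX
  have h5 : (n : ℝ) ^ 2 * ((X : ℝ)⁻¹) ^ 29 ≤ (X : ℝ) ^ 2 * ((X : ℝ)⁻¹) ^ 29 :=
    mul_le_mul_of_nonneg_right h1 (by positivity)
  linarith

theorem condA2 (hn : 0 < n) (hX : 8 ≤ X) (hnX : n ≤ X) :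
    1280 * (n : ℝ) ^ 3 * (2 ^ (parY n X).Bn) ^ 2 ≤ thX X ^ 2 * ((parY n X).s + 1) := by
  have hX' : (8 : ℝ) ≤ X := by exact_mod_cast hX
  have hn' : (n : ℝ) ≤ X := by exact_mod_cast hnX
  have hxy : (X : ℝ) * (X : ℝ)⁻¹ = 1 := mul_inv_cancel₀ (by linarith)
  have h1 : ((2 : ℝ) ^ (parY n X).Bn) ^ 2 ≤ (2 * n) ^ 2 :=
    pow_le_pow_left₀ (by positivity) (pow_size_le hn) 2
  have h2 : (n : ℝ) ^ 5 ≤ (X : ℝ) ^ 5 := pow_le_pow_left₀ (Nat.cast_nonneg n) hn' 5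
  have e1 : ((parY n X).s : ℝ) = (X : ℝ) ^ 70 := by
    show ((X ^ 70 : ℕ) : ℝ) = _
    push_cast
    rfl
  have e2 : thX X ^ 2 * (X : ℝ) ^ 70 = (X : ℝ) ^ 12 := by
    unfold thX
    calc (((X : ℝ)⁻¹) ^ 29) ^ 2 * (X : ℝ) ^ 70
        = ((X : ℝ) * (X : ℝ)⁻¹) ^ 58 * (X : ℝ) ^ 12 := by ring
      _ = _ := by rw [hxy, one_pow, one_mul]
  have h3 : (8 : ℝ) ^ 7 ≤ (X : ℝ) ^ 7 := pow_le_pow_left₀ (by norm_num) hX' 7
  have h4 : 5120 * (X : ℝ) ^ 5 ≤ (X : ℝ) ^ 12 := by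
    have : (X : ℝ) ^ 12 = (X : ℝ) ^ 7 * (X : ℝ) ^ 5 := by ring
    rw [this]
    have h5 : (0 : ℝ) ≤ (X : ℝ) ^ 5 := by positivity
    exact mul_le_mul_of_nonneg_right (by linarith) h5
  calc 1280 * (n : ℝ) ^ 3 * (2 ^ (parY n X).Bn) ^ 2
      ≤ 1280 * (n : ℝ) ^ 3 * (2 * n) ^ 2 := mul_le_mul_of_nonneg_left h1 (by positivity)
    _ = 5120 * (n : ℝ) ^ 5 := by ring
    _ ≤ 5120 * (X : ℝ) ^ 5 := by linarith
    _ ≤ (X : ℝ) ^ 12 := h4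
    _ = thX X ^ 2 * (X : ℝ) ^ 70 := e2.symm
    _ ≤ _ := by
      rw [e1, mul_add]
      have : 0 ≤ thX X ^ 2 * 1 := by positivity
      linarith

/-- (B) -/
theorem condB (hX : 8 ≤ X) (hnX : n ≤ X) :
    32 * (n : ℝ) ^ 2 * thX X * (4 / 3) ^ 2 ≤ etaX X ^ 2 := by
  have hX' : (8 : ℝ) ≤ X := by exact_mod_cast hX
  have hn' : (n : ℝ) ≤ X := by exact_mod_cast hnX
  have hxy : (X : ℝ) * (X : ℝ)⁻¹ = 1 := mul_inv_cancel₀ (by linarith)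
  have hy0 : (0 : ℝ) ≤ (X : ℝ)⁻¹ := by positivity
  have hy8 := inv_le_eighth hX
  unfold thX etaX
  have h1 : (n : ℝ) ^ 2 ≤ (X : ℝ) ^ 2 := pow_le_pow_left₀ (Nat.cast_nonneg n) hn' 2
  have h2 : (X : ℝ) ^ 2 * ((X : ℝ)⁻¹) ^ 29 = ((X : ℝ)⁻¹) ^ 27 := ccX hxy 2 27
  have h5 : (n : ℝ) ^ 2 * ((X : ℝ)⁻¹) ^ 29 ≤ (X : ℝ) ^ 2 * ((X : ℝ)⁻¹) ^ 29 :=
    mul_le_mul_of_nonneg_right h1 (by positivity)
  have h6 : ((X : ℝ)⁻¹) ^ 3 ≤ (1 / 8) ^ 3 := pow_le_pow_left₀ hy0 hy8 3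
  have h7 : ((X : ℝ)⁻¹) ^ 27 = ((X : ℝ)⁻¹) ^ 3 * ((X : ℝ)⁻¹) ^ 24 := by ring
  have h8 : ((X : ℝ)⁻¹) ^ 3 * ((X : ℝ)⁻¹) ^ 24 ≤ (1 / 8) ^ 3 * ((X : ℝ)⁻¹) ^ 24 :=
    mul_le_mul_of_nonneg_right h6 (by positivity)
  have h9 : (0 : ℝ) ≤ ((X : ℝ)⁻¹) ^ 24 := by positivity
  calc 32 * (n : ℝ) ^ 2 * ((X : ℝ)⁻¹) ^ 29 * (4 / 3) ^ 2
      = 512 / 9 * ((n : ℝ) ^ 2 * ((X : ℝ)⁻¹) ^ 29) := by ring
    _ ≤ 512 / 9 * ((1 / 8) ^ 3 * ((X : ℝ)⁻¹) ^ 24) := by linarith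
    _ ≤ ((X : ℝ)⁻¹) ^ 24 := by linarith
    _ = _ := by ring

/-- (C) -/
theorem condC (hX : 8 ≤ X) (hnX : n ≤ X) :
    2 * (16 * (n : ℝ) ^ 2) * Real.log ((4 / 3) / etaX X) ≤ (parY n X).T := by
  have hX' : (8 : ℝ) ≤ X := by exact_mod_cast hX
  have hn' : (n : ℝ) ≤ X := by exact_mod_cast hnX
  have h0 : (0 : ℝ) < X := by linarith
  have e1 : ((parY n X).T : ℝ) = (X : ℝ) ^ 6 := by
    show ((X ^ 6 : ℕ) : ℝ) = _
    push_cast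
    rfl
  have e2 : (4 / 3) / etaX X = 4 / 3 * (X : ℝ) ^ 12 := by
    unfold etaX
    rw [inv_pow, div_inv_eq_mul]
  have h1 : Real.log ((4 / 3) / etaX X) ≤ 13 * X := by
    rw [e2, Real.log_mul (by norm_num) (by positivity), Real.log_pow]
    have a1 := Real.log_le_sub_one_of_pos (show (0 : ℝ) < 4 / 3 by norm_num)
    have a2 := Real.log_le_sub_one_of_pos h0
    push_cast
    linarith
  have h2 : (n : ℝ) ^ 2 ≤ (X : ℝ) ^ 2 := pow_le_pow_left₀ (Nat.cast_nonneg n) hn' 2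
  have h3 : (8 : ℝ) ^ 3 ≤ (X : ℝ) ^ 3 := pow_le_pow_left₀ (by norm_num) hX' 3
  rw [e1]
  calc 2 * (16 * (n : ℝ) ^ 2) * Real.log ((4 / 3) / etaX X)
      ≤ 2 * (16 * (n : ℝ) ^ 2) * (13 * X) := mul_le_mul_of_nonneg_left h1 (by positivity)
    _ = 416 * (X : ℝ) * (n : ℝ) ^ 2 := by ring
    _ ≤ 416 * (X : ℝ) * (X : ℝ) ^ 2 := mul_le_mul_of_nonneg_left h2 (by positivity)
    _ = 416 * (X : ℝ) ^ 3 := by ring
    _ ≤ (X : ℝ) ^ 3 * (X : ℝ) ^ 3 := mul_le_mul_of_nonneg_right (by linarith) (by positivity)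
    _ = _ := by ring

/-- the error of a pass -/
theorem pass_err (hX : 8 ≤ X) :
    ((parY n X).L : ℝ) * (etaX X + (parY n X).T * ((parY n X).s * ((2 : ℝ) ^ (parY n X).K)⁻¹)) ≤
      ((X : ℝ)⁻¹) ^ 9 + ((X : ℝ)⁻¹) ^ 21 := by
  have hX' : (8 : ℝ) ≤ X := by exact_mod_cast hX
  have hxy : (X : ℝ) * (X : ℝ)⁻¹ = 1 := mul_inv_cancel₀ (by linarith)
  have e1 : ((parY n X).L : ℝ) = (X : ℝ) ^ 3 := by
    show ((X ^ 3 : ℕ) : ℝ) = _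
    push_cast
    rfl
  have e2 : ((parY n X).T : ℝ) = (X : ℝ) ^ 6 := by
    show ((X ^ 6 : ℕ) : ℝ) = _
    push_cast
    rfl
  have e3 : ((parY n X).s : ℝ) = (X : ℝ) ^ 70 := by
    show ((X ^ 70 : ℕ) : ℝ) = _
    push_cast
    rfl
  have e4 : ((2 : ℝ) ^ (parY n X).K)⁻¹ ≤ ((X : ℝ)⁻¹) ^ 100 := invK_le (by omega)
  rw [e1, e2, e3]
  have h1 : (X : ℝ) ^ 3 * ((X : ℝ)⁻¹) ^ 12 = ((X : ℝ)⁻¹) ^ 9 := ccX hxy 3 9
  have h2 : (X : ℝ) ^ 79 * ((X : ℝ)⁻¹) ^ 100 = ((X : ℝ)⁻¹) ^ 21 := ccX hxy 79 21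
  have h3 : (X : ℝ) ^ 79 * ((2 : ℝ) ^ (parY n X).K)⁻¹ ≤ (X : ℝ) ^ 79 * ((X : ℝ)⁻¹) ^ 100 :=
    mul_le_mul_of_nonneg_left e4 (by positivity)
  calc (X : ℝ) ^ 3 * (etaX X + (X : ℝ) ^ 6 * ((X : ℝ) ^ 70 * ((2 : ℝ) ^ (parY n X).K)⁻¹))
      = (X : ℝ) ^ 3 * ((X : ℝ)⁻¹) ^ 12 + (X : ℝ) ^ 79 * ((2 : ℝ) ^ (parY n X).K)⁻¹ := by
        unfold etaX
        ring
    _ ≤ _ := by rw [h1]; linarith

/-- (D) the accuracy of the final estimation -/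
theorem condD (hX : 8 ≤ X) {ε : ℝ} (hε : (X : ℝ)⁻¹ ≤ ε) :
    16 * ((parY n X).L : ℝ) * ((parY n X).L * (etaX X + (parY n X).T * ((parY n X).s *
      ((2 : ℝ) ^ (parY n X).K)⁻¹)) + ((2 : ℝ) ^ (parY n X).K)⁻¹ + tauX X) ≤ ε / 4 * (3 / 4) := by
  have hX' : (8 : ℝ) ≤ X := by exact_mod_cast hX
  have hxy : (X : ℝ) * (X : ℝ)⁻¹ = 1 := mul_inv_cancel₀ (by linarith)
  have e1 : ((parY n X).L : ℝ) = (X : ℝ) ^ 3 := by
    show ((X ^ 3 : ℕ) : ℝ) = _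
    push_cast
    rfl
  have h1 := pass_err (n := n) hX
  have e4 : ((2 : ℝ) ^ (parY n X).K)⁻¹ ≤ ((X : ℝ)⁻¹) ^ 100 := invK_le (by omega)
  set y := (X : ℝ)⁻¹ with hy
  have hy0 : 0 ≤ y := by positivity
  have hy1 : y ≤ 1 := inv_le_one' hX
  have hy8 : y ≤ 1 / 8 := inv_le_eighth hX
  have p : ∀ m, y ^ (5 + m) ≤ y ^ 5 := fun m =>
    pow_le_pow_of_le_one hy0 hy1 (by omega)
  calc 16 * ((parY n X).L : ℝ) * ((parY n X).L * (etaX X + (parY n X).T * ((parY n X).s *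
      ((2 : ℝ) ^ (parY n X).K)⁻¹)) + ((2 : ℝ) ^ (parY n X).K)⁻¹ + tauX X)
      ≤ 16 * (X : ℝ) ^ 3 * ((y ^ 9 + y ^ 21) + y ^ 100 + y ^ 8) := by
        rw [e1] at h1 ⊢
        refine mul_le_mul_of_nonneg_left ?_ (by positivity)
        have : tauX X = y ^ 8 := rfl
        linarith
    _ = 16 * ((X : ℝ) ^ 3 * y ^ (3 + 6) + (X : ℝ) ^ 3 * y ^ (3 + 18) +
          (X : ℝ) ^ 3 * y ^ (3 + 97) + (X : ℝ) ^ 3 * y ^ (3 + 5)) := by ring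
    _ = 16 * (y ^ 6 + y ^ 18 + y ^ 97 + y ^ 5) := by
        rw [ccX hxy, ccX hxy, ccX hxy, ccX hxy]
    _ ≤ 64 * y ^ 5 := by
        have a1 := p 1
        have a2 := p 13
        have a3 := p 92
        norm_num at a1 a2 a3
        linarith
    _ ≤ 64 * ((1 / 8) ^ 4 * y) := by
        have h2 : y ^ 4 ≤ (1 / 8) ^ 4 := pow_le_pow_left₀ hy0 hy8 4
        have h3 : y ^ 5 = y ^ 4 * y := by ring
        rw [h3]
        have := mul_le_mul_of_nonneg_right h2 hy0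
        linarith
    _ ≤ ε / 4 * (3 / 4) := by linarith

/-- (F) the accuracy of the observations -/
theorem condF (hn : 0 < n) (hX : 8 ≤ X) (hnX : n ≤ X) :
    ((parY n X).L : ℝ) * (etaX X + (parY n X).T * ((parY n X).s * ((2 : ℝ) ^ (parY n X).K)⁻¹)) +
      (parY n X).s * ((2 : ℝ) ^ (parY n X).K)⁻¹ + 4 * n * thX X + tauX X ≤
      1 / (80 * (n : ℝ) ^ 2) := by
  have hX' : (8 : ℝ) ≤ X := by exact_mod_cast hX
  have hn' : (n : ℝ) ≤ X := by exact_mod_cast hnX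
  have hn0 : (0 : ℝ) < n := by exact_mod_cast hn
  have hxy : (X : ℝ) * (X : ℝ)⁻¹ = 1 := mul_inv_cancel₀ (by linarith)
  have e3 : ((parY n X).s : ℝ) = (X : ℝ) ^ 70 := by
    show ((X ^ 70 : ℕ) : ℝ) = _
    push_cast
    rfl
  have h1 := pass_err (n := n) hX
  have e4 : ((2 : ℝ) ^ (parY n X).K)⁻¹ ≤ ((X : ℝ)⁻¹) ^ 100 := invK_le (by omega)
  set y := (X : ℝ)⁻¹ with hy
  have hy0 : 0 ≤ y := by positivity
  have hy1 : y ≤ 1 := inv_le_one' hX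
  have hy8 : y ≤ 1 / 8 := inv_le_eighth hX
  have p : ∀ m, y ^ (8 + m) ≤ y ^ 8 := fun m =>
    pow_le_pow_of_le_one hy0 hy1 (by omega)
  have h2 : ((parY n X).s : ℝ) * ((2 : ℝ) ^ (parY n X).K)⁻¹ ≤ y ^ 30 := by
    rw [e3, ← ccX hxy 70 30]
    exact mul_le_mul_of_nonneg_left e4 (by positivity)
  have h3 : 4 * (n : ℝ) * thX X ≤ 4 * y ^ 28 := by
    have : thX X = y ^ 29 := rfl
    rw [this]
    have h4 := ccX hxy 1 28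
    have h5 : (n : ℝ) * y ^ 29 ≤ (X : ℝ) * y ^ 29 := mul_le_mul_of_nonneg_right hn' (by positivity)
    rw [pow_one] at h4
    norm_num at h4
    nlinarith
  have h4 : 4 * y ^ 28 ≤ y ^ 8 := by
    have a1 := p 19
    norm_num at a1
    have a2 : y ^ 28 = y * y ^ 27 := by ring
    have a3 : (0 : ℝ) ≤ y ^ 27 := by positivity
    nlinarith
  have a1 := p 1
  have a2 := p 13
  have a3 := p 22
  norm_num at a1 a2 a3
  have h5 : tauX X = y ^ 8 := rfl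
  have h6 : y ^ 8 ≤ (1 / 8) ^ 6 * y ^ 2 := by
    have h7 : y ^ 6 ≤ (1 / 8) ^ 6 := pow_le_pow_left₀ hy0 hy8 6
    have h8 : y ^ 8 = y ^ 6 * y ^ 2 := by ring
    rw [h8]
    exact mul_le_mul_of_nonneg_right h7 (by positivity)
  have h7 : y ^ 2 ≤ 1 / (n : ℝ) ^ 2 := by
    rw [le_div_iff₀ (by positivity)]
    have h8 : (n : ℝ) ^ 2 ≤ (X : ℝ) ^ 2 := pow_le_pow_left₀ hn0.le hn' 2
    have h9 : y ^ 2 * (X : ℝ) ^ 2 = 1 := by rw [← mul_pow, mul_comm, hxy, one_pow]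
    have := mul_le_mul_of_nonneg_left h8 (by positivity : 0 ≤ y ^ 2)
    linarith
  have h8 : 1 / (80 * (n : ℝ) ^ 2) = 1 / 80 * (1 / (n : ℝ) ^ 2) := by
    field_simp
  rw [h8]
  have h9 : (0 : ℝ) ≤ y ^ 2 := by positivity
  linarith

/-- the exponential bound -/
theorem exp_bound (hX : 8 ≤ X) :
    Real.exp (-(((parY n X).S : ℝ) * tauX X ^ 2 / 4)) ≤ (8 * (X : ℝ) ^ 5 * 2 ^ X)⁻¹ := by
  have hX' : (8 : ℝ) ≤ X := by exact_mod_cast hX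
  have hxy : (X : ℝ) * (X : ℝ)⁻¹ = 1 := mul_inv_cancel₀ (by linarith)
  have e1 : ((parY n X).S : ℝ) = (X : ℝ) ^ 20 := by
    show ((X ^ 20 : ℕ) : ℝ) = _
    push_cast
    rfl
  have e2 : (X : ℝ) ^ 20 * tauX X ^ 2 = (X : ℝ) ^ 4 := by
    unfold tauX
    calc (X : ℝ) ^ 20 * (((X : ℝ)⁻¹) ^ 8) ^ 2
        = ((X : ℝ) * (X : ℝ)⁻¹) ^ 16 * (X : ℝ) ^ 4 := by ring
      _ = _ := by rw [hxy, one_pow, one_mul]
  rw [e1, e2, Real.exp_neg]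
  refine inv_anti₀ (by positivity) ?_
  have h1 : (8 : ℝ) ^ 3 ≤ (X : ℝ) ^ 3 := pow_le_pow_left₀ (by norm_num) hX' 3
  have h2 : 7 * (X : ℝ) ≤ (X : ℝ) ^ 4 / 4 := by
    have : (X : ℝ) ^ 4 = (X : ℝ) ^ 3 * X := by ring
    nlinarith
  have h3 : (X : ℝ) ≤ Real.exp X := by
    have := Real.add_one_le_exp (X : ℝ)
    linarith
  have h4 : (2 : ℝ) ^ X ≤ Real.exp X := by
    have h5 : (2 : ℝ) ≤ Real.exp 1 := by
      have := Real.add_one_le_exp (1 : ℝ)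
      linarith
    calc (2 : ℝ) ^ X ≤ Real.exp 1 ^ X := pow_le_pow_left₀ (by norm_num) h5 X
      _ = Real.exp X := by rw [← Real.exp_nat_mul, mul_one]
  calc 8 * (X : ℝ) ^ 5 * 2 ^ X ≤ (X : ℝ) * (X : ℝ) ^ 5 * 2 ^ X := by gcongr
    _ = (X : ℝ) ^ 6 * 2 ^ X := by ring
    _ ≤ Real.exp X ^ 6 * Real.exp X := by
        gcongr
    _ = Real.exp (7 * X) := by
        rw [← Real.exp_nat_mul, ← Real.exp_add]
        congr 1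
        push_cast
        ring
    _ ≤ _ := Real.exp_le_exp.2 h2

/-- (D') the confidence of the final estimation -/
theorem condD' (hX : 8 ≤ X) {δ : ℝ} (hδ : ((2 : ℝ) ^ X)⁻¹ ≤ δ) :
    2 * ((parY n X).L : ℝ) * Real.exp (-(((parY n X).S : ℝ) * tauX X ^ 2 / 4)) ≤ δ / 2 := by
  have hX' : (8 : ℝ) ≤ X := by exact_mod_cast hX
  have e1 : ((parY n X).L : ℝ) = (X : ℝ) ^ 3 := by
    show ((X ^ 3 : ℕ) : ℝ) = _
    push_cast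
    rfl
  rw [e1]
  have h1 := mul_le_mul_of_nonneg_left (exp_bound (n := n) hX)
    (by positivity : (0 : ℝ) ≤ 2 * (X : ℝ) ^ 3)
  refine h1.trans ?_
  have h2 : 2 * (X : ℝ) ^ 3 * (8 * (X : ℝ) ^ 5 * 2 ^ X)⁻¹ = (4 * (X : ℝ) ^ 2)⁻¹ * ((2 : ℝ) ^ X)⁻¹ := by
    field_simp
    norm_num
  rw [h2]
  have h3 : (4 * (X : ℝ) ^ 2)⁻¹ ≤ 1 / 2 := by
    rw [one_div]
    apply inv_anti₀ (by norm_num)
    nlinarith
  have h4 : (0 : ℝ) ≤ ((2 : ℝ) ^ X)⁻¹ := by positivity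
  nlinarith

/-- (G) the confidence of the learning -/
theorem condG (hX : 8 ≤ X) (hnX : n ≤ X) {δ : ℝ} (hδ : ((2 : ℝ) ^ X)⁻¹ ≤ δ) :
    ((parY n X).L : ℝ) * (2 * ((n : ℝ) ^ 2 + 1) *
      Real.exp (-(((parY n X).S : ℝ) * tauX X ^ 2 / 4))) ≤ δ / 2 := by
  have hX' : (8 : ℝ) ≤ X := by exact_mod_cast hX
  have hn' : (n : ℝ) ≤ X := by exact_mod_cast hnX
  have h2 : (n : ℝ) ^ 2 ≤ (X : ℝ) ^ 2 := pow_le_pow_left₀ (Nat.cast_nonneg n) hn' 2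
  have e1 : ((parY n X).L : ℝ) = (X : ℝ) ^ 3 := by
    show ((X ^ 3 : ℕ) : ℝ) = _
    push_cast
    rfl
  rw [e1]
  have h3 : (n : ℝ) ^ 2 + 1 ≤ 2 * (X : ℝ) ^ 2 := by nlinarith
  have h1 := exp_bound (n := n) hX
  have h5 := Real.exp_pos (-(((parY n X).S : ℝ) * tauX X ^ 2 / 4))
  calc (X : ℝ) ^ 3 * (2 * ((n : ℝ) ^ 2 + 1) * Real.exp (-(((parY n X).S : ℝ) * tauX X ^ 2 / 4)))
      ≤ (X : ℝ) ^ 3 * (2 * (2 * (X : ℝ) ^ 2) * (8 * (X : ℝ) ^ 5 * 2 ^ X)⁻¹) := by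
        gcongr
    _ = 1 / 2 * ((2 : ℝ) ^ X)⁻¹ := by
        field_simp
        norm_num
    _ ≤ δ / 2 := by linarith

/-- (E) the last level -/
theorem condE (hn : 0 < n) (hX : 8 ≤ X) (hnX : n ≤ X) {ε : ℝ} (hε : (X : ℝ)⁻¹ ≤ ε) :
    2 ^ n * qn n ^ (parY n X).L ≤ ε / 4 := by
  have hX' : (8 : ℝ) ≤ X := by exact_mod_cast hX
  have hn' : (n : ℝ) ≤ X := by exact_mod_cast hnX
  have hn0 : (0 : ℝ) < n := by exact_mod_cast hn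
  have h1 : qn n ≤ Real.exp (-(1 / (4 * (n : ℝ)))) := by
    rw [qn_eq hn]
    have := Real.add_one_le_exp (-(1 / (4 * (n : ℝ))))
    linarith
  have h2 : qn n ^ (parY n X).L ≤ Real.exp (-((X : ℝ) ^ 2 / 4)) := by
    show qn n ^ (X ^ 3) ≤ _
    calc qn n ^ (X ^ 3) ≤ Real.exp (-(1 / (4 * (n : ℝ)))) ^ (X ^ 3) :=
          pow_le_pow_left₀ (qn_pos hn).le h1 _
      _ = Real.exp ((X ^ 3 : ℕ) * (-(1 / (4 * (n : ℝ))))) := by rw [← Real.exp_nat_mul]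
      _ ≤ _ := by
        apply Real.exp_le_exp.2
        push_cast
        have h3 : (X : ℝ) ^ 2 / 4 ≤ (X : ℝ) ^ 3 * (1 / (4 * n)) := by
          rw [mul_one_div, div_le_div_iff₀ (by norm_num) (by positivity)]
          have : (0 : ℝ) ≤ (X : ℝ) ^ 2 := by positivity
          nlinarith
        linarith
  have h4 : (2 : ℝ) ^ n ≤ Real.exp X := by
    have h5 : (2 : ℝ) ≤ Real.exp 1 := by
      have := Real.add_one_le_exp (1 : ℝ)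
      linarith
    calc (2 : ℝ) ^ n ≤ 2 ^ X := pow_le_pow_right₀ (by norm_num) hnX
      _ ≤ Real.exp 1 ^ X := pow_le_pow_left₀ (by norm_num) h5 X
      _ = Real.exp X := by rw [← Real.exp_nat_mul, mul_one]
  have h5 : 4 * (X : ℝ) ≤ Real.exp X := by
    have := Real.quadratic_le_exp_of_nonneg (x := (X : ℝ)) (by linarith)
    nlinarith
  have h6 : Real.exp X * Real.exp (-((X : ℝ) ^ 2 / 4)) ≤ (Real.exp X)⁻¹ := by
    rw [← Real.exp_add, ← Real.exp_neg]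
    apply Real.exp_le_exp.2
    nlinarith
  have h7 : (Real.exp X)⁻¹ ≤ (4 * (X : ℝ))⁻¹ := inv_anti₀ (by linarith) h5
  calc (2 : ℝ) ^ n * qn n ^ (parY n X).L
      ≤ Real.exp X * Real.exp (-((X : ℝ) ^ 2 / 4)) :=
        mul_le_mul h4 h2 (pow_nonneg (qn_pos hn).le _) (Real.exp_pos _).le
    _ ≤ (4 * (X : ℝ))⁻¹ := h6.trans h7
    _ = (X : ℝ)⁻¹ / 4 := by rw [mul_inv]; ring
    _ ≤ _ := by linarith

/-- the accuracy is at least `1 / X` -/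
theorem eps_ge {a : ℕ} {ε : ℝ} (hε : 0 < ε) (ha : 1 / ε ≤ a) (haX : a ≤ X) :
    (X : ℝ)⁻¹ ≤ ε := by
  have h1 : (a : ℝ) ≤ X := by exact_mod_cast haX
  have h2 : 0 < 1 / ε := by positivity
  have h3 : (0 : ℝ) < a := by linarith
  rw [inv_le_comm₀ (by linarith) hε, ← one_div]
  linarith

/-- the confidence is at least `2 ^ (-X)` -/
theorem del_ge {b : ℕ} {δ : ℝ} (hδ : 0 < δ) (hb : 1 / δ ≤ b) (hbX : Nat.size b ≤ X) :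
    ((2 : ℝ) ^ X)⁻¹ ≤ δ := by
  have h1 : (b : ℝ) ≤ 2 ^ X := by
    have h2 : b ≤ 2 ^ X := (Nat.lt_size_self b).le.trans (Nat.pow_le_pow_right (by norm_num) hbX)
    exact_mod_cast h2
  rw [inv_le_comm₀ (by positivity) hδ, ← one_div]
  linarith

end

end Vale.Agent.P317R
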