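import Vale.Agent.P317R.Main
import Vale.Agent.P317R.Params

/-! # P317: accuracy of the algorithm with the parameters `parX 70 6 20 100` -/

namespace Vale.Agent.P317R

open Vale.Agent.P328RAM

variable {n : ℕ} {I : Inst n} {X : ℕ}

/-- the numerical conditions hold -/
theorem num_par (hn : 0 < n) {a b : ℕ} {ε δ : ℝ} (hε : 0 < ε) (hδ : 0 < δ) (ha : 1 / ε ≤ a)
    (hb : 1 / δ ≤ b) (hX : baseX n a b ≤ X) :
    Num n (parX 70 6 20 100 n X) ε δ (thX X) (etaX X) (tauX X) := by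
  unfold baseX at hX
  have hX8 : 8 ≤ X := by omega
  have hnX : n ≤ X := by omega
  have hεX : (X : ℝ)⁻¹ ≤ ε := eps_ge hε ha (by omega)
  have hδX : ((2 : ℝ) ^ X)⁻¹ ≤ δ := del_ge hδ hb (by omega)
  exact
    { hBn := bn_ge n
      hθ := thX_nonneg X
      hθn := condA1 hX8 hnX
      hs := condA2 hn hX8 hnX
      hη := etaX_pos (by omega)
      hε' := condB hX8 hnX
      hT := condC hX8 hnX
      hτ0 := tauX_nonneg X
      hτ2 := tauX_le hX8
      hest := condD hX8 hεX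
      hlearn := condF hn hX8 hnX
      hS := S_pos (by omega)
      hE := E0_ge n X
      hν := condE hn hX8 hnX hεX
      hδ1 := condG hX8 hnX hδX
      hδ2 := condD' hX8 hδX }

/-- **Accuracy of the algorithm.** -/
theorem main_par (hI : I.Ok) (hn : 0 < n) {a b : ℕ} {ε δ : ℝ} (hε : 0 < ε) (hε1 : ε ≤ 1)
    (hδ : 0 < δ) (ha : 1 / ε ≤ a) (hb : 1 / δ ≤ b) :
    (mainK I (parX 70 6 20 100 n (baseX n a b))).toOuterMeasure
      {z | ¬ Acc ((cbs I).card : ℝ) ε z} ≤ ENNReal.ofReal δ :=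
  main_acc hI hn hε hε1 (num_par hn hε hδ ha hb le_rfl)

end Vale.Agent.P317R
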