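import Vale.Agent.P317R.GFRoot
import Vale.Agent.P317R.GFClass

/-!
# P317R: definitions for the Poincaré inequality

MODULE PDEF.
-/

namespace Vale.Agent.P317R

open Finset

variable {ι : Type*} [Fintype ι] [DecidableEq ι]

/-- the cost of the node `S`: `∑_{c ∉ S} wt (S + c) (g (S + c) - h S)²` -/
def nodeCost (wt g h : Finset (ι × Bool) → ℝ) (S : Finset (ι × Bool)) : ℝ :=
  ∑ c, if c ∈ S then 0 else wt (insert c S) * (g (insert c S) - h S) ^ 2

/-- total cost of the nodes over `W` with the pair `i` empty -/
noncomputable def Cost (J : Finset ι) (wt g h : Finset (ι × Bool) → ℝ) (W : Finset (ι × Bool))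
    (i : ι) : ℝ :=
  trs (J.erase i) (nodeCost wt g h) W

/-- The hypotheses on the weights of the states: `wt = w` on the perfect states, `ω j i * w` on the
states with the pair `j` double and the pair `i` empty. -/
structure WtOK (w wt : Finset (ι × Bool) → ℝ) (ω : ι → ι → ℝ) : Prop where
  nonneg : ∀ S, 0 ≤ wt S
  omega_nonneg : ∀ i j, 0 ≤ ω i j
  perf : ∀ S, IsTr univ ∅ S → wt S = w S
  near : ∀ i j, i ≠ j → ∀ S, IsTr ((univ.erase i).erase j) ∅ S →
    wt (insert (j, false) (insert (j, true) S)) =
      ω j i * w (insert (j, false) (insert (j, true) S))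

/-- `W` contains exactly one element of every pair outside of `J` and none of the pairs in `J` -/
def Pinned (J : Finset ι) (W : Finset (ι × Bool)) : Prop := IsTr (univ \ J) ∅ W

theorem Pinned.free {J : Finset ι} {W : Finset (ι × Bool)} (h : Pinned J W) : Free J W := by
  intro j hj b hb
  have := (h.1 (j, b) (by simp [hj])).1 hb
  simp at this

/-- the mean of a set function over the perfect states above `W`, times the total weight -/
noncomputable def Mn (J : Finset ι) (w g : Finset (ι × Bool) → ℝ) (W : Finset (ι × Bool)) : ℝ :=
  trs J (fun S => w S * g S) W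

/-- the variance of `g` over the perfect states above `W`, times the total weight -/
noncomputable def Vn (J : Finset ι) (w g : Finset (ι × Bool) → ℝ) (W : Finset (ι × Bool)) : ℝ :=
  trs J (fun S => w S * g S ^ 2) W - Mn J w g W ^ 2 / trs J w W

end Vale.Agent.P317R
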