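import Vale.Agent.P317R.CostNear

/-!
# P317R: the root term

MODULE TP2.
-/

namespace Vale.Agent.P317R

open Finset

variable {ι : Type*} [Fintype ι] [DecidableEq ι]

theorem step_part {X Y D P : ℝ} (hX : 0 < X) (hY : 0 < Y) (h : D ^ 2 ≤ X * P) :
    X * Y / (X + Y) * (D / X) ^ 2 ≤ P := by
  have hs : 0 < X + Y := add_pos hX hY
  have g1 : X * Y / (X + Y) ≤ X := by
    rw [div_le_iff₀ hs]
    have := mul_pos hX hX
    rw [mul_add]
    linarith
  have g2 : X * (D / X) ^ 2 ≤ P := by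
    have e : X * (D / X) ^ 2 = D ^ 2 / X := by field_simp
    rw [e, div_le_iff₀ hX]; linarith
  calc X * Y / (X + Y) * (D / X) ^ 2 ≤ X * (D / X) ^ 2 := by gcongr
    _ ≤ P := g2

theorem step_sq3 (a b c : ℝ) : (a + b - c) ^ 2 ≤ 3 * (a ^ 2 + b ^ 2 + c ^ 2) := by
  nlinarith [sq_nonneg (a - b), sq_nonneg (a + c), sq_nonneg (b + c)]

theorem step_arith {X Y Ax Ay Dx Dy Px Py R n : ℝ} (hX : 0 < X) (hY : 0 < Y)
    (hx : Dx ^ 2 ≤ X * Px) (hy : Dy ^ 2 ≤ Y * Py) (hn : 1 ≤ n) (hPx : 0 ≤ Px) (hPy : 0 ≤ Py)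
    (hr : X * Y * (Ax / X - Ay / Y) ^ 2 ≤ 8 * n * (X + Y) * R) :
    X * Y / (X + Y) * ((Ax + Dx) / X - (Ay + Dy) / Y) ^ 2 ≤ 24 * n * (R + (Px + Py)) := by
  have hs : 0 < X + Y := add_pos hX hY
  have e1 : (Ax + Dx) / X - (Ay + Dy) / Y = (Ax / X - Ay / Y) + Dx / X - Dy / Y := by
    rw [add_div, add_div]; ring
  rw [e1]
  have f0 : 0 ≤ X * Y / (X + Y) := by positivity
  have f1 : X * Y / (X + Y) * (Ax / X - Ay / Y) ^ 2 ≤ 8 * n * R := by
    rw [div_mul_eq_mul_div, div_le_iff₀ hs]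
    calc X * Y * (Ax / X - Ay / Y) ^ 2 ≤ 8 * n * (X + Y) * R := hr
      _ = _ := by ring
  have f2 := step_part hX hY hx
  have f3 : X * Y / (X + Y) * (Dy / Y) ^ 2 ≤ Py := by
    have := step_part hY hX hy
    rwa [mul_comm Y X, add_comm Y X] at this
  have h5 : Px ≤ n * Px := by nlinarith
  have h6 : Py ≤ n * Py := by nlinarith
  have h7 := mul_le_mul_of_nonneg_left (step_sq3 (Ax / X - Ay / Y) (Dx / X) (Dy / Y)) f0
  generalize X * Y / (X + Y) = q at *
  generalize (Ax / X - Ay / Y) = a at *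
  generalize Dx / X = b at *
  generalize Dy / Y = c at *
  have h8 : q * (3 * (a ^ 2 + b ^ 2 + c ^ 2)) = 3 * (q * a ^ 2 + q * b ^ 2 + q * c ^ 2) := by ring
  have h9 : 24 * n * (R + (Px + Py)) = 24 * (n * R) + 24 * (n * Px) + 24 * (n * Py) := by ring
  have h10 : 0 ≤ n * Px := mul_nonneg (by linarith) hPx
  have h11 : 0 ≤ n * Py := mul_nonneg (by linarith) hPy
  linarith

/-- TP2: the root term. `K = J.erase i`, `N_x = trs K w (W + x)` etc. From `gf_root`, the root
inequality and `cost_near`: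
`(N_x N_y / N)(E_x g - E_y g)² ≤ 24 n Cost_i`: split `E_x g - E_y g` in
`(E_x h - E_y h) + E_x(g - h) - E_y(g - h)`, `(a+b+c)² ≤ 3(a²+b²+c²)`. -/
theorem poincare_step {w wt : Finset (ι × Bool) → ℝ} {ω : ι → ι → ℝ} (hw : ∀ S, 0 < w S)
    (hL : Lor w) (hwt : WtOK w wt ω) (g h : Finset (ι × Bool) → ℝ) {J : Finset ι}
    {W : Finset (ι × Bool)} (hW : Pinned J W) {i : ι} (hi : i ∈ J)
    (hroot : ∀ j ∈ J, j ≠ i → Zc J w W i j ≤ 4 * ω j i * trs J w W) (Nx Ny : ℝ)
    (hNx : Nx = trs (J.erase i) w (insert (i, false) W))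
    (hNy : Ny = trs (J.erase i) w (insert (i, true) W)) :
    Nx * Ny / (Nx + Ny) * (Mn (J.erase i) w g (insert (i, false) W) / Nx -
      Mn (J.erase i) w g (insert (i, true) W) / Ny) ^ 2 ≤
      24 * Fintype.card ι * Cost J wt g h W i := by
  have hfree := hW.free
  have hfK : Free (J.erase i) W := fun j hj b => hfree j (mem_of_mem_erase hj) b
  have hiK : i ∉ J.erase i := notMem_erase i J
  -- shifts
  have sh : ∀ (b : Bool) (f : Finset (ι × Bool) → ℝ),
      trs (J.erase i) f (insert (i, b) W) = trs (J.erase i) (fun S => f (insert (i, b) S)) W :=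
    fun b f => trs_shift (a := (i, b)) hiK f W
  have hNx' : Nx = trs (J.erase i) (fun S => w (insert (i, false) S)) W := by rw [hNx, sh]
  have hNy' : Ny = trs (J.erase i) (fun S => w (insert (i, true) S)) W := by rw [hNy, sh]
  have hNx0 : 0 < Nx := by rw [hNx']; exact trs_pos hfK fun S => hw _
  have hNy0 : 0 < Ny := by rw [hNy']; exact trs_pos hfK fun S => hw _
  have hN : trs J w W = Nx + Ny := by rw [trs_split hi hfree, hNx, hNy]
  set Ax := trs (J.erase i) (fun S => w (insert (i, false) S) * h S) W with hAx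
  set Ay := trs (J.erase i) (fun S => w (insert (i, true) S) * h S) W with hAy
  set Dx := trs (J.erase i) (fun S => w (insert (i, false) S) *
    (g (insert (i, false) S) - h S)) W with hDx
  set Dy := trs (J.erase i) (fun S => w (insert (i, true) S) *
    (g (insert (i, true) S) - h S)) W with hDy
  set Px := trs (J.erase i) (fun S => w (insert (i, false) S) *
    (g (insert (i, false) S) - h S) ^ 2) W with hPx
  set Py := trs (J.erase i) (fun S => w (insert (i, true) S) *
    (g (insert (i, true) S) - h S) ^ 2) W with hPy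
  have hMx : Mn (J.erase i) w g (insert (i, false) W) = Ax + Dx := by
    unfold Mn
    rw [sh, hAx, hDx, ← trs_add]
    congr 1
    funext S
    ring
  have hMy : Mn (J.erase i) w g (insert (i, true) W) = Ay + Dy := by
    unfold Mn
    rw [sh, hAy, hDy, ← trs_add]
    congr 1
    funext S
    ring
  have hDx2 : Dx ^ 2 ≤ Nx * Px := by
    rw [hNx', hPx, hDx]
    exact trs_cs hfK (w := fun S => w (insert (i, false) S)) (fun S => (hw _).le)
      (fun S => g (insert (i, false) S) - h S)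
  have hDy2 : Dy ^ 2 ≤ Ny * Py := by
    rw [hNy', hPy, hDy]
    exact trs_cs hfK (w := fun S => w (insert (i, true) S)) (fun S => (hw _).le)
      (fun S => g (insert (i, true) S) - h S)
  have hPx0 : 0 ≤ Px := trs_nonneg (fun S => mul_nonneg (hw _).le (sq_nonneg _)) W
  have hPy0 : 0 ≤ Py := trs_nonneg (fun S => mul_nonneg (hw _).le (sq_nonneg _)) W
  set R := ∑ j ∈ J.erase i, ω j i * En ((J.erase i).erase j) w h W j / 2 with hR
  have hR0 : 0 ≤ R := sum_nonneg fun j _ =>
    div_nonneg (mul_nonneg (hwt.omega_nonneg _ _) (En_nonneg _ hw h W j)) (by norm_num)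
  have hroot' : Nx * Ny * (Ax / Nx - Ay / Ny) ^ 2 ≤
      8 * (Fintype.card ι : ℝ) * (Nx + Ny) * R := by
    refine (gf_root hw hL hfree hi h Nx Ny Ax Ay hNx' hNy' hAx hAy).trans ?_
    have h1 : ∑ j ∈ J.erase i, Zc J w W i j * En ((J.erase i).erase j) w h W j ≤
        8 * (Nx + Ny) * R := by
      rw [hR, mul_sum]
      refine sum_le_sum fun j hj => ?_
      have h2 := hroot j (mem_of_mem_erase hj) (ne_of_mem_erase hj)
      rw [hN] at h2
      have h3 := En_nonneg ((J.erase i).erase j) hw h W j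
      calc Zc J w W i j * En ((J.erase i).erase j) w h W j
          ≤ 4 * ω j i * (Nx + Ny) * En ((J.erase i).erase j) w h W j := by gcongr
        _ = _ := by ring
    have h4 : ((J.erase i).card : ℝ) ≤ Fintype.card ι := by
      exact_mod_cast card_le_univ _
    have h5 : 0 ≤ 8 * (Nx + Ny) * R := by positivity
    calc ((J.erase i).card : ℝ) * ∑ j ∈ J.erase i, Zc J w W i j *
          En ((J.erase i).erase j) w h W j
        ≤ (J.erase i).card * (8 * (Nx + Ny) * R) := by gcongr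
      _ ≤ Fintype.card ι * (8 * (Nx + Ny) * R) := by gcongr
      _ = _ := by ring
  have hcost := cost_near hwt g h hW hi
  rw [trs_add] at hcost
  have hcard : (1 : ℝ) ≤ Fintype.card ι := by
    exact_mod_cast Fintype.card_pos_iff.2 ⟨i⟩
  set n : ℝ := (Fintype.card ι : ℝ) with hn
  have hfin : Nx * Ny / (Nx + Ny) * ((Ax + Dx) / Nx - (Ay + Dy) / Ny) ^ 2 ≤
      24 * n * (R + (Px + Py)) :=
    step_arith hNx0 hNy0 hDx2 hDy2 hcard hPx0 hPy0 hroot'
  rw [hMx, hMy]
  refine hfin.trans ?_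
  have : 0 ≤ 24 * n := by linarith
  exact mul_le_mul_of_nonneg_left hcost this

end Vale.Agent.P317R
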