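import Vale.Agent.P317R.Basic
import Vale.Agent.P317R.Freq

/-! # P317: the full step: ideal chain (lazy, reversible, closed, conductance) and perturbation -/

namespace Vale.Agent.P317R

open Vale.Agent.P328RAM
open Vale.Agent.P328R (TVle Sym EE bern lawOf)
open scoped ENNReal
open Finset

variable {n : ℕ} {I : Inst n} {p : Par} {k : ℕ} {t : Tb n}

/-! ### the ideal step -/

theorem bern_map_apply {β : Type} (a : NNReal) (ha : a ≤ 1) (f : Bool → β) (y : β)
    [Decidable (y = f true)] [Decidable (y = f false)] :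
    ((bern a ha).map f) y = (if y = f true then (a : ℝ≥0∞) else 0) +
      if y = f false then ((1 - a : NNReal) : ℝ≥0∞) else 0 := by
  classical
  rw [PMF.map_apply, tsum_fintype, Fintype.sum_bool, P328R.bern_true, P328R.bern_false]
  congr

theorem accI_apply (B B' Z : St n) :
    accI I p k t B Z B' = (if B' = Z then (accP I p k t B Z : ℝ≥0∞) else 0) +
      if B' = B then ((1 - accP I p k t B Z : NNReal) : ℝ≥0∞) else 0 := by
  exact bern_map_apply _ _ _ _

/-- transition probabilities off the diagonal -/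
theorem stepI_apply {B B' : St n} (h : B ≠ B') :
    stepI I p k t B B' = 2⁻¹ * (propK p B B' * (accP I p k t B B' : ℝ≥0∞)) := by
  unfold stepI
  rw [unif1_bind_applyJ]
  simp only [zero_ne_one, if_false, if_true, PMF.bind_const]
  rw [PMF.pure_apply, if_neg (fun e => h e.symm), mul_zero, zero_add, PMF.bind_apply]
  congr 1
  rw [tsum_eq_single B']
  · rw [accI_apply, if_pos rfl, if_neg (fun e => h e.symm), add_zero]
  · intro Z hZ
    rw [accI_apply, if_neg (fun e => hZ e.symm), if_neg (fun e => h e.symm), add_zero, mul_zero]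

theorem stepI_lazy (B : St n) : 2⁻¹ ≤ stepI I p k t B B := by
  unfold stepI
  rw [unif1_bind_applyJ]
  simp only [zero_ne_one, if_false, if_true, PMF.bind_const]
  rw [PMF.pure_apply, if_pos rfl, mul_one]
  exact le_self_add

theorem stepI_lazy_real (B : St n) : 1 / 2 ≤ (stepI I p k t B B).toReal := by
  have h := ENNReal.toReal_mono (PMF.apply_ne_top _ _) (stepI_lazy (I := I) (p := p) (k := k)
    (t := t) B)
  rw [ENNReal.toReal_inv, ENNReal.toReal_ofNat] at h
  rw [one_div]
  exact h

theorem Wt_mul_accP (B B' : St n) (h : Wt I p k t B ≠ 0) :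
    (Wt I p k t B : ℝ≥0∞) * (accP I p k t B B' : ℝ≥0∞) =
      ((min (Wt I p k t B) (Wt I p k t B') : ℕ) : ℝ≥0∞) := by
  have h1 : (Wt I p k t B : NNReal) * accP I p k t B B' =
      ((min (Wt I p k t B) (Wt I p k t B') : ℕ) : NNReal) := by
    unfold accP
    have h0 : (0 : NNReal) < (Wt I p k t B : NNReal) := by
      exact_mod_cast Nat.pos_of_ne_zero h
    rw [mul_min_of_nonneg _ _ h0.le, mul_one, mul_div_cancel₀ _ h0.ne']
    rw [Nat.cast_min]
  rw [show ((Wt I p k t B : ℕ) : ℝ≥0∞) = ((Wt I p k t B : NNReal) : ℝ≥0∞) by simp,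
    ← ENNReal.coe_mul, h1]
  exact ENNReal.coe_natCast _

/-! ### the state spaces and their laws -/

/-- the states -/
def stS (n : ℕ) : Finset (St n) := univ.filter IsSt

/-- the perfect states -/
def peS (n : ℕ) : Finset (St n) := univ.filter Perf

/-- the states of a class -/
def clS (n : ℕ) (c : Option (Fin n × Fin n)) : Finset (St n) :=
  match c with
  | none => peS n
  | some ij => univ.filter (Cls ij)

@[simp] theorem mem_stS {B : St n} : B ∈ stS n ↔ IsSt B := by simp [stS]

@[simp] theorem mem_peS {B : St n} : B ∈ peS n ↔ Perf B := by simp [peS]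

theorem mem_clS {B : St n} {c : Option (Fin n × Fin n)} : B ∈ clS n c ↔ IsSt B ∧ cl B = c := by
  cases c with
  | none =>
    simp only [clS, mem_peS]
    constructor
    · intro h
      exact ⟨Or.inl h, cl_of_perf h⟩
    · rintro ⟨h1, h2⟩
      exact (cl_eq_none h1).1 h2
  | some ij =>
    simp only [clS, mem_filter, mem_univ, true_and]
    constructor
    · intro h
      exact ⟨Or.inr ⟨ij, h⟩, cl_of_cls h⟩
    · rintro ⟨_, h2⟩
      exact cl_eq_some.1 h2

theorem peS_subset : peS n ⊆ stS n := fun B hB => by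
  rw [mem_stS]
  exact Or.inl (mem_peS.1 hB)

/-- a perfect state -/
theorem perf_exists (f : Fin n → Bool) :
    Perf (Finset.univ.filter fun e : Fin n × Bool => e.2 = f e.1) := by
  intro e
  unfold npair
  simp only [mem_filter, mem_univ, true_and]
  cases h : f e <;> simp

theorem peS_nonempty (n : ℕ) : (peS n).Nonempty :=
  ⟨_, mem_peS.2 (perf_exists fun _ => false)⟩

theorem stS_nonempty (n : ℕ) : (stS n).Nonempty := (peS_nonempty n).mono peS_subset

/-- the law of the ideal chain -/
noncomputable def piS (I : Inst n) (p : Par) (k : ℕ) (t : Tb n) : PMF (St n) :=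
  lawOf (stS n) (Wt I p k t)

/-- the law on the perfect states -/
noncomputable def piP (I : Inst n) (p : Par) (k : ℕ) (t : Tb n) : PMF (St n) :=
  lawOf (peS n) (Wt I p k t)

/-- the total weight -/
noncomputable def Zs (I : Inst n) (p : Par) (k : ℕ) (t : Tb n) : ℕ := ∑ B ∈ stS n, Wt I p k t B

/-- the total weight of the perfect states -/
noncomputable def Zp (I : Inst n) (p : Par) (k : ℕ) (t : Tb n) : ℕ := ∑ B ∈ peS n, Wt I p k t B

theorem Zp_pos (hn : 0 < n) : 0 < Zp I p k t := by
  obtain ⟨X, hX⟩ := peS_nonempty n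
  exact Finset.sum_pos' (fun _ _ => Nat.zero_le _)
    ⟨X, hX, Nat.pos_of_ne_zero ((Wt_ne_zero hn).2 (mem_stS.1 (peS_subset hX)))⟩

theorem Zp_le_Zs : Zp I p k t ≤ Zs I p k t :=
  Finset.sum_le_sum_of_subset peS_subset

theorem Zs_pos (hn : 0 < n) : 0 < Zs I p k t := (Zp_pos hn).trans_le Zp_le_Zs

theorem piS_apply (hn : 0 < n) (B : St n) :
    piS I p k t B = (Wt I p k t B : ℝ≥0∞) / ((Zs I p k t : ℕ) : ℝ≥0∞) := by
  classical
  unfold piS
  rw [P328R.lawOf_apply (Zs_pos hn).ne']
  by_cases h : B ∈ stS n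
  · rw [if_pos h]
    rfl
  · rw [if_neg h]
    have h' : Wt I p k t B = 0 := by
      by_contra h1
      exact h (mem_stS.2 ((Wt_ne_zero hn).1 h1))
    rw [h']
    simp

theorem piS_apply_real (hn : 0 < n) (B : St n) :
    (piS I p k t B).toReal = (Wt I p k t B : ℝ) / (Zs I p k t : ℝ) := by
  rw [piS_apply hn, ENNReal.toReal_div, ENNReal.toReal_natCast, ENNReal.toReal_natCast]

theorem piP_apply (hn : 0 < n) {B : St n} (hB : Perf B) :
    piP I p k t B = (Wt I p k t B : ℝ≥0∞) / ((Zp I p k t : ℕ) : ℝ≥0∞) := by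
  classical
  unfold piP
  rw [P328R.lawOf_apply (Zp_pos hn).ne', if_pos (mem_peS.2 hB)]
  rfl

theorem piP_apply_real (hn : 0 < n) {B : St n} (hB : Perf B) :
    (piP I p k t B).toReal = (Wt I p k t B : ℝ) / (Zp I p k t : ℝ) := by
  rw [piP_apply hn hB, ENNReal.toReal_div, ENNReal.toReal_natCast, ENNReal.toReal_natCast]

theorem piP_apply_not (hn : 0 < n) {B : St n} (hB : ¬ Perf B) : piP I p k t B = 0 := by
  classical
  unfold piP
  rw [P328R.lawOf_apply (Zp_pos hn).ne', if_neg (fun h => hB (mem_peS.1 h))]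

theorem piS_supp (hn : 0 < n) : ∀ B, B ∉ stS n → piS I p k t B = 0 := by
  intro B hB
  rw [piS_apply hn]
  have h' : Wt I p k t B = 0 := by
    by_contra h1
    exact hB (mem_stS.2 ((Wt_ne_zero hn).1 h1))
  rw [h']
  simp

/-- conductance off the diagonal -/
theorem piS_mul_stepI (hn : 0 < n) {B B' : St n} (hB : IsSt B) (h : B ≠ B') :
    piS I p k t B * stepI I p k t B B' =
      2⁻¹ * (propK p B B' * (((min (Wt I p k t B) (Wt I p k t B') : ℕ) : ℝ≥0∞) /
        ((Zs I p k t : ℕ) : ℝ≥0∞))) := by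
  rw [piS_apply hn, stepI_apply h, ← Wt_mul_accP B B' ((Wt_ne_zero hn).2 hB)]
  simp only [div_eq_mul_inv]
  ring

theorem stepI_rev (hn : 0 < n) : ∀ B ∈ stS n, ∀ B' ∈ stS n,
    piS I p k t B * stepI I p k t B B' = piS I p k t B' * stepI I p k t B' B := by
  intro B hB B' hB'
  by_cases h : B = B'
  · rw [h]
  · rw [piS_mul_stepI hn (mem_stS.1 hB) h, piS_mul_stepI hn (mem_stS.1 hB') (Ne.symm h),
      propK_sym p B B', min_comm]

theorem stepI_closed (hn : 0 < n) : ∀ B ∈ stS n, ∀ B', B' ∉ stS n → stepI I p k t B B' = 0 := by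
  intro B hB B' hB'
  have h : B ≠ B' := fun e => hB' (e ▸ hB)
  rw [stepI_apply h]
  have h' : Wt I p k t B' = 0 := by
    by_contra h1
    exact hB' (mem_stS.2 ((Wt_ne_zero hn).1 h1))
  have h2 : accP I p k t B B' = 0 := by
    unfold accP
    rw [h']
    simp
  rw [h2]
  simp

theorem revChain_stepI (hn : 0 < n) : RevChain (stS n) (piS I p k t) (stepI I p k t) where
  supp := piS_supp hn
  closed := stepI_closed hn
  rev := stepI_rev hn
  lazy := fun B _ => stepI_lazy_real B

/-- lower bound for the conductance of an exchange -/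
theorem cond_ge (hn : 0 < n) (hBn : n ≤ 2 ^ p.Bn) {B : St n} {e f : Fin n × Bool} (he : e ∈ B)
    (hf : f ∉ B) (hB : IsSt B) :
    (1 / (8 * (2 ^ p.Bn) ^ 2 : ℝ)) * (min (Wt I p k t B : ℝ) (Wt I p k t (insert f (B.erase e))) /
      (Zs I p k t : ℝ)) ≤
      (piS I p k t B).toReal * (stepI I p k t B (insert f (B.erase e))).toReal := by
  set B' := insert f (B.erase e) with hB'
  have h : B ≠ B' := by
    intro h
    apply hf
    rw [h]
    exact Finset.mem_insert_self _ _
  have h1 := piS_mul_stepI (I := I) (p := p) (k := k) (t := t) hn hB h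
  have h2 := congrArg ENNReal.toReal h1
  rw [ENNReal.toReal_mul, ENNReal.toReal_mul, ENNReal.toReal_mul, ENNReal.toReal_div,
    ENNReal.toReal_natCast, ENNReal.toReal_natCast, ENNReal.toReal_inv, ENNReal.toReal_ofNat] at h2
  rw [h2]
  have h3 := ENNReal.toReal_mono (PMF.apply_ne_top _ _) (propK_ge hBn he hf)
  rw [ENNReal.toReal_inv, ENNReal.toReal_natCast] at h3
  push_cast at h3
  rw [← hB'] at h3
  push_cast
  have h4 : 0 ≤ min (Wt I p k t B : ℝ) (Wt I p k t B') / (Zs I p k t : ℝ) := by positivity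
  calc (1 / (8 * (2 ^ p.Bn) ^ 2 : ℝ)) * (min (Wt I p k t B : ℝ) (Wt I p k t B') / (Zs I p k t : ℝ))
      = 2⁻¹ * ((4 * (2 ^ p.Bn) ^ 2 : ℝ)⁻¹ *
          (min (Wt I p k t B : ℝ) (Wt I p k t B') / (Zs I p k t : ℝ))) := by
        rw [one_div, ← mul_assoc]
        congr 1
        rw [← mul_inv]
        congr 1
        ring
    _ ≤ _ := by gcongr

/-! ### the implemented step -/

/-- the implemented test against the ideal one -/
theorem test_bern (K x y : ℕ) (hx : 0 < x) :
    TVle ((unif K).map fun U => decide (U * x < 2 ^ K * y))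
      (bern (min 1 ((y : NNReal) / (x : NNReal))) (min_le_left _ _)) ((2 : ℝ≥0∞) ^ K)⁻¹ := by
  set N := 2 ^ K with hN
  have hN0 : 0 < N := by positivity
  set c := min N ((N * y + x - 1) / x) with hc
  have hcN : c ≤ N := min_le_left _ _
  have hcount := P328R.count_lt (N := N) (x := x) (y := y) hx
  have hle : ((((Finset.range (2 ^ K)).filter
      fun i => decide (i * x < N * y) = true).card : NNReal) / 2 ^ K) ≤ 1 := by
    rw [← hN, hcount]
    rw [div_le_one (by positivity)]
    have : ((c : ℕ) : NNReal) ≤ ((N : ℕ) : NNReal) := by exact_mod_cast hcN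
    rw [hN] at this
    push_cast at this
    exact this
  rw [P328R.unif_map_dec K _ hle]
  have hδ : ((2 : ℝ≥0∞) ^ K)⁻¹ = (((2 : NNReal) ^ K)⁻¹ : NNReal) := by
    rw [ENNReal.coe_inv (by positivity)]
    push_cast
    rfl
  rw [hδ]
  have hcx : N * y ≤ ((N * y + x - 1) / x) * x := by
    have h1 := Nat.div_add_mod (N * y + x - 1) x
    have h2 := Nat.mod_lt (N * y + x - 1) hx
    have h3 : x * ((N * y + x - 1) / x) = ((N * y + x - 1) / x) * x := mul_comm _ _
    omega
  have hcx' : ((N * y + x - 1) / x) * x ≤ N * y + x - 1 := Nat.div_mul_le_self _ _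
  have hx' : (0 : ℝ) < x := by exact_mod_cast hx
  have hN' : (0 : ℝ) < N := by exact_mod_cast hN0
  have h2N : ((2 : ℝ) ^ K) = N := by rw [hN]; push_cast; rfl
  refine P328R.TVle_bern _ _ ?_ ?_
  · rw [← hN, hcount, ← hc]
    rw [← NNReal.coe_le_coe]
    push_cast
    rw [h2N]
    rcases le_total N ((N * y + x - 1) / x) with h | h
    · have : c = N := by rw [hc]; exact min_eq_left h
      rw [this, div_self hN'.ne']
      exact min_le_left _ _
    · have : c = (N * y + x - 1) / x := by rw [hc]; exact min_eq_right h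
      refine (min_le_right _ _).trans ?_
      rw [div_le_div_iff₀ hx' hN', this]
      have : ((N * y : ℕ) : ℝ) ≤ ((((N * y + x - 1) / x) * x : ℕ) : ℝ) := by exact_mod_cast hcx
      push_cast at this ⊢
      linarith
  · rw [← hN, hcount, ← hc]
    rw [← NNReal.coe_le_coe]
    push_cast
    rw [h2N]
    have hc2 : (c : ℝ) ≤ N * y / x + 1 := by
      have h3 : c ≤ (N * y + x - 1) / x := min_le_right _ _
      have h4 : c * x ≤ N * y + x - 1 := (Nat.mul_le_mul_right x h3).trans hcx'
      have h5 : c * x ≤ N * y + x := by omega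
      have h6 : ((c * x : ℕ) : ℝ) ≤ ((N * y + x : ℕ) : ℝ) := by exact_mod_cast h5
      push_cast at h6
      have h7 : (N : ℝ) * y / x + 1 = (N * y + x) / x := by field_simp
      rw [h7, le_div_iff₀ hx']
      exact h6
    have hc3 : (c : ℝ) ≤ N := by exact_mod_cast hcN
    rcases le_total (1 : ℝ) (y / x) with h | h
    · rw [min_eq_left h]
      have : (c : ℝ) / N ≤ 1 := by rw [div_le_one hN']; exact hc3
      have h8 : (0 : ℝ) ≤ (N : ℝ)⁻¹ := by positivity
      linarith
    · rw [min_eq_right h, div_le_iff₀ hN']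
      have h9 : ((y : ℝ) / x + (N : ℝ)⁻¹) * N = N * y / x + 1 := by field_simp
      rw [h9]
      exact hc2

/-- The implemented step is within `2 ^ (-K)` of the ideal one. -/
theorem stepK_stepI (hn : 0 < n) {B : St n} (hB : IsSt B) :
    TVle (stepK I p k t B) (stepI I p k t B) ((2 : ℝ≥0∞) ^ p.K)⁻¹ := by
  unfold stepK stepI
  refine TVle.bind_right fun w _ => TVle.bind_right fun B' _ => ?_
  by_cases hw : w = 1
  · simp only [hw, true_and, if_true]
    have h1 : ((unif p.K).map fun U => if U * Wt I p k t B < 2 ^ p.K * Wt I p k t B' then B'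
        else B) = ((unif p.K).map fun U => decide (U * Wt I p k t B < 2 ^ p.K *
          Wt I p k t B')).map fun a => if a then B' else B := by
      rw [PMF.map_comp]
      congr 1
      funext U
      simp only [Function.comp, decide_eq_true_eq]
    rw [h1]
    exact (test_bern _ _ _ (Nat.pos_of_ne_zero ((Wt_ne_zero hn).2 hB))).map _
  · simp only [hw, false_and, if_false]
    have h1 : ((unif p.K).map fun _ => B) = PMF.pure B := PMF.map_const _ _
    rw [h1]
    exact TVle.refl _ _

/-- the implemented step stays in the state space -/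
theorem stepK_closed (hn : 0 < n) : ∀ B ∈ stS n, ∀ B' ∈ (stepK I p k t B).support, B' ∈ stS n := by
  intro B hB B' hB'
  unfold stepK at hB'
  rw [PMF.mem_support_bind_iff] at hB'
  obtain ⟨w, _, hB'⟩ := hB'
  rw [PMF.mem_support_bind_iff] at hB'
  obtain ⟨Z, _, hB'⟩ := hB'
  rw [PMF.mem_support_map_iff] at hB'
  obtain ⟨U, _, hU⟩ := hB'
  split_ifs at hU with h
  · subst hU
    rw [mem_stS, ← Wt_ne_zero (I := I) (p := p) (k := k) (t := t) hn]
    intro h0
    rw [h0] at h
    omega
  · rw [← hU]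
    exact hB

end Vale.Agent.P317R
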